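import Vale.Agent.P032.H326.Trip
import Vale.Agent.P032.H266.FamZ

/-!
# P032: the contact directions of a 5-centre

`CD T z c m` : the directions (units of 60 degrees) in which the colours `c m` and `c (m + 1)` touch
arbitrarily near `z`.
`win_of_cd` : every choice of contact directions is a window (`Win`).
`Blk5` : ten rays `a m ≤ b m < a (m + 1)`: the contact directions of `m` are between `a m` and `b m`,
every choice is a window, and the directions between `b (m - 1)` and `a m` are solid in `c m`.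
`exists_blk5` : existence.
-/

open Set Filter Topology Metric

noncomputable section

namespace Vale.Agent.P032.H908

open Vale.Agent.P032.Six Vale.Agent.P032.Sweep Vale.Agent.P032.S5.H767 Vale.Agent.P032.S5.H122
  Vale.Agent.P032.H158 Vale.Agent.P032.H326 Vale.Agent.P032.H266

section cd

variable {k : ℕ} {U : Fin k → Set ℂ} {T : ℂ → Set (Fin k)} {z : ℂ} {c : Fin 5 → Fin k}

/-- the contact directions of `c m` and `c (m + 1)` -/
def CD (T : ℂ → Set (Fin k)) (z : ℂ) (c : Fin 5 → Fin k) (m : Fin 5) : Set ℝ :=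
  {x | ∃ᶠ w in nap z (cis (x * (Real.pi / 3))), c m ∈ T w ∧ c (m + 1) ∈ T w}

theorem ev_add {x : ℝ} {p : ℂ → Prop} (h : ∀ᶠ w in nap z (cis (x * (Real.pi / 3))), p w) :
    ∀ᶠ y in 𝓝 x, ∀ᶠ w in nap z (cis (y * (Real.pi / 3))), p w := by
  have h1 := nap_semi h
  have ht : Tendsto (fun y : ℝ => (y - x) * (Real.pi / 3)) (𝓝 x) (𝓝 0) := by
    have hc : Continuous fun y : ℝ => (y - x) * (Real.pi / 3) := by fun_prop
    have := hc.tendsto x
    rwa [sub_self, zero_mul] at this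
  filter_upwards [ht.eventually h1] with y hy
  rwa [← cis_add429, show x * (Real.pi / 3) + (y - x) * (Real.pi / 3) = y * (Real.pi / 3) by ring]
    at hy

theorem cd_closed (m : Fin 5) : IsClosed (CD T z c m) := by
  rw [← isOpen_compl_iff, isOpen_iff_mem_nhds]
  intro x hx
  have hx' : ∀ᶠ w in nap z (cis (x * (Real.pi / 3))), ¬ (c m ∈ T w ∧ c (m + 1) ∈ T w) :=
    not_frequently.1 hx
  filter_upwards [ev_add hx'] with y hy
  exact not_frequently.2 hy

theorem cis_six (x : ℝ) (n : ℤ) : cis ((x + 6 * n) * (Real.pi / 3)) = cis (x * (Real.pi / 3)) := by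
  rw [show (x + 6 * n) * (Real.pi / 3) = x * (Real.pi / 3) + 2 * Real.pi * n by ring, cis_int429]

theorem cd_six (m : Fin 5) (x : ℝ) (n : ℤ) : x + 6 * n ∈ CD T z c m ↔ x ∈ CD T z c m := by
  unfold CD
  rw [mem_ofPred_eq, mem_ofPred_eq, cis_six]

theorem cd_nonempty (P : P5 T z c) (h : Irr U T)
    (hmin : ∀ z, 4 ≤ (T z).ncard → ∀ s, s ⊆ T z → s ≠ T z →
      ¬ ∀ᶠ w in 𝓝 z, ∃ i ∈ s, w ∈ U i ∨ (w ∈ XX U ∧ i ∈ Pal U w)) (m : Fin 5) :
    ∃ x, x ∈ CD T z c m := by
  obtain ⟨s, hs⟩ := exists_nap (Q := fun w => c m ∈ T w ∧ c (m + 1) ∈ T w) (P.contact h hmin m)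
  refine ⟨s * (3 / Real.pi), ?_⟩
  have hp := Real.pi_pos
  have e : s * (3 / Real.pi) * (Real.pi / 3) = s := by field_simp
  unfold CD
  rw [mem_ofPred_eq, e]
  exact hs

/-- a contact direction is an accumulation direction in the sense of `Win` -/
theorem cd_acc {m : Fin 5} {x : ℝ} (hx : x ∈ CD T z c m) (q : ℂ) (s ε : ℝ)
    (hq : ∀ᶠ w in 𝓝 z, c m ∈ T w ∧ c (m + 1) ∈ T w → ε * dist w z ≤ s * ip (w - z) q) :
    ε ≤ s * ip (cis (x * (Real.pi / 3))) q := by
  by_contra hcon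
  push Not at hcon
  have h1 : ∀ᶠ σ : ℝ in 𝓝 0, s * ip (cis (x * (Real.pi / 3)) * cis σ) q < ε := by
    have hc : Continuous fun σ : ℝ => s * ip (cis (x * (Real.pi / 3)) * cis σ) q := by
      have := continuous_cis
      unfold ip
      fun_prop
    have h2 := hc.tendsto 0
    have e : cis 0 = 1 := by simp [cis]
    rw [e, mul_one] at h2
    exact h2.eventually (Iio_mem_nhds hcon)
  obtain ⟨δ, hδ, h2⟩ := Metric.eventually_nhds_iff.1 h1
  have h3 : ∀ᶠ w in nap z (cis (x * (Real.pi / 3))),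
      ¬ (ε * dist w z ≤ s * ip (w - z) q) := by
    refine nap_iff.2 ⟨δ, hδ, fun σ r hσ hr0 hr => ?_⟩
    have h4 := h2 (show dist σ 0 < δ by rwa [Real.dist_eq, sub_zero])
    have h5 : dist (z + r * (cis (x * (Real.pi / 3)) * cis σ)) z = r := by
      rw [dist_eq_norm, add_sub_cancel_left, norm_mul, norm_mul, norm_cis, norm_cis,
        Complex.norm_real, Real.norm_eq_abs, abs_of_pos hr0]
      ring
    have h6 : ip (z + r * (cis (x * (Real.pi / 3)) * cis σ) - z) q =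
        r * ip (cis (x * (Real.pi / 3)) * cis σ) q := by
      rw [add_sub_cancel_left]
      unfold ip
      simp only [Complex.mul_re, Complex.ofReal_re, Complex.ofReal_im, Complex.mul_im, zero_mul,
        sub_zero, add_zero]
      ring
    rw [h5, h6]
    nlinarith
  have hx' : ∃ᶠ w in nap z (cis (x * (Real.pi / 3))), c m ∈ T w ∧ c (m + 1) ∈ T w := hx
  have h7 : ∀ᶠ w in nap z (cis (x * (Real.pi / 3))),
      c m ∈ T w ∧ c (m + 1) ∈ T w → ε * dist w z ≤ s * ip (w - z) q := (nap_le _ _) hq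
  obtain ⟨w, hw1, hw2, hw3⟩ := (hx'.and_eventually (h7.and h3)).exists
  exact hw3 (hw2 hw1)

/-- **every choice of contact directions is a window** -/
theorem win_of_cd (P : P5 T z c) (h : Irr U T)
    (hmin : ∀ z, 4 ≤ (T z).ncard → ∀ s, s ⊆ T z → s ≠ T z →
      ¬ ∀ᶠ w in 𝓝 z, ∃ i ∈ s, w ∈ U i ∨ (w ∈ XX U ∧ i ∈ Pal U w)) {x : Fin 5 → ℝ}
    (hx : ∀ m, x m ∈ CD T z c m) : Win T z c fun m => cis (x m * (Real.pi / 3)) := by
  refine ⟨fun j => norm_cis _, fun j q s ε hq => cd_acc (hx j) q s ε hq, fun j q hq hT => ?_⟩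
  obtain ⟨s, hs, ε, hε, hw⟩ := P.strict h hmin hq hT
  have key1 : ∀ i, (∀ w, c i ∈ T w ∧ c (i + 1) ∈ T w → c j ∈ T w) →
      0 < s * ip (cis (x i * (Real.pi / 3))) (q - z) := by
    intro i hi
    refine lt_of_lt_of_le hε (cd_acc (hx i) _ s ε ?_)
    filter_upwards [hw] with w h1 h2
    exact h1.1 (hi w h2)
  have key2 : ∀ i, (∀ w, c i ∈ T w ∧ c (i + 1) ∈ T w → c (j + 2) ∈ T w) →
      s * ip (cis (x i * (Real.pi / 3))) (q - z) < 0 := by
    intro i hi
    have h1 : ε ≤ (-s) * ip (cis (x i * (Real.pi / 3))) (q - z) := by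
      refine cd_acc (hx i) _ (-s) ε ?_
      filter_upwards [hw] with w h1 h2
      have := h1.2 (hi w h2)
      linarith
    linarith
  refine ⟨s, hs, key1 _ ?_, key1 _ fun w hw' => hw'.1, key2 _ ?_, key2 _ fun w hw' => hw'.1⟩
  · intro w hw'
    have := hw'.2
    rwa [f41_326] at this
  · intro w hw'
    have := hw'.2
    rwa [f11_326] at this

/-! ### The order of the contact directions -/

theorem sin_pos_range {x : ℝ} (h1 : -3 ≤ x) (h2 : x ≤ 6) (h : 0 < Real.sin (x * (Real.pi / 3))) :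
    0 < x ∧ x < 3 := by
  have hp := Real.pi_pos
  constructor
  · by_contra hcon
    push Not at hcon
    have h3 : Real.sin (x * (Real.pi / 3)) ≤ 0 :=
      Real.sin_nonpos_of_nonpos_of_neg_pi_le (by nlinarith) (by nlinarith)
    linarith
  · by_contra hcon
    push Not at hcon
    have h3 : 0 ≤ Real.sin (x * (Real.pi / 3) - Real.pi) :=
      Real.sin_nonneg_of_nonneg_of_le_pi (by nlinarith) (by nlinarith)
    rw [Real.sin_sub_pi] at h3
    linarith

/-- the turn of a choice -/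
def Pos (x : Fin 5 → ℝ) : Prop := ∀ j, 0 < Real.sin ((x (j + 1) - x j) * (Real.pi / 3))

theorem turn_cd (P : P5 T z c) (h : Irr U T)
    (hmin : ∀ z, 4 ≤ (T z).ncard → ∀ s, s ⊆ T z → s ≠ T z →
      ¬ ∀ᶠ w in 𝓝 z, ∃ i ∈ s, w ∈ U i ∨ (w ∈ XX U ∧ i ∈ Pal U w)) {x : Fin 5 → ℝ}
    (hx : ∀ m, x m ∈ CD T z c m) (j : Fin 5)
    (hj : 0 < Real.sin ((x (j + 1) - x j) * (Real.pi / 3))) : Pos x := by
  have hF := (win_of_cd P h hmin hx).fan P
  have e : ∀ j : Fin 5, cr (cis (x j * (Real.pi / 3))) (cis (x (j + 1) * (Real.pi / 3))) =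
      Real.sin ((x (j + 1) - x j) * (Real.pi / 3)) := by
    intro j
    rw [cr_cis326]
    congr 1; ring
  rcases hF.turn with h1 | h1
  · intro i
    rw [← e]
    exact h1 i
  · have := h1 j
    rw [e] at this
    linarith

/-- all the choices have the same turn -/
theorem pos_cd (P : P5 T z c) (h : Irr U T)
    (hmin : ∀ z, 4 ≤ (T z).ncard → ∀ s, s ⊆ T z → s ≠ T z →
      ¬ ∀ᶠ w in 𝓝 z, ∃ i ∈ s, w ∈ U i ∨ (w ∈ XX U ∧ i ∈ Pal U w)) {x y : Fin 5 → ℝ}
    (hx : ∀ m, x m ∈ CD T z c m) (hp : Pos x) (hy : ∀ m, y m ∈ CD T z c m) : Pos y := by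
  have h1 : Pos ![y 0, y 1, x 2, x 3, x 4] := by
    refine turn_cd P h hmin (fun m => ?_) 2 ?_
    · fin_cases m
      · exact hy 0
      · exact hy 1
      · exact hx 2
      · exact hx 3
      · exact hx 4
    · exact hp 2
  exact turn_cd P h hmin hy 0 (h1 0)

theorem place {α β ρ x : ℝ} (h1 : α < ρ) (h1' : ρ < α + 3) (h2 : ρ < β) (h2' : β < ρ + 3)
    (hx1 : ρ - 3 ≤ x) (hx2 : x ≤ ρ + 3) (s1 : 0 < Real.sin ((x - α) * (Real.pi / 3)))
    (s2 : 0 < Real.sin ((β - x) * (Real.pi / 3))) : α < x ∧ x < β := by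
  have h3 := sin_pos_range (by linarith) (by linarith) s1
  have h4 := sin_pos_range (by linarith) (by linarith) s2
  exact ⟨by linarith [h3.1], by linarith [h4.1]⟩

theorem sin_six (x : ℝ) : Real.sin ((x + 6) * (Real.pi / 3)) = Real.sin (x * (Real.pi / 3)) := by
  rw [show (x + 6) * (Real.pi / 3) = x * (Real.pi / 3) + 2 * Real.pi by ring, Real.sin_add_two_pi]

/-- the previous ray -/
def prv (b : Fin 5 → ℝ) : Fin 5 → ℝ := ![b 4 - 6, b 0, b 1, b 2, b 3]

/-- the next ray -/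
def nxt (b : Fin 5 → ℝ) : Fin 5 → ℝ := ![b 1, b 2, b 3, b 4, b 0 + 6]

/-- **the ten rays**: the contact directions of `m` are in the block from `a m` to `b m` -/
structure Blk5 (U : Fin k → Set ℂ) (T : ℂ → Set (Fin k)) (z : ℂ) (c : Fin 5 → Fin k)
    (a b : Fin 5 → ℝ) : Prop where
  le : ∀ m, a m ≤ b m
  lt : ∀ m, b m < nxt a m
  lt3 : ∀ m, nxt a m < b m + 3
  /-- every choice turns by less than a half turn -/
  gap : ∀ m, nxt b m < a m + 3
  ca : ∀ m, a m ∈ CD T z c m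
  cb : ∀ m, b m ∈ CD T z c m
  blk : ∀ m x, x ∈ CD T z c m → ∃ n : ℤ, a m ≤ x + 6 * n ∧ x + 6 * n ≤ b m
  /-- every choice is a window -/
  win : ∀ x : Fin 5 → ℝ, (∀ m, x m ∈ CD T z c m) → Win T z c fun m => cis (x m * (Real.pi / 3))
  /-- the directions between the blocks are solid -/
  sol : ∀ m x, prv b m < x → x < a m → tau T z (cis (x * (Real.pi / 3))) ⊆ {c m}

/-- the order part -/
structure Ord10 (a b : Fin 5 → ℝ) : Prop where
  le : ∀ m, a m ≤ b m
  lt : ∀ m, b m < nxt a m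

/-- the ten inequalities -/
theorem Ord10.all {a b : Fin 5 → ℝ} (o : Ord10 a b) : (a 0 ≤ b 0 ∧ b 0 < a 1) ∧
    (a 1 ≤ b 1 ∧ b 1 < a 2) ∧ (a 2 ≤ b 2 ∧ b 2 < a 3) ∧ (a 3 ≤ b 3 ∧ b 3 < a 4) ∧
      a 4 ≤ b 4 ∧ b 4 < a 0 + 6 :=
  ⟨⟨o.le 0, o.lt 0⟩, ⟨o.le 1, o.lt 1⟩, ⟨o.le 2, o.lt 2⟩, ⟨o.le 3, o.lt 3⟩, o.le 4, o.lt 4⟩

theorem Ord10.bds {a b : Fin 5 → ℝ} (o : Ord10 a b) (j : Fin 5) :
    a 0 ≤ a j ∧ b j ≤ b 4 ∧ b 4 < a 0 + 6 := by
  obtain ⟨⟨h1, h2⟩, ⟨h3, h4⟩, ⟨h5, h6⟩, ⟨h7, h8⟩, h9, h10⟩ := o.all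
  fin_cases j
  · exact ⟨le_refl _, by show b 0 ≤ b 4; linarith, h10⟩
  · exact ⟨by show a 0 ≤ a 1; linarith, by show b 1 ≤ b 4; linarith, h10⟩
  · exact ⟨by show a 0 ≤ a 2; linarith, by show b 2 ≤ b 4; linarith, h10⟩
  · exact ⟨by show a 0 ≤ a 3; linarith, by show b 3 ≤ b 4; linarith, h10⟩
  · exact ⟨by show a 0 ≤ a 4; linarith, le_refl _, h10⟩

/-- directions which are not contact directions -/
theorem not_cd {a b : Fin 5 → ℝ} (o : Ord10 a b) {j : Fin 5}
    (hb : ∀ x, x ∈ CD T z c j → ∃ n : ℤ, a j ≤ x + 6 * n ∧ x + 6 * n ≤ b j) {t : ℝ}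
    (h0 : a 0 ≤ t) (h6 : t < a 0 + 6) (hj : t < a j ∨ b j < t) : t ∉ CD T z c j := by
  intro hc
  obtain ⟨n, h1, h2⟩ := hb t hc
  obtain ⟨h3, h4, h5⟩ := o.bds j
  have h7 : (-1 : ℝ) < (n : ℝ) := by linarith
  have h8 : (n : ℝ) < 1 := by linarith
  have h9 : (-1 : ℤ) < n := by exact_mod_cast h7
  have h10 : n < (1 : ℤ) := by exact_mod_cast h8
  have h11 : n = 0 := by omega
  rw [h11] at h1 h2
  push_cast at h1 h2
  rcases hj with h | h <;> linarith

theorem not_cd_gap {a b : Fin 5 → ℝ} (o : Ord10 a b)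
    (hb : ∀ j x, x ∈ CD T z c j → ∃ n : ℤ, a j ≤ x + 6 * n ∧ x + 6 * n ≤ b j) {m : Fin 5} {t : ℝ}
    (h1 : prv b m < t) (h2 : t < a m) (j : Fin 5) : t ∉ CD T z c j := by
  obtain ⟨⟨k1, k2⟩, ⟨k3, k4⟩, ⟨k5, k6⟩, ⟨k7, k8⟩, k9, k10⟩ := o.all
  by_cases hm : m = 0
  · subst hm
    have h3 : b 4 - 6 < t := h1
    rw [← cd_six j t 1]
    push_cast
    refine not_cd o (hb j) (by linarith) (by linarith) (Or.inr ?_)
    have := (o.bds j).2.1
    linarith
  · have h4 : a 0 ≤ t ∧ t < a 0 + 6 ∧ (t < a j ∨ b j < t) := by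
      fin_cases m
      · exact absurd rfl hm
      · have h3 : b 0 < t := h1
        have h4 : t < a 1 := h2
        refine ⟨by linarith, by linarith, ?_⟩
        fin_cases j
        · exact Or.inr h3
        · exact Or.inl h4
        · exact Or.inl (by show t < a 2; linarith)
        · exact Or.inl (by show t < a 3; linarith)
        · exact Or.inl (by show t < a 4; linarith)
      · have h3 : b 1 < t := h1
        have h4 : t < a 2 := h2
        refine ⟨by linarith, by linarith, ?_⟩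
        fin_cases j
        · exact Or.inr (by show b 0 < t; linarith)
        · exact Or.inr h3
        · exact Or.inl h4
        · exact Or.inl (by show t < a 3; linarith)
        · exact Or.inl (by show t < a 4; linarith)
      · have h3 : b 2 < t := h1
        have h4 : t < a 3 := h2
        refine ⟨by linarith, by linarith, ?_⟩
        fin_cases j
        · exact Or.inr (by show b 0 < t; linarith)
        · exact Or.inr (by show b 1 < t; linarith)
        · exact Or.inr h3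
        · exact Or.inl h4
        · exact Or.inl (by show t < a 4; linarith)
      · have h3 : b 3 < t := h1
        have h4 : t < a 4 := h2
        refine ⟨by linarith, by linarith, ?_⟩
        fin_cases j
        · exact Or.inr (by show b 0 < t; linarith)
        · exact Or.inr (by show b 1 < t; linarith)
        · exact Or.inr (by show b 2 < t; linarith)
        · exact Or.inr h3
        · exact Or.inl h4
    exact not_cd o (hb j) h4.1 h4.2.1 h4.2.2

theorem not_cd_blk {a b : Fin 5 → ℝ} (o : Ord10 a b)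
    (hb : ∀ j x, x ∈ CD T z c j → ∃ n : ℤ, a j ≤ x + 6 * n ∧ x + 6 * n ≤ b j) {m : Fin 5} {t : ℝ}
    (h1 : a m ≤ t) (h2 : t ≤ b m) {j : Fin 5} (hj : j ≠ m) : t ∉ CD T z c j := by
  obtain ⟨⟨k1, k2⟩, ⟨k3, k4⟩, ⟨k5, k6⟩, ⟨k7, k8⟩, k9, k10⟩ := o.all
  have h3 : t < a j ∨ b j < t := by
    revert h1 h2 hj
    fin_cases m <;> fin_cases j <;> simp only [Fin.zero_eta, Fin.mk_one, Fin.reduceFinMk] <;>
      intro h1 h2 hj <;>
      first
        | exact absurd rfl hj
        | exact Or.inl (by linarith)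
        | exact Or.inr (by linarith)
  obtain ⟨b1, b2, b3⟩ := o.bds m
  exact not_cd o (hb j) (by linarith) (by linarith) h3

/-! ### The colours near a direction -/

theorem nap_ne (z : ℂ) (x : ℝ) : ∀ᶠ w in nap z (cis x), w ≠ z := by
  refine nap_iff.2 ⟨1, one_pos, fun s r _ hr0 _ hcon => ?_⟩
  have h1 : dist (z + r * (cis x * cis s)) z = r := by
    rw [dist_eq_norm, add_sub_cancel_left, norm_mul, norm_mul, norm_cis, norm_cis,
      Complex.norm_real, Real.norm_eq_abs, abs_of_pos hr0]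
    ring
  rw [hcon, dist_self] at h1
  exact hr0.ne h1

theorem near_nap (P : P5 T z c) (h : Irr U T)
    (hmin : ∀ z, 4 ≤ (T z).ncard → ∀ s, s ⊆ T z → s ≠ T z →
      ¬ ∀ᶠ w in 𝓝 z, ∃ i ∈ s, w ∈ U i ∨ (w ∈ XX U ∧ i ∈ Pal U w)) (x : ℝ) :
    ∀ᶠ w in nap z (cis x), ∃ j, T w ⊆ {c j, c (j + 1)} := by
  have h1 : ∀ᶠ w in nap z (cis x), w ≠ z → ∃ j, T w ⊆ {c j, c (j + 1)} :=
    (nap_le _ _) (P.near h hmin)
  filter_upwards [h1, nap_ne z x] with w h2 h3
  exact h2 h3

/-- no contacts: one colour -/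
theorem single_of (P : P5 T z c) (h : Irr U T)
    (hmin : ∀ z, 4 ≤ (T z).ncard → ∀ s, s ⊆ T z → s ≠ T z →
      ¬ ∀ᶠ w in 𝓝 z, ∃ i ∈ s, w ∈ U i ∨ (w ∈ XX U ∧ i ∈ Pal U w)) {x : ℝ}
    (hx : ∀ j, x ∉ CD T z c j) : ∃ i, tau T z (cis (x * (Real.pi / 3))) ⊆ {c i} := by
  have h1 : ∀ᶠ w in nap z (cis (x * (Real.pi / 3))), ∀ j, ¬ (c j ∈ T w ∧ c (j + 1) ∈ T w) :=
    eventually_all.2 fun j => not_frequently.1 (hx j)
  obtain ⟨i, hi⟩ := h.tau_nonempty z (cis (x * (Real.pi / 3)))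
  have hi' := h.tau_sub z _ hi
  rw [P.rng] at hi'
  obtain ⟨j, rfl⟩ := hi'
  have h2 : tau T z (cis (x * (Real.pi / 3))) ⊆ {c j} ∨
      tau T z (cis (x * (Real.pi / 3))) ⊆ {c j}ᶜ := by
    refine h.nap_split disjoint_compl_right ?_
    filter_upwards [h1, near_nap P h hmin (x * (Real.pi / 3))] with w h2 h3
    obtain ⟨m, hm⟩ := h3
    by_cases h4 : c j ∈ T w
    · left
      intro y hy
      rcases hm h4 with h5 | h5
      · rcases hm hy with h6 | h6
        · rw [h6, ← h5]; rfl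
        · exfalso
          rw [mem_singleton_iff] at h6
          exact h2 m ⟨h5 ▸ h4, h6 ▸ hy⟩
      · rw [mem_singleton_iff] at h5
        rcases hm hy with h6 | h6
        · exact absurd ⟨h6 ▸ hy, h5 ▸ h4⟩ (h2 m)
        · rw [mem_singleton_iff] at h6
          rw [h6, ← h5]; rfl
    · right
      intro y hy h5
      rw [mem_singleton_iff] at h5
      exact h4 (h5 ▸ hy)
  rcases h2 with h2 | h2
  · exact ⟨j, h2⟩
  · exact absurd rfl (h2 hi)

/-- only contacts of `m`: the colours `c m`, `c (m + 1)` -/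
theorem two_of (P : P5 T z c) (h : Irr U T)
    (hmin : ∀ z, 4 ≤ (T z).ncard → ∀ s, s ⊆ T z → s ≠ T z →
      ¬ ∀ᶠ w in 𝓝 z, ∃ i ∈ s, w ∈ U i ∨ (w ∈ XX U ∧ i ∈ Pal U w)) {x : ℝ} {m : Fin 5}
    (hm : x ∈ CD T z c m) (hx : ∀ j, j ≠ m → x ∉ CD T z c j) :
    tau T z (cis (x * (Real.pi / 3))) ⊆ {c m, c (m + 1)} := by
  have h1 : ∀ᶠ w in nap z (cis (x * (Real.pi / 3))),
      ∀ j, j ≠ m → ¬ (c j ∈ T w ∧ c (j + 1) ∈ T w) := by
    refine eventually_all.2 fun j => ?_
    by_cases hj : j = m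
    · exact Eventually.of_forall fun w hw => absurd hj hw
    · exact (not_frequently.1 (hx j hj)).mono fun w hw _ => hw
  have h2 : tau T z (cis (x * (Real.pi / 3))) ⊆ {c m, c (m + 1)} ∨
      tau T z (cis (x * (Real.pi / 3))) ⊆ ({c m, c (m + 1)} : Set (Fin k))ᶜ := by
    refine h.nap_split disjoint_compl_right ?_
    filter_upwards [h1, near_nap P h hmin (x * (Real.pi / 3))] with w h2 h3
    obtain ⟨j, hj⟩ := h3
    by_cases hjm : j = m
    · rw [hjm] at hj
      exact Or.inl hj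
    by_cases h4 : ∃ y ∈ T w, y ∈ ({c m, c (m + 1)} : Set (Fin k))
    · left
      obtain ⟨y, hy, hy'⟩ := h4
      intro y' hy2
      rcases hj hy with h5 | h5
      · rcases hj hy2 with h6 | h6
        · rw [h6, ← h5]; exact hy'
        · rw [mem_singleton_iff] at h6
          exact absurd ⟨h5 ▸ hy, h6 ▸ hy2⟩ (h2 j hjm)
      · rw [mem_singleton_iff] at h5
        rcases hj hy2 with h6 | h6
        · exact absurd ⟨h6 ▸ hy2, h5 ▸ hy⟩ (h2 j hjm)
        · rw [mem_singleton_iff] at h6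
          rw [h6, ← h5]; exact hy'
    · right
      intro y hy hy'
      exact h4 ⟨y, hy, hy'⟩
  rcases h2 with h2 | h2
  · exact h2
  · have h3 : ∃ᶠ w in nap z (cis (x * (Real.pi / 3))), c m ∈ T w := by
      have hm' : ∃ᶠ w in nap z (cis (x * (Real.pi / 3))), c m ∈ T w ∧ c (m + 1) ∈ T w := hm
      exact hm'.mono fun w hw => hw.1
    exact absurd (Or.inl rfl) (h2 h3)

/-! ### The solid directions -/

theorem open_tau (i : Fin 5) :
    IsOpen {x : ℝ | tau T z (cis (x * (Real.pi / 3))) ⊆ {c i}} := by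
  rw [isOpen_iff_mem_nhds]
  intro x hx
  filter_upwards [ev_add (tau_le_iff.1 hx)] with y hy
  exact tau_le_iff.2 hy

/-- the colour is constant on an interval without contacts -/
theorem const_of (P : P5 T z c) (h : Irr U T)
    (hmin : ∀ z, 4 ≤ (T z).ncard → ∀ s, s ⊆ T z → s ≠ T z →
      ¬ ∀ᶠ w in 𝓝 z, ∃ i ∈ s, w ∈ U i ∨ (w ∈ XX U ∧ i ∈ Pal U w)) {α β : ℝ}
    (hJ : ∀ x, α < x → x < β → ∀ j, x ∉ CD T z c j) {x : ℝ} (h1 : α < x) (h2 : x < β)
    {i : Fin 5} (hi : tau T z (cis (x * (Real.pi / 3))) ⊆ {c i}) {y : ℝ} (h3 : α < y)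
    (h4 : y < β) : tau T z (cis (y * (Real.pi / 3))) ⊆ {c i} := by
  have h5 : Ioo α β ⊆ {x : ℝ | tau T z (cis (x * (Real.pi / 3))) ⊆ {c i}} := by
    refine IsPreconnected.subset_left_of_subset_union (u := {x : ℝ | tau T z (cis (x *
      (Real.pi / 3))) ⊆ {c i}}) (v := ⋃ j : {j : Fin 5 // j ≠ i}, {x : ℝ | tau T z (cis (x *
      (Real.pi / 3))) ⊆ {c j.1}}) (open_tau i) (isOpen_iUnion fun j => open_tau j.1) ?_ ?_
      ⟨x, ⟨h1, h2⟩, hi⟩ isPreconnected_Ioo
    · rw [Set.disjoint_left]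
      intro t ht ht'
      obtain ⟨⟨j, hj⟩, ht2⟩ := mem_iUnion.1 ht'
      have ht2' : tau T z (cis (t * (Real.pi / 3))) ⊆ {c j} := ht2
      obtain ⟨a, ha⟩ := h.tau_nonempty z (cis (t * (Real.pi / 3)))
      have e1 := ht ha
      have e2 := ht2' ha
      rw [mem_singleton_iff] at e1 e2
      exact hj (P.inj (e2.symm.trans e1))
    · intro t ht
      obtain ⟨j, hj⟩ := single_of P h hmin (hJ t ht.1 ht.2)
      by_cases hji : j = i
      · left
        rw [hji] at hj
        exact hj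
      · right
        exact mem_iUnion.2 ⟨⟨j, hji⟩, hj⟩
  exact h5 ⟨h3, h4⟩

/-- the solid arcs between the blocks -/
theorem sol_of (P : P5 T z c) (h : Irr U T)
    (hmin : ∀ z, 4 ≤ (T z).ncard → ∀ s, s ⊆ T z → s ≠ T z →
      ¬ ∀ᶠ w in 𝓝 z, ∃ i ∈ s, w ∈ U i ∨ (w ∈ XX U ∧ i ∈ Pal U w)) {a b : Fin 5 → ℝ}
    (o : Ord10 a b) (ca : ∀ m, a m ∈ CD T z c m) (cb : ∀ m, b m ∈ CD T z c m)
    (hb : ∀ j x, x ∈ CD T z c j → ∃ n : ℤ, a j ≤ x + 6 * n ∧ x + 6 * n ≤ b j) (m : Fin 5) {x : ℝ}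
    (h1 : prv b m < x) (h2 : x < a m) : tau T z (cis (x * (Real.pi / 3))) ⊆ {c m} := by
  have hJ : ∀ t, prv b m < t → t < a m → ∀ j, t ∉ CD T z c j := fun t h3 h4 j =>
    not_cd_gap o hb h3 h4 j
  obtain ⟨i, hi⟩ := single_of P h hmin (hJ x h1 h2)
  have hall : ∀ t, prv b m < t → t < a m → tau T z (cis (t * (Real.pi / 3))) ⊆ {c i} :=
    fun t h3 h4 => const_of P h hmin hJ h1 h2 hi h3 h4
  -- near the right end
  have e1 : i = m ∨ i = m + 1 := by
    have h3 := two_of P h hmin (ca m) fun j hj => not_cd_blk o hb (le_refl _) (o.le m) hj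
    have h4 := ev_add (tau_le_iff.1 h3)
    have h5 : ∀ᶠ t in 𝓝[<] (a m), prv b m < t ∧ t < a m := by
      filter_upwards [Ioo_mem_nhdsLT (lt_trans h1 h2)] with t ht
      exact ht
    have h4' : ∀ᶠ t in 𝓝[<] (a m), ∀ᶠ w in nap z (cis (t * (Real.pi / 3))),
        T w ⊆ {c m, c (m + 1)} := nhdsWithin_le_nhds h4
    obtain ⟨t, ht1, ht2⟩ := (h4'.and h5).exists
    obtain ⟨y, hy⟩ := h.tau_nonempty z (cis (t * (Real.pi / 3)))
    have h6 := tau_le_iff.2 ht1 hy
    have h7 := hall t ht2.1 ht2.2 hy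
    rw [mem_singleton_iff] at h7
    rcases h6 with h6 | h6
    · exact Or.inl (P.inj (h7.symm.trans h6))
    · rw [mem_singleton_iff] at h6
      exact Or.inr (P.inj (h7.symm.trans h6))
  -- near the left end
  have e2 : i = m ∨ i = m + 4 := by
    have h3 : tau T z (cis (prv b m * (Real.pi / 3))) ⊆ {c (m + 4), c m} := by
      have h4 : tau T z (cis (b (m + 4) * (Real.pi / 3))) ⊆ {c (m + 4), c (m + 4 + 1)} :=
        two_of P h hmin (cb (m + 4)) fun j hj => not_cd_blk o hb (o.le _) (le_refl _) hj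
      rw [f41_326] at h4
      by_cases hm : m = 0
      · subst hm
        have e : cis (prv b 0 * (Real.pi / 3)) = cis (b 4 * (Real.pi / 3)) := by
          have := cis_six (b 4) (-1)
          rw [← this]
          congr 1
          show (b 4 - 6) * (Real.pi / 3) = _
          push_cast; ring
        rw [e]
        exact h4
      · have e : prv b m = b (m + 4) := by
          revert hm
          fin_cases m
          · exact fun hm => absurd rfl hm
          · exact fun _ => rfl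
          · exact fun _ => rfl
          · exact fun _ => rfl
          · exact fun _ => rfl
        rw [e]
        exact h4
    have h4 := ev_add (tau_le_iff.1 h3)
    have h5 : ∀ᶠ t in 𝓝[>] (prv b m), prv b m < t ∧ t < a m := by
      filter_upwards [Ioo_mem_nhdsGT (lt_trans h1 h2)] with t ht
      exact ht
    have h4' : ∀ᶠ t in 𝓝[>] (prv b m), ∀ᶠ w in nap z (cis (t * (Real.pi / 3))),
        T w ⊆ {c (m + 4), c m} := nhdsWithin_le_nhds h4
    obtain ⟨t, ht1, ht2⟩ := (h4'.and h5).exists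
    obtain ⟨y, hy⟩ := h.tau_nonempty z (cis (t * (Real.pi / 3)))
    have h6 := tau_le_iff.2 ht1 hy
    have h7 := hall t ht2.1 ht2.2 hy
    rw [mem_singleton_iff] at h7
    rcases h6 with h6 | h6
    · exact Or.inr (P.inj (h7.symm.trans h6))
    · rw [mem_singleton_iff] at h6
      exact Or.inl (P.inj (h7.symm.trans h6))
  have e3 : i = m := by
    rcases e1 with e1 | e1
    · exact e1
    · rcases e2 with e2 | e2
      · exact e2
      · exfalso
        exact ne14_326 m (e1.symm.trans e2)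
  rw [← e3]
  exact hi

/-- **existence of the ten rays** (positive turn) -/
theorem exists_blk_pos (P : P5 T z c) (h : Irr U T)
    (hmin : ∀ z, 4 ≤ (T z).ncard → ∀ s, s ⊆ T z → s ≠ T z →
      ¬ ∀ᶠ w in 𝓝 z, ∃ i ∈ s, w ∈ U i ∨ (w ∈ XX U ∧ i ∈ Pal U w)) {x : Fin 5 → ℝ}
    (hx : ∀ m, x m ∈ CD T z c m) (hp : Pos x) : ∃ a b, Blk5 U T z c a b := by
  -- the reference choice in order
  have hF := (win_of_cd P h hmin hx).fan P
  obtain ⟨ρ, hρ, h01, h12, h23, h34, h40⟩ := hF.exists_ord (fun j => norm_cis _) fun j => by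
    rw [cr_cis326]
    have := hp j
    rwa [sub_mul] at this
  have hρc : ∀ m, ρ m ∈ CD T z c m := by
    intro m
    have h1 : ∃ᶠ w in nap z (cis (x m * (Real.pi / 3))), c m ∈ T w ∧ c (m + 1) ∈ T w := hx m
    rw [hρ m] at h1
    exact h1
  have hρp : Pos ρ := pos_cd P h hmin hx hp hρc
  have g : ∀ j, 0 < Real.sin ((ρ (j + 1) - ρ j) * (Real.pi / 3)) := hρp
  have g01 := sin_pos_range (x := ρ 1 - ρ 0) (by linarith) (by linarith) (g 0)
  have g12 := sin_pos_range (x := ρ 2 - ρ 1) (by linarith) (by linarith) (g 1)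
  have g23 := sin_pos_range (x := ρ 3 - ρ 2) (by linarith) (by linarith) (g 2)
  have g34 := sin_pos_range (x := ρ 4 - ρ 3) (by linarith) (by linarith) (g 3)
  have g40 := sin_pos_range (x := ρ 0 + 6 - ρ 4) (by linarith) (by linarith) (by
    rw [show ρ 0 + 6 - ρ 4 = ρ 0 - ρ 4 + 6 by ring, sin_six]
    exact g 4)
  -- the place of a contact direction
  have hpl : ∀ m t, t ∈ CD T z c m → ρ m - 3 ≤ t → t ≤ ρ m + 3 → prv ρ m < t ∧ t < nxt ρ m := by
    intro m t ht h1 h2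
    have hu : ∀ j, Function.update ρ m t j ∈ CD T z c j := by
      intro j
      by_cases hj : j = m
      · subst hj
        rw [Function.update_self]; exact ht
      · rw [Function.update_of_ne hj]; exact hρc j
    have hpu := pos_cd P h hmin hx hp hu
    have k1 := hpu m
    have k2 := hpu (m + 4)
    rw [f41_326] at k2
    rw [Function.update_self, Function.update_of_ne (ne1_326 m)] at k1
    rw [Function.update_self, Function.update_of_ne (ne4_326 m)] at k2
    fin_cases m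
    · refine place (ρ := ρ 0) ?_ ?_ ?_ ?_ h1 h2 ?_ k1
      · show ρ 4 - 6 < ρ 0; linarith
      · show ρ 0 < ρ 4 - 6 + 3; linarith [g40.2]
      · show ρ 0 < ρ 1; linarith
      · show ρ 1 < ρ 0 + 3; linarith [g01.2]
      · show 0 < Real.sin ((t - (ρ 4 - 6)) * (Real.pi / 3))
        rw [show t - (ρ 4 - 6) = t - ρ 4 + 6 by ring, sin_six]
        exact k2
    · refine place (ρ := ρ 1) ?_ ?_ ?_ ?_ h1 h2 k2 k1
      · show ρ 0 < ρ 1; linarith
      · show ρ 1 < ρ 0 + 3; linarith [g01.2]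
      · show ρ 1 < ρ 2; linarith
      · show ρ 2 < ρ 1 + 3; linarith [g12.2]
    · refine place (ρ := ρ 2) ?_ ?_ ?_ ?_ h1 h2 k2 k1
      · show ρ 1 < ρ 2; linarith
      · show ρ 2 < ρ 1 + 3; linarith [g12.2]
      · show ρ 2 < ρ 3; linarith
      · show ρ 3 < ρ 2 + 3; linarith [g23.2]
    · refine place (ρ := ρ 3) ?_ ?_ ?_ ?_ h1 h2 k2 k1
      · show ρ 2 < ρ 3; linarith
      · show ρ 3 < ρ 2 + 3; linarith [g23.2]
      · show ρ 3 < ρ 4; linarith
      · show ρ 4 < ρ 3 + 3; linarith [g34.2]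
    · refine place (ρ := ρ 4) ?_ ?_ ?_ ?_ h1 h2 k2 ?_
      · show ρ 3 < ρ 4; linarith
      · show ρ 4 < ρ 3 + 3; linarith [g34.2]
      · show ρ 4 < ρ 0 + 6; linarith
      · show ρ 0 + 6 < ρ 4 + 3; linarith [g40.2]
      · show 0 < Real.sin ((ρ 0 + 6 - t) * (Real.pi / 3))
        rw [show ρ 0 + 6 - t = ρ 0 - t + 6 by ring, sin_six]
        exact k1
  -- the blocks
  have hK : ∀ m, ∃ l r, IsLeast (CD T z c m ∩ Icc (ρ m - 3) (ρ m + 3)) l ∧
      IsGreatest (CD T z c m ∩ Icc (ρ m - 3) (ρ m + 3)) r := by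
    intro m
    have hc : IsCompact (CD T z c m ∩ Icc (ρ m - 3) (ρ m + 3)) :=
      isCompact_Icc.inter_left (cd_closed m)
    have hne : (CD T z c m ∩ Icc (ρ m - 3) (ρ m + 3)).Nonempty :=
      ⟨ρ m, hρc m, by linarith, by linarith⟩
    obtain ⟨l, hl⟩ := hc.exists_isLeast hne
    obtain ⟨r, hr⟩ := hc.exists_isGreatest hne
    exact ⟨l, r, hl, hr⟩
  choose a b ha hb using hK
  have hle : ∀ m, a m ≤ b m := fun m => (ha m).2 (hb m).1
  have hblk : ∀ m t, t ∈ CD T z c m → ∃ n : ℤ, a m ≤ t + 6 * n ∧ t + 6 * n ≤ b m := by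
    intro m t ht
    obtain ⟨n, h1, h2⟩ : ∃ n : ℤ, ρ m - 3 ≤ t + 6 * n ∧ t + 6 * n ≤ ρ m + 3 := by
      refine ⟨-⌊(t - (ρ m - 3)) / 6⌋, ?_, ?_⟩
      · have h1 := Int.floor_le ((t - (ρ m - 3)) / 6)
        push_cast
        linarith
      · have h1 := Int.lt_floor_add_one ((t - (ρ m - 3)) / 6)
        push_cast
        linarith
    have h3 : t + 6 * n ∈ CD T z c m ∩ Icc (ρ m - 3) (ρ m + 3) := ⟨(cd_six m t n).2 ht, h1, h2⟩
    exact ⟨n, (ha m).2 h3, (hb m).2 h3⟩
  have pa : ∀ m, prv ρ m < a m ∧ a m < nxt ρ m := fun m =>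
    hpl m _ (ha m).1.1 (ha m).1.2.1 (ha m).1.2.2
  have pb : ∀ m, prv ρ m < b m ∧ b m < nxt ρ m := fun m =>
    hpl m _ (hb m).1.1 (hb m).1.2.1 (hb m).1.2.2
  -- consecutive blocks
  have hsin : ∀ m, 0 < Real.sin ((a (m + 1) - b m) * (Real.pi / 3)) := by
    intro m
    have hu : ∀ j, Function.update (Function.update ρ m (b m)) (m + 1) (a (m + 1)) j ∈
        CD T z c j := by
      intro j
      by_cases hj : j = m + 1
      · subst hj
        rw [Function.update_self]; exact (ha _).1.1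
      · rw [Function.update_of_ne hj]
        by_cases hj' : j = m
        · subst hj'
          rw [Function.update_self]; exact (hb _).1.1
        · rw [Function.update_of_ne hj']; exact hρc j
    have hpu := pos_cd P h hmin hx hp hu m
    rw [Function.update_self, Function.update_of_ne (ne1_326 m).symm, Function.update_self] at hpu
    exact hpu
  have hsin' : ∀ m, 0 < Real.sin ((b (m + 1) - a m) * (Real.pi / 3)) := by
    intro m
    have hu : ∀ j, Function.update (Function.update ρ m (a m)) (m + 1) (b (m + 1)) j ∈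
        CD T z c j := by
      intro j
      by_cases hj : j = m + 1
      · subst hj
        rw [Function.update_self]; exact (hb _).1.1
      · rw [Function.update_of_ne hj]
        by_cases hj' : j = m
        · subst hj'
          rw [Function.update_self]; exact (ha _).1.1
        · rw [Function.update_of_ne hj']; exact hρc j
    have hpu := pos_cd P h hmin hx hp hu m
    rw [Function.update_self, Function.update_of_ne (ne1_326 m).symm, Function.update_self] at hpu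
    exact hpu
  have hgap : ∀ m, nxt b m < a m + 3 := by
    intro m
    fin_cases m
    · have h1 : b 1 < ρ 2 := (pb 1).2
      have h3 : ρ 4 - 6 < a 0 := (pa 0).1
      have h5 := sin_pos_range (x := b 1 - a 0) (by
        have k1 : ρ 0 < b 1 := (pb 1).1
        have k2 : a 0 < ρ 1 := (pa 0).2
        linarith)
        (by linarith) (hsin' 0)
      show b 1 < a 0 + 3
      linarith [h5.2]
    · have h1 : b 2 < ρ 3 := (pb 2).2
      have h3 : ρ 0 < a 1 := (pa 1).1
      have h5 := sin_pos_range (x := b 2 - a 1) (by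
        have k1 : ρ 1 < b 2 := (pb 2).1
        have k2 : a 1 < ρ 2 := (pa 1).2
        linarith)
        (by linarith) (hsin' 1)
      show b 2 < a 1 + 3
      linarith [h5.2]
    · have h1 : b 3 < ρ 4 := (pb 3).2
      have h3 : ρ 1 < a 2 := (pa 2).1
      have h5 := sin_pos_range (x := b 3 - a 2) (by
        have k1 : ρ 2 < b 3 := (pb 3).1
        have k2 : a 2 < ρ 3 := (pa 2).2
        linarith)
        (by linarith) (hsin' 2)
      show b 3 < a 2 + 3
      linarith [h5.2]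
    · have h1 : b 4 < ρ 0 + 6 := (pb 4).2
      have h3 : ρ 2 < a 3 := (pa 3).1
      have h5 := sin_pos_range (x := b 4 - a 3) (by
        have k1 : ρ 3 < b 4 := (pb 4).1
        have k2 : a 3 < ρ 4 := (pa 3).2
        linarith)
        (by linarith) (hsin' 3)
      show b 4 < a 3 + 3
      linarith [h5.2]
    · have h1 : b 0 < ρ 1 := (pb 0).2
      have h3 : ρ 3 < a 4 := (pa 4).1
      have h6 : 0 < Real.sin ((b 0 + 6 - a 4) * (Real.pi / 3)) := by
        rw [show b 0 + 6 - a 4 = b 0 - a 4 + 6 by ring, sin_six]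
        exact hsin' 4
      have h5 := sin_pos_range (x := b 0 + 6 - a 4) (by
        have k1 : ρ 4 - 6 < b 0 := (pb 0).1
        have k2 : a 4 < ρ 0 + 6 := (pa 4).2
        linarith)
        (by linarith) h6
      show b 0 + 6 < a 4 + 3
      linarith [h5.2]
  have hlt : ∀ m, b m < nxt a m ∧ nxt a m < b m + 3 := by
    have pa' := pa
    have pb' := pb
    intro m
    fin_cases m
    · have h1 : ρ 0 < a 1 := (pa 1).1
      have h2 : a 1 < ρ 2 := (pa 1).2
      have h3 : ρ 4 - 6 < b 0 := (pb 0).1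
      have h4 : b 0 < ρ 1 := (pb 0).2
      have h5 := sin_pos_range (x := a 1 - b 0) (by linarith) (by linarith) (hsin 0)
      exact ⟨by show b 0 < a 1; linarith [h5.1], by show a 1 < b 0 + 3; linarith [h5.2]⟩
    · have h1 : ρ 1 < a 2 := (pa 2).1
      have h2 : a 2 < ρ 3 := (pa 2).2
      have h3 : ρ 0 < b 1 := (pb 1).1
      have h4 : b 1 < ρ 2 := (pb 1).2
      have h5 := sin_pos_range (x := a 2 - b 1) (by linarith) (by linarith) (hsin 1)
      exact ⟨by show b 1 < a 2; linarith [h5.1], by show a 2 < b 1 + 3; linarith [h5.2]⟩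
    · have h1 : ρ 2 < a 3 := (pa 3).1
      have h2 : a 3 < ρ 4 := (pa 3).2
      have h3 : ρ 1 < b 2 := (pb 2).1
      have h4 : b 2 < ρ 3 := (pb 2).2
      have h5 := sin_pos_range (x := a 3 - b 2) (by linarith) (by linarith) (hsin 2)
      exact ⟨by show b 2 < a 3; linarith [h5.1], by show a 3 < b 2 + 3; linarith [h5.2]⟩
    · have h1 : ρ 3 < a 4 := (pa 4).1
      have h2 : a 4 < ρ 0 + 6 := (pa 4).2
      have h3 : ρ 2 < b 3 := (pb 3).1
      have h4 : b 3 < ρ 4 := (pb 3).2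
      have h5 := sin_pos_range (x := a 4 - b 3) (by linarith) (by linarith) (hsin 3)
      exact ⟨by show b 3 < a 4; linarith [h5.1], by show a 4 < b 3 + 3; linarith [h5.2]⟩
    · have h1 : ρ 4 - 6 < a 0 := (pa 0).1
      have h2 : a 0 < ρ 1 := (pa 0).2
      have h3 : ρ 3 < b 4 := (pb 4).1
      have h4 : b 4 < ρ 0 + 6 := (pb 4).2
      have h6 : 0 < Real.sin ((a 0 + 6 - b 4) * (Real.pi / 3)) := by
        rw [show a 0 + 6 - b 4 = a 0 - b 4 + 6 by ring, sin_six]
        exact hsin 4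
      have h5 := sin_pos_range (x := a 0 + 6 - b 4) (by linarith) (by linarith) h6
      exact ⟨by show b 4 < a 0 + 6; linarith [h5.1], by show a 0 + 6 < b 4 + 3; linarith [h5.2]⟩
  have o : Ord10 a b := ⟨hle, fun m => (hlt m).1⟩
  exact ⟨a, b, hle, fun m => (hlt m).1, fun m => (hlt m).2, hgap, fun m => (ha m).1.1,
    fun m => (hb m).1.1, hblk, fun x hx => win_of_cd P h hmin hx,
    fun m x h1 h2 => sol_of P h hmin o (fun m => (ha m).1.1) (fun m => (hb m).1.1) hblk m h1 h2⟩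

theorem cd_rev (m : Fin 5) : CD T z (fun j => c (-j)) m = CD T z c (-m - 1) := by
  have e : -m - 1 + 1 = -m := (by decide : ∀ m : Fin 5, -m - 1 + 1 = -m) m
  have e2 : -(m + 1) = -m - 1 := rev1_326 m
  ext x
  unfold CD
  rw [mem_ofPred_eq, mem_ofPred_eq, e]
  simp only [e2]
  simp only [and_comm]

/-- **existence of the ten rays**, after at most one reversal of the numbering -/
theorem exists_blk (P : P5 T z c) (h : Irr U T)
    (hmin : ∀ z, 4 ≤ (T z).ncard → ∀ s, s ⊆ T z → s ≠ T z →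
      ¬ ∀ᶠ w in 𝓝 z, ∃ i ∈ s, w ∈ U i ∨ (w ∈ XX U ∧ i ∈ Pal U w)) :
    (∃ a b, Blk5 U T z c a b) ∨ ∃ a b, Blk5 U T z (fun j => c (-j)) a b := by
  choose x hx using cd_nonempty P h hmin
  have hF := (win_of_cd P h hmin hx).fan P
  have e : ∀ j : Fin 5, cr (cis (x j * (Real.pi / 3))) (cis (x (j + 1) * (Real.pi / 3))) =
      Real.sin ((x (j + 1) - x j) * (Real.pi / 3)) := by
    intro j
    rw [cr_cis326]
    congr 1; ring
  rcases hF.turn with h1 | h1
  · left
    refine exists_blk_pos P h hmin hx fun j => ?_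
    rw [← e]
    exact h1 j
  · right
    refine exists_blk_pos (P.rev) h hmin (x := fun m => x (-m - 1)) (fun m => ?_) fun j => ?_
    · rw [cd_rev]
      exact hx _
    · have h2 := h1 (-(j + 1) - 1)
      rw [e] at h2
      have e3 : -(j + 1) - 1 + 1 = -j - 1 := (by decide : ∀ j : Fin 5, -(j + 1) - 1 + 1 = -j - 1) j
      rw [e3] at h2
      show 0 < Real.sin ((x (-(j + 1) - 1) - x (-j - 1)) * (Real.pi / 3))
      rw [show (x (-(j + 1) - 1) - x (-j - 1)) * (Real.pi / 3) =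
        -((x (-j - 1) - x (-(j + 1) - 1)) * (Real.pi / 3)) by ring, Real.sin_neg]
      linarith

end cd

section six

variable {U : Fin 6 → Set ℂ} {T : ℂ → Set (Fin 6)} {z : ℂ} {c : Fin 5 → Fin 6} {a b : Fin 5 → ℝ}

/-- the directions between the blocks are solid -/
theorem Blk5.dr (B : Blk5 U T z c a b) (h : Irr U T) {m : Fin 5} {x : ℝ} (h1 : prv b m < x)
    (h2 : x < a m) : x ∈ Dr U z (c m) := by
  have h3 := ray_of_nap (tau_le_iff.1 (B.sol m x h1 h2))
  exact h3.mono fun t ht => h.mem_of_single ht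

theorem Blk5.prv_lt (B : Blk5 U T z c a b) (m : Fin 5) : prv b m < a m ∧ a m < prv b m + 3 := by
  fin_cases m
  · have h1 : b 4 < a 0 + 6 := B.lt 4
    have h2 : a 0 + 6 < b 4 + 3 := B.lt3 4
    exact ⟨by show b 4 - 6 < a 0; linarith, by show a 0 < b 4 - 6 + 3; linarith⟩
  · exact ⟨B.lt 0, B.lt3 0⟩
  · exact ⟨B.lt 1, B.lt3 1⟩
  · exact ⟨B.lt 2, B.lt3 2⟩
  · exact ⟨B.lt 3, B.lt3 3⟩

/-- **the closed windows are honest** -/
theorem Blk5.clos (B : Blk5 U T z c a b) (h : Irr U T) {m : Fin 5} {x : ℝ} (h1 : prv b m ≤ x)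
    (h2 : x ≤ a m) : x ∈ closure (Dr U z (c m)) := by
  have h3 : Ioo (prv b m) (a m) ⊆ Dr U z (c m) := fun y hy => B.dr h hy.1 hy.2
  have h4 := closure_mono h3
  rw [closure_Ioo (B.prv_lt m).1.ne] at h4
  exact h4 ⟨h1, h2⟩

/-- both ends of the window of `c m` are honest directions -/
theorem Blk5.hd (B : Blk5 U T z c a b) (h : Irr U T) (m : Fin 5) :
    prv b m ∈ HD U z (c m) ∧ a m ∈ HD U z (c m) :=
  ⟨HD_of_Dr h.mx (B.clos h (le_refl _) (B.prv_lt m).1.le),
    HD_of_Dr h.mx (B.clos h (B.prv_lt m).1.le (le_refl _))⟩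

end six

end Vale.Agent.P032.H908
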