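import Vale.Agent.P032.H908.Wedge2

/-!
# P032: the wedge of two circles in the coordinates `pt`

`u₁ = pt w₁ t₁`, `u₂ = pt w₂ t₂`, `p = pt u₁ (t₁ + j₁) = pt u₂ (t₂ + j₂)`.  The circle about `w₁` carries `P`
at times `t₁ + ε₁ s`, the circle about `w₂` carries `Q` at times `t₂ + ε₂ s`.  `κ = ±1` is the half branch
`pt u₂ (t₂ + j₂ + κ l)` of `S(u₂)` at `p`.

`wedge2_pt` : if `0 < ε₁ κ sin (j₁ π/3) sin ((t₁ + j₁ - t₂ - j₂) π/3)`, then a colour off `P` and `Q`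
occurs near `p` in every open set which contains the points near the half branch on the side `σ₂`.
`wedge2_cel` : the same for the cells of 782, cusps and sectors; also within a cone.
-/

open Set Filter Topology Metric

noncomputable section

namespace Vale.Agent.P032.H908

open Vale.Agent.P032.Six Vale.Agent.P032.H187 Vale.Agent.P032.H782 Vale.Agent.P032.H158
  Vale.Agent.P032.S5.H767

variable {k : ℕ} {U : Fin k → Set ℂ} {T : ℂ → Set (Fin k)}

theorem sin_third (j : ℝ) : Real.sin (j * (Real.pi / 3)) =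
    2 * (Real.sin (j * (Real.pi / 6)) * Real.cos (j * (Real.pi / 6))) := by
  have e : j * (Real.pi / 3) = 2 * (j * (Real.pi / 6)) := by ring
  rw [e, Real.sin_two_mul]
  ring

theorem sin_sign {ε : ℝ} (hε : ε = 1 ∨ ε = -1) (s : ℝ) :
    Real.sin (ε * s * (Real.pi / 6)) = ε * Real.sin (s * (Real.pi / 6)) := by
  rcases hε with rfl | rfl
  · rw [one_mul, one_mul]
  · rw [neg_one_mul, neg_mul, Real.sin_neg, neg_one_mul]

/-- **The germ of the motion**: the sign of `dist - 1` for a point of `S(w)` near the time `t`, seen from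
the neighbour `pt (pt w t) (t + j)`. -/
theorem move_germ (w : ℂ) (t : ℝ) {j ε c : ℝ} (hε : ε = 1 ∨ ε = -1)
    (hc : 0 < c * (ε * Real.sin (j * (Real.pi / 3)))) :
    ∀ᶠ s in 𝓝[>] (0 : ℝ), c * (dist (pt (pt w t) (t + j)) (pt w (t + ε * s)) - 1) < 0 := by
  have hcont : Continuous fun s : ℝ => c * (ε * (Real.sin ((ε * s - j) * (Real.pi / 6)) *
      Real.cos (j * (Real.pi / 6)))) := by fun_prop
  have h1 : ∀ᶠ s in 𝓝[>] (0 : ℝ), c * (ε * (Real.sin ((ε * s - j) * (Real.pi / 6)) *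
      Real.cos (j * (Real.pi / 6)))) < 0 := by
    have h2 := hcont.tendsto 0
    refine (h2.eventually (Iio_mem_nhds ?_)).filter_mono nhdsWithin_le_nhds
    have e : (ε * 0 - j) * (Real.pi / 6) = -(j * (Real.pi / 6)) := by ring
    rw [e, Real.sin_neg]
    rw [sin_third] at hc
    nlinarith
  have h5 : ∀ᶠ s in 𝓝[>] (0 : ℝ), s < 1 := nhdsWithin_le_nhds (Iio_mem_nhds one_pos)
  filter_upwards [h1, h5, self_mem_nhdsWithin] with s h6 h7 h8
  have h8 : (0 : ℝ) < s := h8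
  have h9 : 0 < Real.sin (s * (Real.pi / 6)) :=
    Real.sin_pos_of_pos_of_lt_pi (by positivity) (by nlinarith [Real.pi_pos])
  have h10 := move_sq w t (ε * s) j
  rw [sin_sign hε] at h10
  set d := dist (pt (pt w t) (t + j)) (pt w (t + ε * s)) with hd
  have hd0 : 0 ≤ d := dist_nonneg
  have h11 : c * (d - 1) * (d + 1) < 0 := by
    have e : c * (d - 1) * (d + 1) = c * (d ^ 2 - 1) := by ring
    rw [e, h10]
    have e2 : c * (8 * (ε * Real.sin (s * (Real.pi / 6)) * Real.sin ((ε * s - j) * (Real.pi / 6)) *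
        Real.cos (j * (Real.pi / 6)))) = 8 * Real.sin (s * (Real.pi / 6)) *
        (c * (ε * (Real.sin ((ε * s - j) * (Real.pi / 6)) * Real.cos (j * (Real.pi / 6))))) := by
      ring
    rw [e2]
    exact mul_neg_of_pos_of_neg (by positivity) h6
  exact neg_of_mul_neg_left h11 (by linarith)

theorem cis_ne_of_sin {a b : ℝ} (h : Real.sin (a - b) ≠ 0) : cis a ≠ cis b ∧ cis a + cis b ≠ 0 := by
  constructor
  · intro he
    have h1 := congrArg Complex.re he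
    have h2 := congrArg Complex.im he
    rw [cis_re, cis_re] at h1
    rw [cis_im, cis_im] at h2
    exact h (by rw [Real.sin_sub, h1, h2]; ring)
  · intro he
    have h1 := congrArg Complex.re he
    have h2 := congrArg Complex.im he
    rw [Complex.add_re, cis_re, cis_re, Complex.zero_re] at h1
    rw [Complex.add_im, cis_im, cis_im, Complex.zero_im] at h2
    have h1' : Real.cos a = -Real.cos b := by linarith
    have h2' : Real.sin a = -Real.sin b := by linarith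
    exact h (by rw [Real.sin_sub, h1', h2']; ring)

/-- the neighbour seen from the other side -/
theorem pt_back (u : ℂ) (t : ℝ) : pt (pt u t) (t + 3) = u := by
  rw [pt_three]; unfold pt; ring

/-- the centre and the antipode of the centre -/
theorem ne_centre {w : ℂ} {t j : ℝ} (h : Real.sin (j * (Real.pi / 3)) ≠ 0) :
    pt (pt w t) (t + j) ≠ w ∧ pt (pt w t) (t + j) + w ≠ 2 * pt w t := by
  have h1 := cis_ne_of_sin (a := (t + j) * (Real.pi / 3)) (b := t * (Real.pi / 3))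
    (by rw [← sub_mul, add_sub_cancel_left]; exact h)
  constructor
  · intro he
    refine h1.2 ?_
    have e : pt (pt w t) (t + j) = w + cis (t * (Real.pi / 3)) + cis ((t + j) * (Real.pi / 3)) := rfl
    rw [e] at he
    linear_combination he
  · intro he
    refine h1.1 ?_
    have e : pt (pt w t) (t + j) = w + cis (t * (Real.pi / 3)) + cis ((t + j) * (Real.pi / 3)) := rfl
    have e2 : pt w t = w + cis (t * (Real.pi / 3)) := rfl
    rw [e, e2] at he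
    linear_combination he

/-- two neighbours of a point -/
theorem ne_nbrs {u v : ℂ} {s t : ℝ} (hp : pt u s = pt v t)
    (h : Real.sin ((s - t) * (Real.pi / 3)) ≠ 0) : u ≠ v ∧ u + v ≠ 2 * pt v t := by
  have h1 := cis_ne_of_sin (a := s * (Real.pi / 3)) (b := t * (Real.pi / 3))
    (by rw [← sub_mul]; exact h)
  have e1 : pt u s = u + cis (s * (Real.pi / 3)) := rfl
  have e2 : pt v t = v + cis (t * (Real.pi / 3)) := rfl
  constructor
  · intro he
    refine h1.1 ?_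
    rw [e1, e2, he] at hp
    exact add_left_cancel hp
  · intro he
    refine h1.2 ?_
    rw [e1, e2] at hp
    rw [e2] at he
    linear_combination hp + hp - he - hp

/-- available times give available points near `pt w t` -/
theorem freq_pt {w : ℂ} {t ε : ℝ} {G : ℂ → Prop} {F : ℝ → Prop}
    (hG : ∃ᶠ s in 𝓝[>] (0 : ℝ), G (pt w (t + ε * s))) (hF : ∀ᶠ s in 𝓝[>] (0 : ℝ), F s)
    {H : ℂ → Prop} (hFH : ∀ s, F s → H (pt w (t + ε * s))) : ∃ᶠ x in 𝓝 (pt w t), G x ∧ H x := by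
  have h1 : Tendsto (fun s : ℝ => pt w (t + ε * s)) (𝓝[>] (0 : ℝ)) (𝓝 (pt w t)) := by
    have h2 : Continuous fun s : ℝ => pt w (t + ε * s) := (continuous_pt w).comp (by fun_prop)
    have h3 := h2.tendsto 0
    simp only [mul_zero, add_zero] at h3
    exact h3.mono_left nhdsWithin_le_nhds
  exact h1.frequently ((hG.and_eventually hF).mono fun s hs => ⟨hs.1, hFH s hs.2⟩)

/-- **The wedge of two circles in the frame of the slots**, points without the colours -/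
theorem wedge2_pt_free (h : Mx U) {w1 w2 : ℂ} {t1 t2 j1 j2 ε1 ε2 κ σ2 : ℝ} {P Q : Set (Fin k)}
    (hε1 : ε1 = 1 ∨ ε1 = -1) (hε2 : ε2 = 1 ∨ ε2 = -1) (hκ : κ = 1 ∨ κ = -1)
    (hσ2 : σ2 = 1 ∨ σ2 = -1)
    (hp : pt (pt w1 t1) (t1 + j1) = pt (pt w2 t2) (t2 + j2))
    (hP : ∃ᶠ s in 𝓝[>] (0 : ℝ), pt w1 (t1 + ε1 * s) ∈ Cr U w1 P)
    (hQ : ∃ᶠ s in 𝓝[>] (0 : ℝ), pt w2 (t2 + ε2 * s) ∈ Cr U w2 Q)
    (hA : 0 < ε1 * κ * (Real.sin (j1 * (Real.pi / 3)) *
      Real.sin ((t1 + j1 - (t2 + j2)) * (Real.pi / 3))))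
    (hS : ∀ᶠ l in 𝓝[>] (0 : ℝ), 0 < σ2 * (ε2 * Real.sin ((j2 + κ * l) * (Real.pi / 3))))
    {C : Set ℂ} (hC : ∀ᶠ l in 𝓝[>] (0 : ℝ),
      ∀ᶠ w in 𝓝 (pt (pt w2 t2) (t2 + j2 + κ * l)), 0 < σ2 * (dist w (pt w2 t2) - 1) → w ∈ C) :
    ∃ᶠ w in 𝓝 (pt (pt w2 t2) (t2 + j2)), w ∈ C ∧ ∀ i, i ∈ P ∨ i ∈ Q → i ∉ Pal U w := by
  have hs1 : Real.sin (j1 * (Real.pi / 3)) ≠ 0 := fun h1 => by
    rw [h1, zero_mul, mul_zero] at hA
    exact lt_irrefl _ hA
  have hs2 : Real.sin ((t1 + j1 - (t2 + j2)) * (Real.pi / 3)) ≠ 0 := fun h1 => by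
    rw [h1, mul_zero, mul_zero] at hA
    exact lt_irrefl _ hA
  have hε1' : ε1 * ε1 = 1 := by rcases hε1 with rfl | rfl <;> norm_num
  have hsq : 0 < Real.sin (j1 * (Real.pi / 3)) * Real.sin (j1 * (Real.pi / 3)) :=
    mul_self_pos.2 hs1
  set u1 := pt w1 t1 with hu1
  set u2 := pt w2 t2 with hu2
  set φ := t2 + j2 with hφ
  have h12 := ne_nbrs hp hs2
  have hc1 := ne_centre (w := w1) (t := t1) hs1
  rw [← hu1, hp] at hc1
  refine (wedge2 h (c1 := w1) (c2 := w2) (p := pt u2 φ) (a1 := u1) (a2 := u2)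
    (br := fun l => pt u2 (φ + κ * l)) (σ1 := -(ε1 * Real.sin (j1 * (Real.pi / 3)))) (σ2 := σ2)
    ((continuous_pt u2).comp (by fun_prop)) (by simp) (fun l => dist_pt _ _) hσ2 h12.1 h12.2
    hc1.1 hc1.2 ?_ ?_ ?_ ?_ hC)
  · -- the centre of the second circle
    filter_upwards [hS] with l hl
    have h1 : Real.sin ((j2 + κ * l) * (Real.pi / 3)) ≠ 0 := fun h1 => by
      rw [h1, mul_zero, mul_zero] at hl
      exact lt_irrefl _ hl
    have h2 := ne_centre (w := w2) (t := t2) h1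
    rw [← hu2, ← add_assoc, ← hφ] at h2
    exact h2
  · -- the first letter
    have h1 := move_germ w1 t1 (j := j1) (ε := ε1) (c := ε1 * Real.sin (j1 * (Real.pi / 3))) hε1
      (by
        have e : ε1 * Real.sin (j1 * (Real.pi / 3)) * (ε1 * Real.sin (j1 * (Real.pi / 3))) =
          ε1 * ε1 * (Real.sin (j1 * (Real.pi / 3)) * Real.sin (j1 * (Real.pi / 3))) := by ring
        rw [e, hε1', one_mul]
        exact hsq)
    rw [← hu1, hp] at h1
    refine freq_pt (H := fun x => 0 < -(ε1 * Real.sin (j1 * (Real.pi / 3))) *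
      (dist (pt u2 φ) x - 1)) hP h1 ?_
    intro s hs
    linarith
  · -- the half branch
    have e1 : pt (pt u2 φ) (φ + (t1 + j1 + 3 - φ)) = u1 := by
      have e2 : φ + (t1 + j1 + 3 - φ) = (t1 + j1) + 3 := by ring
      rw [e2, ← hp]
      exact pt_back u1 (t1 + j1)
    have h1 := move_germ u2 φ (j := t1 + j1 + 3 - φ) (ε := κ)
      (c := -(ε1 * Real.sin (j1 * (Real.pi / 3)))) hκ (by
        have e : (t1 + j1 + 3 - φ) * (Real.pi / 3) =
            (t1 + j1 - φ) * (Real.pi / 3) + Real.pi := by ring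
        rw [e, Real.sin_add_pi]
        nlinarith)
    rw [e1] at h1
    filter_upwards [h1] with l hl
    rw [dist_comm]
    exact hl
  · -- the second letter
    filter_upwards [hS] with l hl
    have h1 := move_germ w2 t2 (j := j2 + κ * l) (ε := ε2) (c := σ2) hε2 hl
    rw [← hu2, ← add_assoc, ← hφ] at h1
    exact freq_pt (H := fun x => σ2 * (dist (pt u2 (φ + κ * l)) x - 1) < 0) hQ h1 fun s hs => hs

/-- **The wedge of two circles in the frame of the slots.** -/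
theorem wedge2_pt (h : Irr U T) {w1 w2 : ℂ} {t1 t2 j1 j2 ε1 ε2 κ σ2 : ℝ} {P Q : Set (Fin k)}
    (hε1 : ε1 = 1 ∨ ε1 = -1) (hε2 : ε2 = 1 ∨ ε2 = -1) (hκ : κ = 1 ∨ κ = -1)
    (hσ2 : σ2 = 1 ∨ σ2 = -1)
    (hp : pt (pt w1 t1) (t1 + j1) = pt (pt w2 t2) (t2 + j2))
    (hP : ∃ᶠ s in 𝓝[>] (0 : ℝ), pt w1 (t1 + ε1 * s) ∈ Cr U w1 P)
    (hQ : ∃ᶠ s in 𝓝[>] (0 : ℝ), pt w2 (t2 + ε2 * s) ∈ Cr U w2 Q)
    (hA : 0 < ε1 * κ * (Real.sin (j1 * (Real.pi / 3)) *
      Real.sin ((t1 + j1 - (t2 + j2)) * (Real.pi / 3))))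
    (hS : ∀ᶠ l in 𝓝[>] (0 : ℝ), 0 < σ2 * (ε2 * Real.sin ((j2 + κ * l) * (Real.pi / 3))))
    {C : Set ℂ} (hCo : IsOpen C) (hC : ∀ᶠ l in 𝓝[>] (0 : ℝ),
      ∀ᶠ w in 𝓝 (pt (pt w2 t2) (t2 + j2 + κ * l)), 0 < σ2 * (dist w (pt w2 t2) - 1) → w ∈ C) :
    ∃ c, c ∉ P ∧ c ∉ Q ∧ OccIn T (pt (pt w2 t2) (t2 + j2)) C c :=
  occ_of_free h hCo (wedge2_pt_free h.mx hε1 hε2 hκ hσ2 hp hP hQ hA hS hC)

/-! ### cells -/

/-- the points near a path on the side `σ₂` of `S(u)` are in the cell -/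
theorem cel_of_path {V : Finset ℂ} {p m u : ℂ} {br : ℝ → ℂ} {σ : ℝ}
    (hV : ∀ v ∈ V, v ≠ u → (0 < ip m (v - p) ∧ ∀ᶠ l in 𝓝[>] (0 : ℝ), dist (br l) v < 1) ∨
      (ip m (v - p) ≤ 0 ∧ ∀ᶠ l in 𝓝[>] (0 : ℝ), 1 < dist (br l) v))
    (hu : (σ = 1 ∧ ip m (u - p) ≤ 0) ∨ (σ = -1 ∧ 0 < ip m (u - p))) :
    ∀ᶠ l in 𝓝[>] (0 : ℝ), ∀ᶠ w in 𝓝 (br l), 0 < σ * (dist w u - 1) → w ∈ Cel V p m := by
  have h1 : ∀ᶠ l in 𝓝[>] (0 : ℝ), ∀ v ∈ V, ∀ᶠ w in 𝓝 (br l), 0 < σ * (dist w u - 1) →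
      (0 < ip m (v - p) → dist w v < 1) ∧ (ip m (v - p) ≤ 0 → 1 < dist w v) := by
    rw [Filter.eventually_all_finset]
    intro v hv
    rcases eq_or_ne v u with rfl | hvu
    · refine Eventually.of_forall fun l => Eventually.of_forall fun w hw => ?_
      rcases hu with ⟨rfl, h2⟩ | ⟨rfl, h2⟩
      · exact ⟨fun h3 => absurd h3 (not_lt.2 h2), fun _ => by linarith⟩
      · exact ⟨fun _ => by linarith, fun h3 => absurd h2 (not_lt.2 h3)⟩
    · rcases hV v hv hvu with ⟨h2, h3⟩ | ⟨h2, h3⟩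
      · filter_upwards [h3] with l hl
        have hc : Continuous fun w : ℂ => dist w v := by fun_prop
        filter_upwards [(hc.tendsto (br l)).eventually (Iio_mem_nhds hl)] with w hw _
        exact ⟨fun _ => hw, fun h4 => absurd h2 (not_lt.2 h4)⟩
      · filter_upwards [h3] with l hl
        have hc : Continuous fun w : ℂ => dist w v := by fun_prop
        filter_upwards [(hc.tendsto (br l)).eventually (Ioi_mem_nhds hl)] with w hw _
        exact ⟨fun h4 => absurd h4 (not_lt.2 h2), fun _ => hw⟩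
  filter_upwards [h1] with l hl
  have h2 := (Filter.eventually_all_finset V).2 hl
  filter_upwards [h2] with w hw hs v hv
  exact hw v hv hs

theorem ip_cis (p : ℂ) (a b : ℝ) :
    ip (cis (a * (Real.pi / 3))) (pt p b - p) = Real.cos ((a - b) * (Real.pi / 3)) := by
  have e : pt p b - p = cis (b * (Real.pi / 3)) := by unfold pt; ring
  rw [e, sub_mul, Real.cos_sub]
  unfold ip
  rw [cis_re, cis_re, cis_im, cis_im]

/-- the six neighbours of `p` against the half branch `κ` of the neighbour number `3` -/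
theorem six_sides {u : ℂ} {φ κ δ : ℝ} (hκ : κ = 1 ∨ κ = -1) (hδ0 : 0 ≤ δ) (hδ1 : δ < 1) {i : ℕ}
    (hi : i < 6) (h3 : pt (pt u φ) (φ + i) ≠ u) :
    (0 < ip (cis ((φ + κ * (3 / 2 + δ)) * (Real.pi / 3))) (pt (pt u φ) (φ + i) - pt u φ) ∧
      ∀ᶠ l in 𝓝[>] (0 : ℝ), dist (pt u (φ + κ * l)) (pt (pt u φ) (φ + i)) < 1) ∨
    (ip (cis ((φ + κ * (3 / 2 + δ)) * (Real.pi / 3))) (pt (pt u φ) (φ + i) - pt u φ) ≤ 0 ∧
      ∀ᶠ l in 𝓝[>] (0 : ℝ), 1 < dist (pt u (φ + κ * l)) (pt (pt u φ) (φ + i))) := by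
  have hpi := Real.pi_pos
  have hin : ∀ j : ℝ, 0 < κ * Real.sin (j * (Real.pi / 3)) →
      ∀ᶠ l in 𝓝[>] (0 : ℝ), dist (pt u (φ + κ * l)) (pt (pt u φ) (φ + j)) < 1 := by
    intro j hj
    filter_upwards [move_germ u φ (j := j) (ε := κ) (c := 1) hκ (by rw [one_mul]; exact hj)]
      with l hl
    rw [dist_comm]
    linarith
  have hout : ∀ j : ℝ, κ * Real.sin (j * (Real.pi / 3)) < 0 →
      ∀ᶠ l in 𝓝[>] (0 : ℝ), 1 < dist (pt u (φ + κ * l)) (pt (pt u φ) (φ + j)) := by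
    intro j hj
    filter_upwards [move_germ u φ (j := j) (ε := κ) (c := -1) hκ (by linarith)] with l hl
    rw [dist_comm]
    linarith
  have hipc : ∀ j : ℝ, ip (cis ((φ + κ * (3 / 2 + δ)) * (Real.pi / 3)))
      (pt (pt u φ) (φ + j) - pt u φ) = Real.cos ((3 / 2 + δ - κ * j) * (Real.pi / 3)) := by
    intro j
    rw [ip_cis]
    rcases hκ with rfl | rfl
    · congr 1; ring
    · rw [← Real.cos_neg]; congr 1; ring
  have s1 : 0 < Real.sin ((1 : ℝ) * (Real.pi / 3)) :=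
    Real.sin_pos_of_pos_of_lt_pi (by positivity) (by linarith)
  have s2 : 0 < Real.sin ((2 : ℝ) * (Real.pi / 3)) :=
    Real.sin_pos_of_pos_of_lt_pi (by positivity) (by linarith)
  have s4 : Real.sin ((4 : ℝ) * (Real.pi / 3)) < 0 := by
    have e : (4 : ℝ) * (Real.pi / 3) = 1 * (Real.pi / 3) + Real.pi := by ring
    rw [e, Real.sin_add_pi]; linarith
  have s5 : Real.sin ((5 : ℝ) * (Real.pi / 3)) < 0 := by
    have e : (5 : ℝ) * (Real.pi / 3) = 2 * (Real.pi / 3) + Real.pi := by ring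
    rw [e, Real.sin_add_pi]; linarith
  -- cosines
  have cpos : ∀ x : ℝ, -(3 / 2) < x → x < 3 / 2 → 0 < Real.cos (x * (Real.pi / 3)) := by
    intro x h1 h2
    exact Real.cos_pos_of_mem_Ioo ⟨by nlinarith, by nlinarith⟩
  have cneg : ∀ x : ℝ, 3 / 2 ≤ x → x ≤ 9 / 2 → Real.cos (x * (Real.pi / 3)) ≤ 0 := by
    intro x h1 h2
    exact Real.cos_nonpos_of_pi_div_two_le_of_le (by nlinarith) (by nlinarith)
  have cper : ∀ x : ℝ, Real.cos ((x + 6) * (Real.pi / 3)) = Real.cos (x * (Real.pi / 3)) := by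
    intro x
    have e : (x + 6) * (Real.pi / 3) = x * (Real.pi / 3) + 2 * Real.pi := by ring
    rw [e, Real.cos_add_two_pi]
  rw [hipc]
  rcases hκ with hk | hk
  · subst hk
    interval_cases i
    · -- the antipode of the centre
      refine Or.inr ⟨?_, ?_⟩
      · exact cneg _ (by push_cast; linarith) (by push_cast; linarith)
      · have h5 : ∀ᶠ s in 𝓝[>] (0 : ℝ), s < 1 := nhdsWithin_le_nhds (Iio_mem_nhds one_pos)
        filter_upwards [h5, self_mem_nhdsWithin] with l h6 h7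
        have h7 : (0 : ℝ) < l := h7
        rw [dist_comm, Nat.cast_zero, add_zero, one_mul]
        exact move_tan h7.ne' (by rw [abs_of_pos h7]; linarith)
    · refine Or.inl ⟨?_, ?_⟩
      · exact cpos _ (by push_cast; linarith) (by push_cast; linarith)
      · have := hin 1 (by linarith)
        simpa using this
    · refine Or.inl ⟨?_, ?_⟩
      · exact cpos _ (by push_cast; linarith) (by push_cast; linarith)
      · have := hin 2 (by linarith)
        simpa using this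
    · exact absurd (by simpa using pt_back u φ) h3
    · refine Or.inr ⟨?_, ?_⟩
      · rw [← cper]
        exact cneg _ (by push_cast; linarith) (by push_cast; linarith)
      · have := hout 4 (by linarith)
        simpa using this
    · refine Or.inr ⟨?_, ?_⟩
      · rw [← cper]
        exact cneg _ (by push_cast; linarith) (by push_cast; linarith)
      · have := hout 5 (by linarith)
        simpa using this
  · subst hk
    interval_cases i
    · refine Or.inr ⟨?_, ?_⟩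
      · exact cneg _ (by push_cast; linarith) (by push_cast; linarith)
      · have h5 : ∀ᶠ s in 𝓝[>] (0 : ℝ), s < 1 := nhdsWithin_le_nhds (Iio_mem_nhds one_pos)
        filter_upwards [h5, self_mem_nhdsWithin] with l h6 h7
        have h7 : (0 : ℝ) < l := h7
        rw [dist_comm, Nat.cast_zero, add_zero, neg_one_mul]
        exact move_tan (neg_ne_zero.2 h7.ne') (by rw [abs_neg, abs_of_pos h7]; linarith)
    · refine Or.inr ⟨?_, ?_⟩
      · exact cneg _ (by push_cast; linarith) (by push_cast; linarith)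
      · have := hout 1 (by linarith)
        simpa using this
    · refine Or.inr ⟨?_, ?_⟩
      · exact cneg _ (by push_cast; linarith) (by push_cast; linarith)
      · have := hout 2 (by linarith)
        simpa using this
    · exact absurd (by simpa using pt_back u φ) h3
    · refine Or.inl ⟨?_, ?_⟩
      · have e : (3 / 2 + δ - -1 * ((4 : ℕ) : ℝ)) = (3 / 2 + δ - 2) + 6 := by push_cast; ring
        rw [e, cper]
        exact cpos _ (by linarith) (by linarith)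
      · have := hin 4 (by linarith)
        simpa using this
    · refine Or.inl ⟨?_, ?_⟩
      · have e : (3 / 2 + δ - -1 * ((5 : ℕ) : ℝ)) = (3 / 2 + δ - 1) + 6 := by push_cast; ring
        rw [e, cper]
        exact cpos _ (by linarith) (by linarith)
      · have := hin 5 (by linarith)
        simpa using this

/-- **The wedge of two circles, cells.**  `V` consists of neighbours `pt p (φ + i)` of `p`; `δ = 0` and
`σ₂ = 1` : the cusp at the half branch, `0 < δ < 1` and `σ₂ = -1` : the sector next to it inside `D(u₂)`.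
`K` is any open set which contains the half branch (a cone about the ray). -/
theorem wedge2_cel (h : Irr U T) {w1 w2 : ℂ} {t1 t2 j1 j2 ε1 ε2 κ σ2 δ : ℝ} {P Q : Set (Fin k)}
    (hε1 : ε1 = 1 ∨ ε1 = -1) (hε2 : ε2 = 1 ∨ ε2 = -1) (hκ : κ = 1 ∨ κ = -1)
    (hσ2 : (σ2 = 1 ∧ δ = 0) ∨ (σ2 = -1 ∧ 0 < δ ∧ δ < 1))
    (hp : pt (pt w1 t1) (t1 + j1) = pt (pt w2 t2) (t2 + j2))
    (hP : ∃ᶠ s in 𝓝[>] (0 : ℝ), pt w1 (t1 + ε1 * s) ∈ Cr U w1 P)
    (hQ : ∃ᶠ s in 𝓝[>] (0 : ℝ), pt w2 (t2 + ε2 * s) ∈ Cr U w2 Q)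
    (hA : 0 < ε1 * κ * (Real.sin (j1 * (Real.pi / 3)) *
      Real.sin ((t1 + j1 - (t2 + j2)) * (Real.pi / 3))))
    (hS : ∀ᶠ l in 𝓝[>] (0 : ℝ), 0 < σ2 * (ε2 * Real.sin ((j2 + κ * l) * (Real.pi / 3))))
    {V : Finset ℂ} (hV : ∀ v ∈ V, ∃ i : ℕ, i < 6 ∧
      v = pt (pt (pt w2 t2) (t2 + j2)) (t2 + j2 + i))
    {K : Set ℂ} (hKo : IsOpen K)
    (hK : ∀ᶠ l in 𝓝[>] (0 : ℝ), pt (pt w2 t2) (t2 + j2 + κ * l) ∈ K) :
    ∃ c, c ∉ P ∧ c ∉ Q ∧ OccIn T (pt (pt w2 t2) (t2 + j2))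
      (Cel V (pt (pt w2 t2) (t2 + j2)) (cis ((t2 + j2 + κ * (3 / 2 + δ)) * (Real.pi / 3))) ∩ K)
      c := by
  have hσ : σ2 = 1 ∨ σ2 = -1 := by
    rcases hσ2 with h1 | h1
    · exact Or.inl h1.1
    · exact Or.inr h1.1
  have hδ0 : 0 ≤ δ := by
    rcases hσ2 with h1 | h1
    · exact h1.2.ge
    · exact h1.2.1.le
  have hδ1 : δ < 1 := by
    rcases hσ2 with h1 | h1
    · rw [h1.2]; norm_num
    · exact h1.2.2
  refine wedge2_pt h hε1 hε2 hκ hσ hp hP hQ hA hS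
    ((isOpen_Cel V _ _).inter hKo) ?_
  have h1 : ∀ᶠ l in 𝓝[>] (0 : ℝ), ∀ᶠ w in 𝓝 (pt (pt w2 t2) (t2 + j2 + κ * l)),
      0 < σ2 * (dist w (pt w2 t2) - 1) → w ∈ Cel V (pt (pt w2 t2) (t2 + j2))
        (cis ((t2 + j2 + κ * (3 / 2 + δ)) * (Real.pi / 3))) := by
    refine cel_of_path (br := fun l => pt (pt w2 t2) (t2 + j2 + κ * l)) ?_ ?_
    · intro v hv hvu
      obtain ⟨i, hi, rfl⟩ := hV v hv
      exact six_sides hκ hδ0 hδ1 hi hvu
    · -- the side of the centre itself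
      have e1 : pt w2 t2 = pt (pt (pt w2 t2) (t2 + j2)) (t2 + j2 + 3) := (pt_back _ _).symm
      have e2 : ip (cis ((t2 + j2 + κ * (3 / 2 + δ)) * (Real.pi / 3)))
          (pt w2 t2 - pt (pt w2 t2) (t2 + j2)) = Real.sin (δ * (Real.pi / 3)) := by
        conv_lhs => rw [show pt w2 t2 - pt (pt w2 t2) (t2 + j2) =
          pt (pt (pt w2 t2) (t2 + j2)) (t2 + j2 + 3) - pt (pt w2 t2) (t2 + j2) by rw [← e1]]
        rw [ip_cis]
        rcases hκ with rfl | rfl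
        · have e3 : (t2 + j2 + 1 * (3 / 2 + δ) - (t2 + j2 + 3)) * (Real.pi / 3) =
              δ * (Real.pi / 3) - Real.pi / 2 := by ring
          rw [e3, Real.cos_sub_pi_div_two]
        · have e3 : (t2 + j2 + -1 * (3 / 2 + δ) - (t2 + j2 + 3)) * (Real.pi / 3) =
              -(δ * (Real.pi / 3) + Real.pi / 2 + Real.pi) := by ring
          rw [e3, Real.cos_neg, Real.cos_add_pi, Real.cos_add_pi_div_two]
          ring
      rw [e2]
      rcases hσ2 with ⟨h2, h3⟩ | ⟨h2, h3, h4⟩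
      · refine Or.inl ⟨h2, ?_⟩
        rw [h3, zero_mul, Real.sin_zero]
      · refine Or.inr ⟨h2, ?_⟩
        have := Real.pi_pos
        exact Real.sin_pos_of_pos_of_lt_pi (by positivity) (by nlinarith)
  filter_upwards [h1, hK] with l h2 h3
  filter_upwards [h2, hKo.mem_nhds h3] with w h4 h5 h6
  exact ⟨h4 h6, h5⟩

/-! ### the side of the second letter -/

/-- a neighbour off the line of the centre: after `t` the point comes nearer if `0 < j < 3` -/
theorem side_of {σ ε j κ : ℝ} (h : 0 < σ * (ε * Real.sin (j * (Real.pi / 3)))) :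
    ∀ᶠ l in 𝓝[>] (0 : ℝ), 0 < σ * (ε * Real.sin ((j + κ * l) * (Real.pi / 3))) := by
  have hc : Continuous fun l : ℝ => σ * (ε * Real.sin ((j + κ * l) * (Real.pi / 3))) := by fun_prop
  have h2 := hc.tendsto 0
  simp only [mul_zero, add_zero] at h2
  exact (h2.eventually (Ioi_mem_nhds h)).filter_mono nhdsWithin_le_nhds

theorem side_aux {c κ : ℝ} (hκ : κ = 1 ∨ κ = -1) (h : 0 < c * κ) :
    ∀ᶠ l in 𝓝[>] (0 : ℝ), 0 < c * Real.sin (κ * l * (Real.pi / 3)) := by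
  have h5 : ∀ᶠ s in 𝓝[>] (0 : ℝ), s < 1 := nhdsWithin_le_nhds (Iio_mem_nhds one_pos)
  filter_upwards [h5, self_mem_nhdsWithin] with l h6 h7
  have h7 : (0 : ℝ) < l := h7
  have h8 : 0 < Real.sin (l * (Real.pi / 3)) :=
    Real.sin_pos_of_pos_of_lt_pi (by positivity) (by nlinarith [Real.pi_pos])
  have e : Real.sin (κ * l * (Real.pi / 3)) = κ * Real.sin (l * (Real.pi / 3)) := by
    rcases hκ with rfl | rfl
    · rw [one_mul, one_mul]
    · rw [neg_one_mul, neg_mul, Real.sin_neg, neg_one_mul]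
  rw [e, ← mul_assoc]
  exact mul_pos h h8

/-- the antipode of the centre (`j = 0`) -/
theorem side_zero {σ ε κ : ℝ} (hκ : κ = 1 ∨ κ = -1) (h : 0 < σ * ε * κ) :
    ∀ᶠ l in 𝓝[>] (0 : ℝ), 0 < σ * (ε * Real.sin ((0 + κ * l) * (Real.pi / 3))) := by
  filter_upwards [side_aux (c := σ * ε) hκ h] with l hl
  rw [zero_add, ← mul_assoc]
  exact hl

/-- the centre itself (`j = 3`) -/
theorem side_three {σ ε κ : ℝ} (hκ : κ = 1 ∨ κ = -1) (h : σ * ε * κ < 0) :
    ∀ᶠ l in 𝓝[>] (0 : ℝ), 0 < σ * (ε * Real.sin ((3 + κ * l) * (Real.pi / 3))) := by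
  filter_upwards [side_aux (c := -(σ * ε)) hκ (by linarith)] with l hl
  have e : (3 + κ * l) * (Real.pi / 3) = κ * l * (Real.pi / 3) + Real.pi := by ring
  rw [e, Real.sin_add_pi]
  linarith

/-! ### integer form -/

/-- the sign of `sin (j π / 3)` -/
def sg6 : Fin 6 → ℤ := ![0, 1, 1, 0, -1, -1]

theorem sin_sg6 (j : Fin 6) : Real.sin ((j.val : ℝ) * (Real.pi / 3)) = sg6 j * (√3 / 2) := by
  have h1 : Real.sin (Real.pi / 3) = √3 / 2 := Real.sin_pi_div_three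
  have h2 : Real.sin (2 * (Real.pi / 3)) = √3 / 2 := by
    have e : (2 : ℝ) * (Real.pi / 3) = Real.pi - Real.pi / 3 := by ring
    rw [e, Real.sin_pi_sub, h1]
  fin_cases j
  · simp [sg6]
  · simp [sg6]
  · simpa [sg6] using h2
  · have e : (3 : ℝ) * (Real.pi / 3) = Real.pi := by ring
    simp [sg6, e]
  · have e : (4 : ℝ) * (Real.pi / 3) = Real.pi / 3 + Real.pi := by ring
    simp [sg6, e, Real.sin_add_pi]
  · have e : (5 : ℝ) * (Real.pi / 3) = 2 * (Real.pi / 3) + Real.pi := by ring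
    simp [sg6, e, Real.sin_add_pi, h2]

/-- the side of the second letter: `1` = it comes nearer to the half branch `κ` (cusp), `-1` = it goes
away (sector) -/
def sd6 (j : Fin 6) (κ ε : ℤ) : ℤ :=
  if j = 0 then ε * κ else if j = 3 then -(ε * κ) else ε * sg6 j

theorem sd6_side {j : Fin 6} {κ ε : ℤ} (hκ : κ = 1 ∨ κ = -1) (hε : ε = 1 ∨ ε = -1) :
    ∀ᶠ l in 𝓝[>] (0 : ℝ),
      0 < (sd6 j κ ε : ℝ) * ((ε : ℝ) * Real.sin (((j.val : ℝ) + (κ : ℝ) * l) * (Real.pi / 3))) := by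
  have hκ' : (κ : ℝ) = 1 ∨ (κ : ℝ) = -1 := by
    rcases hκ with rfl | rfl
    · left; norm_num
    · right; norm_num
  have hεε : (ε : ℝ) * ε = 1 := by rcases hε with rfl | rfl <;> norm_num
  have hκκ : (κ : ℝ) * κ = 1 := by rcases hκ with rfl | rfl <;> norm_num
  unfold sd6
  split_ifs with h0 h3
  · subst h0
    have := side_zero (σ := ((ε * κ : ℤ) : ℝ)) (ε := (ε : ℝ)) hκ' (by
      push_cast
      have e : (ε : ℝ) * κ * ε * κ = (ε * ε) * (κ * κ) := by ring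
      rw [e, hεε, hκκ]; norm_num)
    simpa using this
  · subst h3
    have := side_three (σ := ((-(ε * κ) : ℤ) : ℝ)) (ε := (ε : ℝ)) hκ' (by
      push_cast
      have e : -((ε : ℝ) * κ) * ε * κ = -((ε * ε) * (κ * κ)) := by ring
      rw [e, hεε, hκκ]; norm_num)
    simpa using this
  · refine side_of ?_
    rw [sin_sg6]
    push_cast
    have hs : ((sg6 j : ℤ) : ℝ) * (sg6 j : ℤ) = 1 := by
      have : sg6 j * sg6 j = 1 := by
        revert h0 h3
        revert j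
        decide
      exact_mod_cast this
    have e : (ε : ℝ) * (sg6 j : ℤ) * (ε * ((sg6 j : ℤ) * (√3 / 2))) =
        (ε * ε) * (((sg6 j : ℤ) : ℝ) * (sg6 j : ℤ)) * (√3 / 2) := by ring
    rw [e, hεε, hs]
    positivity

/-- **The wedge of two circles, integer form.**  `u₁ = pt w₁ t₁` sees `p` at the slot `j₁`, `u₂ = pt w₂ t₂`
sees `p` at the slot `j₂`, and `e` is the slot of `u₁` against `u₂` seen from `p`. -/
theorem wedge2_slot (h : Irr U T) {w1 w2 : ℂ} {t1 t2 δ : ℝ} {j1 j2 e : Fin 6} {n ε1 ε2 κ : ℤ}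
    {P Q : Set (Fin k)} (hε1 : ε1 = 1 ∨ ε1 = -1) (hε2 : ε2 = 1 ∨ ε2 = -1) (hκ : κ = 1 ∨ κ = -1)
    (hσ2 : (sd6 j2 κ ε2 = 1 ∧ δ = 0) ∨ (sd6 j2 κ ε2 = -1 ∧ 0 < δ ∧ δ < 1))
    (hp : pt (pt w1 t1) (t1 + j1.val) = pt (pt w2 t2) (t2 + j2.val))
    (he : t1 + j1.val = t2 + j2.val + e.val + 6 * n)
    (hP : ∃ᶠ s in 𝓝[>] (0 : ℝ), pt w1 (t1 + ε1 * s) ∈ Cr U w1 P)
    (hQ : ∃ᶠ s in 𝓝[>] (0 : ℝ), pt w2 (t2 + ε2 * s) ∈ Cr U w2 Q)
    (hA : 0 < ε1 * κ * (sg6 j1 * sg6 e))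
    {V : Finset ℂ} (hV : ∀ v ∈ V, ∃ i : ℕ, i < 6 ∧
      v = pt (pt (pt w2 t2) (t2 + j2.val)) (t2 + j2.val + i))
    {K : Set ℂ} (hKo : IsOpen K)
    (hK : ∀ᶠ l in 𝓝[>] (0 : ℝ), pt (pt w2 t2) (t2 + j2.val + κ * l) ∈ K) :
    ∃ c, c ∉ P ∧ c ∉ Q ∧ OccIn T (pt (pt w2 t2) (t2 + j2.val))
      (Cel V (pt (pt w2 t2) (t2 + j2.val))
        (cis ((t2 + j2.val + κ * (3 / 2 + δ)) * (Real.pi / 3))) ∩ K) c := by
  have c1 : ∀ {ε : ℤ}, (ε = 1 ∨ ε = -1) → ((ε : ℝ) = 1 ∨ (ε : ℝ) = -1) := by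
    intro ε h1
    rcases h1 with rfl | rfl
    · left; norm_num
    · right; norm_num
  have hA' : 0 < (ε1 : ℝ) * κ * (Real.sin ((j1.val : ℝ) * (Real.pi / 3)) *
      Real.sin ((t1 + j1.val - (t2 + j2.val)) * (Real.pi / 3))) := by
    have e1 : (t1 + j1.val - (t2 + j2.val)) * (Real.pi / 3) =
        (e.val : ℝ) * (Real.pi / 3) + n * (2 * Real.pi) := by rw [he]; ring
    rw [e1, Real.sin_add_int_mul_two_pi, sin_sg6, sin_sg6]
    have h2 : (0 : ℝ) < (ε1 : ℝ) * κ * ((sg6 j1 : ℤ) * (sg6 e : ℤ)) := by exact_mod_cast hA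
    have e2 : (ε1 : ℝ) * κ * ((sg6 j1 : ℤ) * (√3 / 2) * ((sg6 e : ℤ) * (√3 / 2))) =
        (ε1 : ℝ) * κ * ((sg6 j1 : ℤ) * (sg6 e : ℤ)) * ((√3 / 2) * (√3 / 2)) := by ring
    rw [e2]
    positivity
  refine wedge2_cel h (σ2 := ((sd6 j2 κ ε2 : ℤ) : ℝ)) (c1 hε1) (c1 hε2) (c1 hκ) ?_ hp hP hQ hA'
    (sd6_side hκ hε2) hV hKo hK
  rcases hσ2 with ⟨h1, h2⟩ | ⟨h1, h2⟩
  · exact Or.inl ⟨by rw [h1]; norm_num, h2⟩
  · exact Or.inr ⟨by rw [h1]; norm_num, h2⟩

end Vale.Agent.P032.H908
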