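import Vale.Agent.P032.H437.SwL
import Vale.Agent.P032.H908.WedgePt

/-!
# P032: the strong sweep rule and the wedge of two circles, in the frame of the limit letters

`Fr.sweep_out_strong` : a colour outside the whole letter `lt (F σ) T w k` occurs outside the disc about
`pt w (u + k)` at its slot `m` (437's sweep rule gives a colour different from one given colour).

`Fr.wedge2` : the wedge of two circles: a colour off both letters occurs in the cusp or in the sector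
next to the half branch.  `Fr.wedge2_T` : the form with palettes only.
-/

open Set Filter Topology Metric

noncomputable section

namespace Vale.Agent.P032.H908

open Vale.Agent.P032.Six Vale.Agent.P032.H187 Vale.Agent.P032.H782 Vale.Agent.P032.H158
  Vale.Agent.P032.S5.H767 Vale.Agent.P032.S5.H122 Vale.Agent.P032.H437 Vale.Agent.P032.Sweep

variable {U : Fin 6 → Set ℂ} {T : ℂ → Set (Fin 6)} {u : ℝ} {F : Bool → Ultrafilter ℝ}

/-- a time of constant palette gives an arc -/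
theorem cr_of_Lc (h : Irr U T) {w : ℂ} {v : ℝ} (hv : v ∈ Lc T w) {P : Set (Fin 6)}
    (hP : T (pt w v) = P) : pt w v ∈ Cr U w P :=
  Cr_of_T h (dist_pt w v) ((Lc_circle hv).mono fun q hq => by rw [hq, hP])

/-- **The strong sweep at a point.** -/
theorem sweep_pt_strong (h : Irr U T) {w : ℂ} {a t : ℝ} {P : Set (Fin 6)} {l : Filter ℝ}
    (hl : l ≤ 𝓝 a) (hi : ∃ᶠ v in l, pt w v ∈ Cr U w P)
    (hne : pt (pt w a) t ≠ w ∧ pt (pt w a) t + w ≠ 2 * pt w a) {C : Set ℂ} (hC : IsOpen C)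
    (hd : ∀ᶠ v in l, pt (pt w a) t + (pt w v - pt w a) ∈ C) :
    ∃ j, j ∉ P ∧ OccIn T (pt (pt w a) t) C j := by
  have hcw : Tendsto (pt w) l (𝓝 (pt w a)) := ((continuous_pt w).tendsto a).mono_left hl
  have htd : Tendsto (fun v : ℝ => pt (pt w a) t + (pt w v - pt w a)) l (𝓝 (pt (pt w a) t)) := by
    have h1 := (hcw.sub_const (pt w a)).const_add (pt (pt w a) t)
    rwa [sub_self, add_zero] at h1
  have h0 : ∀ᶠ v in l, pt (pt w a) t + (pt w v - pt w a) ≠ w ∧
      pt (pt w a) t + (pt w v - pt w a) + w ≠ 2 * pt w v := by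
    have h1 : ∀ᶠ v in l, pt (pt w a) t + (pt w v - pt w a) ≠ w :=
      htd.eventually (isOpen_ne.mem_nhds hne.1)
    have h2 : ∀ᶠ v in l, pt (pt w a) t + (pt w v - pt w a) + w - 2 * pt w v ≠ 0 := by
      have h3 := (htd.add_const w).sub (hcw.const_mul 2)
      exact h3.eventually (isOpen_ne.mem_nhds (sub_ne_zero.2 hne.2))
    filter_upwards [h1, h2] with v h3 h4
    exact ⟨h3, sub_ne_zero.1 h4⟩
  have h2 : ∃ᶠ q in 𝓝 (pt (pt w a) t), (∃ j, j ∉ P ∧ j ∈ T q) ∧ q ∈ C := by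
    refine htd.frequently ((hi.and_eventually (hd.and h0)).mono fun v hv => ⟨?_, hv.2.1⟩)
    obtain ⟨j, hj⟩ := h.ne (pt (pt w a) t + (pt w v - pt w a))
    refine ⟨j, fun hjP => ?_, hj⟩
    exact Cr_line h.mx hv.1 hjP (by rw [dist_comm]; exact dist_moved w a t v) hv.2.2.1 hv.2.2.2
      (h.sub _ hj)
  have h4 : ∃ j, ∃ᶠ q in 𝓝 (pt (pt w a) t), j ∉ P ∧ j ∈ T q ∧ q ∈ C := by
    by_contra hcon
    have h5 : ∀ᶠ q in 𝓝 (pt (pt w a) t), ∀ j, ¬ (j ∉ P ∧ j ∈ T q ∧ q ∈ C) :=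
      eventually_all.2 fun j => not_frequently.1 (not_exists.1 hcon j)
    obtain ⟨q, ⟨⟨j, h6, h7⟩, h8⟩, h9⟩ := (h2.and_eventually h5).exists
    exact h9 j ⟨h6, h7, h8⟩
  obtain ⟨j, hj⟩ := h4
  obtain ⟨q, hq⟩ := hj.exists
  exact ⟨j, hq.1, occ_of_T h hC (hj.mono fun q hq => ⟨hq.2.1, hq.2.2⟩)⟩

/-- finite choice for an ultrafilter -/
theorem uf_choice {F : Ultrafilter ℝ} {R : Fin 6 → ℝ → Prop} {B : Fin 6 → Prop}
    (h : ∀ᶠ v in (F : Filter ℝ), ∃ j, B j ∧ R j v) : ∃ j, B j ∧ ∀ᶠ v in (F : Filter ℝ), R j v := by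
  by_contra hcon
  have h1 : ∀ j, ∀ᶠ v in (F : Filter ℝ), B j → ¬ R j v := by
    intro j
    by_cases hj : B j
    · have h2 : ¬ ∀ᶠ v in (F : Filter ℝ), R j v := fun h3 => hcon ⟨j, hj, h3⟩
      filter_upwards [Ultrafilter.eventually_not.2 h2] with v hv _
      exact hv
    · exact Eventually.of_forall fun _ hn => absurd hn hj
  obtain ⟨v, ⟨j, h2, h3⟩, h4⟩ := (h.and (eventually_all.2 h1)).exists
  exact h4 j h2 h3

/-- **The strong sweep rule**, real form -/
theorem sweep_real_strong (hf : Fr U T u F) {σ σ₂ : Bool} {w : ℂ} {k m : ℝ} :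
    ((∀ᶠ v in (F σ₂ : Filter ℝ), 0 < sg σ * Real.sin ((v + m - (u + k)) * (Real.pi / 3))) →
      ∃ j, j ∉ lt (F σ) T w k ∧ Out (F σ₂) T (pt w (u + k)) m j) ∧
    ((∀ᶠ v in (F σ₂ : Filter ℝ), sg σ * Real.sin ((v + m - (u + k)) * (Real.pi / 3)) < 0) →
      ∃ j, j ∉ lt (F σ) T w k ∧ Inn (F σ₂) T (pt w (u + k)) m j) := by
  have hl : Filter.map (fun v : ℝ => v + k) (F σ : Filter ℝ) ≤ 𝓝 (u + k) := by
    have hc : Continuous fun v : ℝ => v + k := by fun_prop
    exact (hc.tendsto u).mono_left (hf.le σ)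
  have hi' : ∃ᶠ v in Filter.map (fun v : ℝ => v + k) (F σ : Filter ℝ),
      pt w v ∈ Cr U w (lt (F σ) T w k) := by
    rw [frequently_map]
    have h1 := hf.lc σ w k
    have h2 := lt_spec (F σ) T w k
    exact ((Filter.Eventually.and h1 h2).mono fun v hv =>
      cr_of_Lc hf.irr hv.1 hv.2).frequently
  have hc : ∀ᶠ v in Filter.map (fun v : ℝ => v + k) (F σ : Filter ℝ), 0 < sg σ * (v - (u + k)) := by
    rw [eventually_map]
    filter_upwards [hf.ev_sg σ] with v hv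
    rwa [show v + k - (u + k) = v - u by ring]
  have hne : ∀ v : ℝ, sg σ * Real.sin ((v + m - (u + k)) * (Real.pi / 3)) ≠ 0 →
      pt (pt w (u + k)) (v + m) ≠ w ∧ pt (pt w (u + k)) (v + m) + w ≠ 2 * pt w (u + k) := by
    intro v hv
    have h1 := ne_centre (w := w) (t := u + k) (j := v + m - (u + k)) (right_ne_zero_of_mul hv)
    rwa [show u + k + (v + m - (u + k)) = v + m by ring] at h1
  constructor
  · intro hs
    refine uf_choice (F := F σ₂) (hs.mono fun v hv => ?_)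
    refine sweep_pt_strong hf.irr hl hi' (hne v hv.ne') (isOpen_lt continuous_const
      (continuous_id.dist continuous_const)) ?_
    filter_upwards [side_ev (w := w) hl hc hv.ne'] with v' hv'
    show 1 < dist _ _
    have h1 := (mul_pos_iff_of_pos_left hv).1 hv'
    exact (sq_lt dist_nonneg).2.2 h1
  · intro hs
    refine uf_choice (F := F σ₂) (hs.mono fun v hv => ?_)
    refine sweep_pt_strong hf.irr hl hi' (hne v hv.ne) (isOpen_lt (continuous_id.dist
      continuous_const) continuous_const) ?_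
    filter_upwards [side_ev (w := w) hl hc hv.ne] with v' hv'
    show dist _ _ < 1
    have h1 := (neg_iff_neg_of_mul_pos hv').1 hv
    exact (sq_lt dist_nonneg).1.2 h1

/-- **F6, F7, strong form**, outside -/
theorem sweep_out_strong (hf : Fr U T u F) {σ σ₂ : Bool} (w : ℂ) {k m : Fin 6}
    (hs : sgn (m - k) σ₂ = σ) :
    ∃ j, j ∉ lt (F σ) T w (k.val : ℝ) ∧ Out (F σ₂) T (pt w (u + (k.val : ℝ))) (m.val : ℝ) j := by
  refine (sweep_real_strong hf).1 ?_
  have := hf.ev_sgn σ₂ k m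
  rwa [hs] at this

/-- **F6, F7, strong form**, inside -/
theorem sweep_inn_strong (hf : Fr U T u F) {σ σ₂ : Bool} (w : ℂ) {k m : Fin 6}
    (hs : sgn (m - k) σ₂ ≠ σ) :
    ∃ j, j ∉ lt (F σ) T w (k.val : ℝ) ∧ Inn (F σ₂) T (pt w (u + (k.val : ℝ))) (m.val : ℝ) j := by
  refine (sweep_real_strong hf).2 ?_
  have h1 := hf.ev_sgn σ₂ k m
  have h2 : sg (sgn (m - k) σ₂) = -sg σ := by
    revert hs
    cases sgn (m - k) σ₂ <;> cases σ <;> simp [sg]
  rw [h2] at h1
  filter_upwards [h1] with v hv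
  linarith

end Vale.Agent.P032.H908
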