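import Vale.Agent.P032.H437.Fam
import Vale.Agent.P032.H908.SwStrong

/-!
# P032: strong sweeps and the wedge of two circles, lattice atoms

`sw_out_strong`, `sw_in_strong` : 437's F6, F7 with a colour outside the whole letter.
`wedge2_fr` : the wedge of two circles in lattice coordinates, conclusion in a cell of 782.
`wedge2_TT` : palettes only.  `wedge2_OutN`, `wedge2_InnN` : with the side at a neighbour of the point.
-/

open Set Filter Topology Metric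

noncomputable section

namespace Vale.Agent.P032.H908

open Vale.Agent.P032.Six Vale.Agent.P032.H187 Vale.Agent.P032.H782 Vale.Agent.P032.H158
  Vale.Agent.P032.S5.H767 Vale.Agent.P032.S5.H122 Vale.Agent.P032.H437 Vale.Agent.P032.Sweep

variable {U : Fin 6 → Set ℂ} {T : ℂ → Set (Fin 6)} {z : ℂ} {u : ℝ} {F : Bool → Ultrafilter ℝ}
  {σ σ₂ : Bool} {m n : ℤ} {j k : Fin 6}

/-- **F6, F7, strong**, outside: `sgn (j - k) σ₂ = σ` -/
theorem sw_out_strong (hf : Fr U T u F) (z : ℂ) (m n : ℤ) (hs : sgn (j - k) σ₂ = σ) :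
    ∃ c, ¬ LT T z u F σ m n k c ∧ OUT T z u F σ₂ (m + dx k) (n + dy k) j c := by
  have h1 := sweep_out_strong hf (lp z u m n) (m := j) (σ₂ := σ₂) hs
  rwa [lp_step] at h1

/-- **F6, F7, strong**, inside: `sgn (j - k) σ₂ ≠ σ` -/
theorem sw_in_strong (hf : Fr U T u F) (z : ℂ) (m n : ℤ) (hs : sgn (j - k) σ₂ ≠ σ) :
    ∃ c, ¬ LT T z u F σ m n k c ∧ IN T z u F σ₂ (m + dx k) (n + dy k) j c := by
  have h1 := sweep_inn_strong hf (lp z u m n) (m := j) (σ₂ := σ₂) hs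
  rwa [lp_step] at h1

/-- `±1` -/
def sgZ (σ : Bool) : ℤ := cond σ 1 (-1)

theorem sgZ_cases (σ : Bool) : sgZ σ = 1 ∨ sgZ σ = -1 := by cases σ <;> simp [sgZ]

theorem sgZ_cast (σ : Bool) : ((sgZ σ : ℤ) : ℝ) = sg σ := by cases σ <;> simp [sgZ, sg]

/-- almost all times of the frame give available times -/
theorem freq_of_fr (hf : Fr U T u F) (σ : Bool) {A : ℝ → Prop}
    (hA : ∀ᶠ v in (F σ : Filter ℝ), A v) : ∃ᶠ s in 𝓝[>] (0 : ℝ), A (u + sgZ σ * s) := by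
  have h1 : Tendsto (fun v : ℝ => sg σ * (v - u)) (F σ : Filter ℝ) (𝓝[>] 0) := by
    refine tendsto_nhdsWithin_iff.2 ⟨?_, hf.ev_sg σ⟩
    have h2 : Continuous fun v : ℝ => sg σ * (v - u) := by fun_prop
    have h3 := h2.tendsto u
    rw [sub_self, mul_zero] at h3
    exact h3.mono_left (hf.le σ)
  refine h1.frequently (hA.mono fun v hv => ?_).frequently
  have hs : sg σ * sg σ = 1 := by cases σ <;> simp [sg]
  have e : u + ((sgZ σ : ℤ) : ℝ) * (sg σ * (v - u)) = v := by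
    rw [sgZ_cast, ← mul_assoc, hs]
    ring
  rw [e]
  exact hv

/-- the six neighbours -/
def nb6 (u : ℝ) (p : ℂ) : Finset ℂ := Finset.univ.image fun i : Fin 6 => pt p (u + (i.val : ℝ))

theorem fin_add (a b : Fin 6) : ∃ n : ℤ, (a.val : ℝ) + ((b - a : Fin 6).val : ℝ) =
    (b.val : ℝ) + 6 * n := by
  obtain ⟨n, hn⟩ := fin_sub_cast a b
  exact ⟨-n, by push_cast; linarith⟩

theorem pt_int (w : ℂ) (a : ℝ) (n : ℤ) : pt w (a + 6 * n) = pt w a := by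
  unfold pt
  have e : (a + 6 * n) * (Real.pi / 3) = a * (Real.pi / 3) + n * (2 * Real.pi) := by ring
  have h : cis (a * (Real.pi / 3) + n * (2 * Real.pi)) = cis (a * (Real.pi / 3)) := by
    apply Complex.ext
    · rw [cis_re, cis_re, Real.cos_add_int_mul_two_pi]
    · rw [cis_im, cis_im, Real.sin_add_int_mul_two_pi]
  rw [e, h]

/-- **The wedge of two circles in the frame.**  The centres `(m₁, n₁)`, `(m₂, n₂)` have the slots `k₁`, `k₂`;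
the slot points see the point `p` at the slots `l₁`, `l₂`. -/
theorem wedge2_fr (hf : Fr U T u F) (z : ℂ) {σ1 σ2 : Bool} {m1 n1 m2 n2 : ℤ}
    {k1 l1 k2 l2 : Fin 6} {κ : ℤ} {δ : ℝ} (hκ : κ = 1 ∨ κ = -1)
    (hx : m1 + dx k1 + dx l1 = m2 + dx k2 + dx l2) (hy : n1 + dy k1 + dy l1 = n2 + dy k2 + dy l2)
    (hA : 0 < sgZ σ1 * κ * (sg6 (l1 - k1) * sg6 (l1 - l2)))
    (hS : (sd6 (l2 - k2) κ (sgZ σ2) = 1 ∧ δ = 0) ∨
      (sd6 (l2 - k2) κ (sgZ σ2) = -1 ∧ 0 < δ ∧ δ < 1)) :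
    ∃ c, ¬ LT T z u F σ1 m1 n1 k1 c ∧ ¬ LT T z u F σ2 m2 n2 k2 c ∧
      OccIn T (lp z u (m2 + dx k2 + dx l2) (n2 + dy k2 + dy l2))
        (Cel (nb6 u (lp z u (m2 + dx k2 + dx l2) (n2 + dy k2 + dy l2)))
          (lp z u (m2 + dx k2 + dx l2) (n2 + dy k2 + dy l2))
          (cis ((u + l2.val + κ * (3 / 2 + δ)) * (Real.pi / 3)))) c := by
  obtain ⟨a1, ha1⟩ := fin_add k1 l1
  obtain ⟨a2, ha2⟩ := fin_add k2 l2
  obtain ⟨a3, ha3⟩ := fin_add l2 l1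
  have e1 : pt (pt (lp z u m1 n1) (u + k1.val)) (u + k1.val + ((l1 - k1 : Fin 6).val : ℝ)) =
      lp z u (m2 + dx k2 + dx l2) (n2 + dy k2 + dy l2) := by
    rw [add_assoc, ha1, ← add_assoc, pt_int, lp_step, lp_step, hx, hy]
  have e2 : pt (pt (lp z u m2 n2) (u + k2.val)) (u + k2.val + ((l2 - k2 : Fin 6).val : ℝ)) =
      lp z u (m2 + dx k2 + dx l2) (n2 + dy k2 + dy l2) := by
    rw [add_assoc, ha2, ← add_assoc, pt_int, lp_step, lp_step]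
  have hP : ∃ᶠ s in 𝓝[>] (0 : ℝ), pt (lp z u m1 n1) (u + k1.val + sgZ σ1 * s) ∈
      Cr U (lp z u m1 n1) (lt (F σ1) T (lp z u m1 n1) (k1.val : ℝ)) := by
    have h1 := freq_of_fr hf σ1 ((Filter.Eventually.and (hf.lc σ1 (lp z u m1 n1) (k1.val : ℝ))
      (lt_spec (F σ1) T (lp z u m1 n1) (k1.val : ℝ))))
    refine h1.mono fun s hs => ?_
    have := cr_of_Lc hf.irr hs.1 hs.2
    rwa [show u + sgZ σ1 * s + (k1.val : ℝ) = u + k1.val + sgZ σ1 * s by ring] at this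
  have hQ : ∃ᶠ s in 𝓝[>] (0 : ℝ), pt (lp z u m2 n2) (u + k2.val + sgZ σ2 * s) ∈
      Cr U (lp z u m2 n2) (lt (F σ2) T (lp z u m2 n2) (k2.val : ℝ)) := by
    have h1 := freq_of_fr hf σ2 ((Filter.Eventually.and (hf.lc σ2 (lp z u m2 n2) (k2.val : ℝ))
      (lt_spec (F σ2) T (lp z u m2 n2) (k2.val : ℝ))))
    refine h1.mono fun s hs => ?_
    have := cr_of_Lc hf.irr hs.1 hs.2
    rwa [show u + sgZ σ2 * s + (k2.val : ℝ) = u + k2.val + sgZ σ2 * s by ring] at this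
  obtain ⟨c, h1, h2, h3⟩ := wedge2_slot hf.irr (w1 := lp z u m1 n1) (w2 := lp z u m2 n2)
    (t1 := u + k1.val) (t2 := u + k2.val) (j1 := l1 - k1) (j2 := l2 - k2) (e := l1 - l2)
    (n := a1 - a2 - a3) (ε1 := sgZ σ1) (ε2 := sgZ σ2) (κ := κ) (δ := δ) (sgZ_cases σ1)
    (sgZ_cases σ2) hκ hS (e1.trans e2.symm) (by push_cast; linarith) hP hQ hA
    (V := nb6 u (lp z u (m2 + dx k2 + dx l2) (n2 + dy k2 + dy l2))) (by
      intro v hv
      rw [e2]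
      unfold nb6 at hv
      obtain ⟨i, -, rfl⟩ := Finset.mem_image.1 hv
      obtain ⟨a4, ha4⟩ := fin_add l2 i
      refine ⟨(i - l2 : Fin 6).val, (i - l2 : Fin 6).isLt, ?_⟩
      have e3 : u + k2.val + ((l2 - k2 : Fin 6).val : ℝ) + ((i - l2 : Fin 6).val : ℝ) =
          u + i.val + 6 * ((a2 + a4 : ℤ) : ℝ) := by push_cast; linarith
      rw [e3, pt_int])
    (K := univ) isOpen_univ (Eventually.of_forall fun _ => mem_univ _)
  refine ⟨c, h1, h2, ?_⟩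
  rw [e2, inter_univ] at h3
  have e4 : cis ((u + k2.val + ((l2 - k2 : Fin 6).val : ℝ) + κ * (3 / 2 + δ)) * (Real.pi / 3)) =
      cis ((u + l2.val + κ * (3 / 2 + δ)) * (Real.pi / 3)) := by
    have h5 := pt_int 0 (u + l2.val + κ * (3 / 2 + δ)) a2
    unfold pt at h5
    rw [zero_add, zero_add] at h5
    rw [← h5]
    congr 2
    linarith
  rw [e4] at h3
  exact h3

/-- **palettes only** -/
theorem wedge2_TT (hf : Fr U T u F) (z : ℂ) (σ1 σ2 : Bool) {m1 n1 m2 n2 : ℤ}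
    {k1 l1 k2 l2 : Fin 6}
    (hx : m1 + dx k1 + dx l1 = m2 + dx k2 + dx l2) (hy : n1 + dy k1 + dy l1 = n2 + dy k2 + dy l2)
    (h1 : sg6 (l1 - k1) ≠ 0) (h2 : sg6 (l1 - l2) ≠ 0) :
    ∃ c, ¬ LT T z u F σ1 m1 n1 k1 c ∧ ¬ LT T z u F σ2 m2 n2 k2 c ∧
      TT T z u (m2 + dx k2 + dx l2) (n2 + dy k2 + dy l2) c := by
  have key : ∀ (σ1 σ2 : Bool) (k1 l1 k2 l2 : Fin 6), sg6 (l1 - k1) ≠ 0 → sg6 (l1 - l2) ≠ 0 →
      ∃ κ : Fin 2, 0 < sgZ σ1 * (2 * (κ.val : ℤ) - 1) * (sg6 (l1 - k1) * sg6 (l1 - l2)) ∧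
        (sd6 (l2 - k2) (2 * (κ.val : ℤ) - 1) (sgZ σ2) = 1 ∨
          sd6 (l2 - k2) (2 * (κ.val : ℤ) - 1) (sgZ σ2) = -1) := by
    decide
  obtain ⟨κ, hk1, hk2⟩ := key σ1 σ2 k1 l1 k2 l2 h1 h2
  have hκ : (2 * (κ.val : ℤ) - 1) = 1 ∨ (2 * (κ.val : ℤ) - 1) = -1 := by
    have : ∀ κ : Fin 2, (2 * (κ.val : ℤ) - 1) = 1 ∨ (2 * (κ.val : ℤ) - 1) = -1 := by decide
    exact this κ
  rcases hk2 with hk2 | hk2
  · obtain ⟨c, h3, h4, h5⟩ := wedge2_fr hf z (δ := 0) hκ hx hy hk1 (Or.inl ⟨hk2, rfl⟩)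
    exact ⟨c, h3, h4, h5.mem hf.irr⟩
  · obtain ⟨c, h3, h4, h5⟩ := wedge2_fr hf z (δ := 1 / 2) hκ hx hy hk1
      (Or.inr ⟨hk2, by norm_num, by norm_num⟩)
    exact ⟨c, h3, h4, h5.mem hf.irr⟩

/-- a cell direction towards or away from a neighbour gives the side at this neighbour -/
theorem side_of_occ (h : Irr U T) {p d : ℂ} {c i : Fin 6}
    (ho : OccIn T p (Cel (nb6 u p) p d) c) :
    (0 < ip d (pt p (u + i.val) - p) → InnN U (pt p (u + i.val)) p c) ∧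
    (ip d (pt p (u + i.val) - p) ≤ 0 → OutN U (pt p (u + i.val)) p c) := by
  have hi : pt p (u + i.val) ∈ nb6 u p := Finset.mem_image.2 ⟨i, Finset.mem_univ _, rfl⟩
  have h1 := ho.freq h
  exact ⟨fun hd => h1.mono fun w hw => ⟨hw.1, (hw.2 _ hi).1 hd⟩,
    fun hd => h1.mono fun w hw => ⟨hw.1, (hw.2 _ hi).2 hd⟩⟩

end Vale.Agent.P032.H908
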