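import Vale.Agent.P032.H158.XC
import Vale.Agent.P032.H782.Cel

/-!
# P032: presence and absence of the colours of a letter in the germ cells

`presence` : points `x` with the colour `c` on a branch of `S(w)` accumulate at `p`, and near every
point of the branch the points off `S(w)` are in the open sets `S` (inside) or `H` (outside): then
`c` occurs in `S` or in `H` near `p`.  `presence_in`, `presence_out` : the versions with a role.

`no_out_of_ray`, `no_inn_of_ray` : the roles from a ray of the colour at the centre.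

`absent_out`, `absent_inn` : a colour which covers the inner (outer) side of `S(z)` near `x` does not
occur near `z` outside (inside) the disc about `x`.
-/

open Set Filter Topology Metric

noncomputable section

namespace Vale.Agent.P032.H908

open Vale.Agent.P032.Six Vale.Agent.P032.H782 Vale.Agent.P032.H158

variable {k : ℕ} {U : Fin k → Set ℂ} {T : ℂ → Set (Fin k)}

/-- the points where a colour is alone form an open set -/
theorem isOpen_alone (h : Irr U T) (c : Fin k) : IsOpen {x | T x = {c}} := by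
  have e : {x | T x = {c}} = ⋂ i : Fin k, {x | i ∈ T x → i = c} := by
    ext x
    simp only [mem_setOf_eq, mem_iInter]
    constructor
    · intro hx i hi
      rw [hx] at hi
      exact hi
    · intro hx
      ext i
      constructor
      · exact fun hi => hx i hi
      · intro hi
        have hi : i = c := hi
        obtain ⟨j, hj⟩ := h.ne x
        rw [hi, ← hx j hj]
        exact hj
  rw [e]
  refine isOpen_iInter_of_finite fun i => ?_
  by_cases hi : i = c
  · have e2 : {x | i ∈ T x → i = c} = univ := by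
      ext x
      simp [hi]
    rw [e2]
    exact isOpen_univ
  · have e2 : {x | i ∈ T x → i = c} = {x | i ∈ T x}ᶜ := by
      ext x
      simp [hi]
    rw [e2]
    exact (h.closed i).isOpen_compl

/-- near a point with the colour `c` there are points with `c` alone off any unit circle -/
theorem exists_alone (h : Irr U T) {x : ℂ} {c : Fin k} (hx : c ∈ T x) (w : ℂ) {s : Set ℂ}
    (hs : s ∈ 𝓝 x) : ∃ q ∈ s, T q = {c} ∧ dist q w ≠ 1 := by
  have hcl : x ∈ closure {y | T y = {c}} := mem_closure_iff_frequently.2 (h.pure x c hx)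
  obtain ⟨g, ⟨h1, h2⟩, h3⟩ := exists_off (isOpen_alone h c) (z := w) hcl hs
  exact ⟨g, h2, h1, h3⟩

/-- **Presence.** -/
theorem presence (h : Irr U T) {w p : ℂ} {c : Fin k} {N S H : Set ℂ}
    (hf : ∃ᶠ x in 𝓝 p, c ∈ T x ∧ x ∈ N)
    (hcov : ∀ᶠ x in 𝓝 p, x ∈ N → ∀ᶠ q in 𝓝 x, dist q w ≠ 1 → q ∈ S ∨ q ∈ H) :
    OccIn T p S c ∨ OccIn T p H c := by
  unfold OccIn
  rw [← frequently_or_distrib, frequently_iff]
  intro M hM
  obtain ⟨M', hM'M, hM'o, hM'⟩ := _root_.mem_nhds_iff.1 hM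
  obtain ⟨x, ⟨⟨h1, h2⟩, h3⟩, h4⟩ :=
    ((hf.and_eventually hcov).and_eventually (hM'o.mem_nhds hM')).exists
  obtain ⟨q, ⟨h5, h6⟩, h7, h8⟩ := exists_alone h h1 w (Filter.inter_mem (h3 h2) (hM'o.mem_nhds h4))
  refine ⟨q, hM'M h6, ?_⟩
  rcases h5 h8 with h9 | h9
  · exact Or.inl ⟨h7, h9⟩
  · exact Or.inr ⟨h7, h9⟩

/-- a colour which is not outside near `x` is alone only inside, near `x` -/
theorem inn_of_not_out (h : Irr U T) {w x : ℂ} {c : Fin k} (ho : ¬ OutN U w x c) :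
    ∀ᶠ q in 𝓝 x, c ∈ T q → dist q w ≤ 1 := by
  by_contra hcon
  rw [not_eventually] at hcon
  refine ho (outN_of h (hcon.mono fun q hq => ?_))
  push Not at hq
  exact hq

theorem out_of_not_inn (h : Irr U T) {w x : ℂ} {c : Fin k} (ho : ¬ InnN U w x c) :
    ∀ᶠ q in 𝓝 x, c ∈ T q → 1 ≤ dist q w := by
  by_contra hcon
  rw [not_eventually] at hcon
  refine ho (innN_of h (hcon.mono fun q hq => ?_))
  push Not at hq
  exact hq

/-- **Presence of an inner colour**: `c` is not outside `S(w)` near the points `x`. -/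
theorem presence_in (h : Irr U T) {w p : ℂ} {c : Fin k} {N S : Set ℂ}
    (hf : ∃ᶠ x in 𝓝 p, c ∈ T x ∧ x ∈ N ∧ ¬ OutN U w x c)
    (hcov : ∀ᶠ x in 𝓝 p, x ∈ N → ∀ᶠ q in 𝓝 x, dist q w < 1 → q ∈ S) : OccIn T p S c := by
  unfold OccIn
  rw [frequently_iff]
  intro M hM
  obtain ⟨M', hM'M, hM'o, hM'⟩ := _root_.mem_nhds_iff.1 hM
  obtain ⟨x, ⟨⟨h1, h2, h3⟩, h4⟩, h5⟩ :=
    ((hf.and_eventually hcov).and_eventually (hM'o.mem_nhds hM')).exists
  obtain ⟨q, ⟨⟨h6, h7⟩, h8⟩, h9, h10⟩ := exists_alone h h1 w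
    (Filter.inter_mem (Filter.inter_mem (h4 h2) (inn_of_not_out h h3)) (hM'o.mem_nhds h5))
  refine ⟨q, hM'M h8, h9, h6 (lt_of_le_of_ne (h7 ?_) h10)⟩
  rw [h9]
  rfl

/-- **Presence of an outer colour**: `c` is not inside `S(w)` near the points `x`. -/
theorem presence_out (h : Irr U T) {w p : ℂ} {c : Fin k} {N H : Set ℂ}
    (hf : ∃ᶠ x in 𝓝 p, c ∈ T x ∧ x ∈ N ∧ ¬ InnN U w x c)
    (hcov : ∀ᶠ x in 𝓝 p, x ∈ N → ∀ᶠ q in 𝓝 x, 1 < dist q w → q ∈ H) : OccIn T p H c := by
  unfold OccIn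
  rw [frequently_iff]
  intro M hM
  obtain ⟨M', hM'M, hM'o, hM'⟩ := _root_.mem_nhds_iff.1 hM
  obtain ⟨x, ⟨⟨h1, h2, h3⟩, h4⟩, h5⟩ :=
    ((hf.and_eventually hcov).and_eventually (hM'o.mem_nhds hM')).exists
  obtain ⟨q, ⟨⟨h6, h7⟩, h8⟩, h9, h10⟩ := exists_alone h h1 w
    (Filter.inter_mem (Filter.inter_mem (h4 h2) (out_of_not_inn h h3)) (hM'o.mem_nhds h5))
  refine ⟨q, hM'M h8, h9, h6 (lt_of_le_of_ne (h7 ?_) h10.symm)⟩
  rw [h9]
  rfl

/-! ### roles -/

/-- a colour with a ray towards `x` is not outside near `x` -/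
theorem no_out_of_ray (h : Mx U) {z x m : ℂ} {i : Fin k} (hm : Ray (U i) z m) (hx : dist x z = 1)
    (hp : 0 < ip m (x - z)) : ¬ OutN U z x i :=
  fun ho => absurd hp (not_lt.2 (ho.ray h hx hm))

/-- a colour with a ray away from `x` is not inside near `x` -/
theorem no_inn_of_ray (h : Mx U) {z x m : ℂ} {i : Fin k} (hm : Ray (U i) z m) (hx : dist x z = 1)
    (hp : ip m (x - z) < 0) : ¬ InnN U z x i :=
  fun ho => absurd hp (not_lt.2 (ho.ray h hx hm))

/-- with an exact letter `{a, b}`, `b` not inside: only `a` is inside near `x` -/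
theorem alone_inn (h : Irr U T) {z x : ℂ} {a b : Fin k} (hT : ∀ᶠ q in 𝓝 x, T q ⊆ {a, b})
    (hb : ¬ InnN U z x b) : ∀ᶠ q in 𝓝 x, dist q z < 1 → T q = {a} := by
  filter_upwards [hT, out_of_not_inn h hb] with q h1 h2 h3
  have h4 : b ∉ T q := fun h5 => absurd (h2 h5) (not_le.2 h3)
  have h5 : T q ⊆ {a} := fun i hi => by
    rcases h1 hi with h6 | h6
    · exact h6
    · have h6 : i = b := h6
      rw [h6] at hi
      exact absurd hi h4
  exact ((Set.subset_singleton_iff_eq).1 h5).resolve_left (h.ne q).ne_empty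

/-- with an exact letter `{a, b}`, `a` not outside: only `b` is outside near `x` -/
theorem alone_out (h : Irr U T) {z x : ℂ} {a b : Fin k} (hT : ∀ᶠ q in 𝓝 x, T q ⊆ {a, b})
    (ha : ¬ OutN U z x a) : ∀ᶠ q in 𝓝 x, 1 < dist q z → T q = {b} := by
  filter_upwards [hT, inn_of_not_out h ha] with q h1 h2 h3
  have h4 : a ∉ T q := fun h5 => absurd (h2 h5) (not_le.2 h3)
  have h5 : T q ⊆ {b} := fun i hi => by
    rcases h1 hi with h6 | h6
    · have h6 : i = a := h6
      rw [h6] at hi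
      exact absurd hi h4
    · exact h6
  exact ((Set.subset_singleton_iff_eq).1 h5).resolve_left (h.ne q).ne_empty

/-! ### absence -/

theorem seg_dist {x z : ℂ} (hx : dist x z = 1) {s : ℝ} (hs : s ≤ 1) :
    dist (x + s * (z - x)) z = 1 - s := by
  have e : x + s * (z - x) - z = ((1 - s : ℝ) : ℂ) * (x - z) := by push_cast; ring
  rw [dist_eq_norm, e, norm_mul, ← dist_eq_norm, hx, mul_one, Complex.norm_real,
    Real.norm_of_nonneg (by linarith)]

/-- **Absence outside.**  Near `x ∈ S(z)` the points inside `S(z)` have the colour `a`: then `a` does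
not occur near `z` outside the disc about `x`. -/
theorem absent_out (h : Mx U) {z x : ℂ} {a : Fin k} (hx : dist x z = 1)
    (ha : ∀ᶠ q in 𝓝 x, dist q z < 1 → a ∈ Pal U q) : ¬ OutN U x z a := by
  intro ho
  have hc : Continuous fun s : ℝ => x + (s : ℂ) * (z - x) := by fun_prop
  have h2 : Tendsto (fun s : ℝ => x + (s : ℂ) * (z - x)) (𝓝[>] (0 : ℝ)) (𝓝 x) := by
    have h4 := hc.tendsto 0
    simp only [Complex.ofReal_zero, zero_mul, add_zero] at h4
    exact h4.mono_left nhdsWithin_le_nhds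
  obtain ⟨δ, hδ, h3⟩ := mem_nhdsGT_iff_exists_Ioo_subset.1 (h2.eventually ha)
  have hδ0 : (0 : ℝ) < δ := hδ
  set s0 : ℝ := min δ 1 / 2 with hs0
  have hm0 : 0 < min δ 1 := lt_min hδ0 one_pos
  have hs0p : 0 < s0 := by rw [hs0]; linarith
  have hs0d : s0 < δ := by have := min_le_left δ 1; rw [hs0]; linarith
  have hs01 : s0 < 1 := by have := min_le_right δ 1; rw [hs0]; linarith
  have h4 : ∀ᶠ q in 𝓝 z, dist (x + s0 * (z - x)) q < 1 := by
    have h5 : Continuous fun q : ℂ => dist (x + s0 * (z - x)) q := by fun_prop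
    refine (h5.tendsto z).eventually (Iio_mem_nhds ?_)
    rw [seg_dist hx hs01.le]
    linarith
  obtain ⟨q, ⟨h5, h6⟩, h7⟩ := (Filter.Frequently.and_eventually ho h4).exists
  have hf : Continuous fun s : ℝ => dist (x + s * (z - x)) q := by fun_prop
  have hf0 : 1 < dist (x + ((0 : ℝ) : ℂ) * (z - x)) q := by
    simpa [dist_comm] using h6
  obtain ⟨s, ⟨hs1, hs2⟩, hs3⟩ := intermediate_value_Icc' hs0p.le hf.continuousOn
    (show (1 : ℝ) ∈ Icc _ _ from ⟨h7.le, hf0.le⟩)
  have hs3 : dist (x + s * (z - x)) q = 1 := hs3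
  have hsp : 0 < s := by
    rcases hs1.eq_or_lt with h9 | h9
    · rw [← h9] at hs3
      rw [hs3] at hf0
      exact absurd hf0 (lt_irrefl _)
    · exact h9
  have h8 : a ∈ Pal U (x + s * (z - x)) := by
    refine h3 ⟨hsp, lt_of_le_of_lt hs2 hs0d⟩ ?_
    rw [seg_dist hx (by linarith)]
    linarith
  exact h.notMem h8 (by rw [dist_comm]; exact hs3) h5

/-- **Absence inside.**  Near `x ∈ S(z)` the points outside `S(z)` have the colour `b`: then `b` does
not occur near `z` inside the disc about `x`. -/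
theorem absent_inn (h : Mx U) {z x : ℂ} {b : Fin k} (hx : dist x z = 1)
    (hb : ∀ᶠ q in 𝓝 x, 1 < dist q z → b ∈ Pal U q) : ¬ InnN U x z b := by
  intro ho
  have hc : Continuous fun s : ℝ => x + ((-s : ℝ) : ℂ) * (z - x) := by fun_prop
  have h2 : Tendsto (fun s : ℝ => x + ((-s : ℝ) : ℂ) * (z - x)) (𝓝[>] (0 : ℝ)) (𝓝 x) := by
    have h4 := hc.tendsto 0
    simp only [neg_zero, Complex.ofReal_zero, zero_mul, add_zero] at h4
    exact h4.mono_left nhdsWithin_le_nhds
  obtain ⟨δ, hδ, h3⟩ := mem_nhdsGT_iff_exists_Ioo_subset.1 (h2.eventually hb)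
  have hδ0 : (0 : ℝ) < δ := hδ
  set s0 : ℝ := δ / 2 with hs0
  have hs0p : 0 < s0 := by rw [hs0]; linarith
  have hs0d : s0 < δ := by rw [hs0]; linarith
  have h4 : ∀ᶠ q in 𝓝 z, 1 < dist (x + ((-s0 : ℝ) : ℂ) * (z - x)) q := by
    have h5 : Continuous fun q : ℂ => dist (x + ((-s0 : ℝ) : ℂ) * (z - x)) q := by fun_prop
    refine (h5.tendsto z).eventually (Ioi_mem_nhds ?_)
    rw [seg_dist hx (by linarith)]
    linarith
  obtain ⟨q, ⟨h5, h6⟩, h7⟩ := (Filter.Frequently.and_eventually ho h4).exists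
  have hf : Continuous fun s : ℝ => dist (x + ((-s : ℝ) : ℂ) * (z - x)) q := by fun_prop
  have hf0 : dist (x + ((-0 : ℝ) : ℂ) * (z - x)) q < 1 := by
    simpa [dist_comm] using h6
  obtain ⟨s, ⟨hs1, hs2⟩, hs3⟩ := intermediate_value_Icc hs0p.le hf.continuousOn
    (show (1 : ℝ) ∈ Icc _ _ from ⟨hf0.le, h7.le⟩)
  have hs3 : dist (x + ((-s : ℝ) : ℂ) * (z - x)) q = 1 := hs3
  have hsp : 0 < s := by
    rcases hs1.eq_or_lt with h9 | h9
    · rw [← h9] at hs3
      rw [hs3] at hf0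
      exact absurd hf0 (lt_irrefl _)
    · exact h9
  have h8 : b ∈ Pal U (x + ((-s : ℝ) : ℂ) * (z - x)) := by
    refine h3 ⟨hsp, lt_of_le_of_lt hs2 hs0d⟩ ?_
    rw [seg_dist hx (by linarith)]
    linarith
  exact h.notMem h8 (by rw [dist_comm]; exact hs3) h5

/-- **Absence in a cell, outer side.** -/
theorem absent_cell_out (h : Irr U T) {z x : ℂ} {a : Fin k} {C : Set ℂ} (hx : dist x z = 1)
    (ha : ∀ᶠ q in 𝓝 x, dist q z < 1 → T q = {a}) (hC : ∀ᶠ q in 𝓝 z, q ∈ C → 1 < dist q x) :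
    ¬ OccIn T z C a := by
  intro ho
  have h1 : ∀ᶠ q in 𝓝 x, dist q z < 1 → a ∈ Pal U q := ha.mono fun q hq hd => h.sub q (by
    rw [hq hd]
    rfl)
  have h2 := ho.freq h
  exact absent_out h.mx hx h1
    ((h2.and_eventually hC).mono fun q hq => ⟨hq.1.1, hq.2 hq.1.2⟩)

/-- **Absence in a cell, inner side.** -/
theorem absent_cell_inn (h : Irr U T) {z x : ℂ} {b : Fin k} {C : Set ℂ} (hx : dist x z = 1)
    (hb : ∀ᶠ q in 𝓝 x, 1 < dist q z → T q = {b}) (hC : ∀ᶠ q in 𝓝 z, q ∈ C → dist q x < 1) :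
    ¬ OccIn T z C b := by
  intro ho
  have h1 : ∀ᶠ q in 𝓝 x, 1 < dist q z → b ∈ Pal U q := hb.mono fun q hq hd => h.sub q (by
    rw [hq hd]
    rfl)
  have h2 := ho.freq h
  exact absent_inn h.mx hx h1
    ((h2.and_eventually hC).mono fun q hq => ⟨hq.1.1, hq.2 hq.1.2⟩)

end Vale.Agent.P032.H908
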