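import Vale.Agent.P032.H908.Blocks
import Vale.Agent.P032.H617.WR
import Vale.Agent.P032.H326.ConsecLt

/-!
# P032: the rules at a 5-centre for any number of times

Names: the colours of the centre are `0, .., 4` (`Fin.castSucc`), the other colour is `5`.
`frK K c k σ x` : the direction with the position `x` (below `12 K`) is strictly in front of the slot
`(c, k)` just before (`σ = false`), just after (`σ = true`) the time of the class `c`.
`P5K` : palettes at the centre, letters of its circle, sides of its colours, the positions `pa m`,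
`pb m` of the ten rays of `Blk5`.  `SideK` : the side rules without directions, all colours.
`p5k_of` : the instance for a frame `FrK` at a 5-centre with the ten rays.
-/

open Set Filter Topology Metric

noncomputable section

namespace Vale.Agent.P032.H908

open Vale.Agent.P032.Six Vale.Agent.P032.Sweep Vale.Agent.P032.S5.H767 Vale.Agent.P032.S5.H122
  Vale.Agent.P032.H158 Vale.Agent.P032.H326 Vale.Agent.P032.H266 Vale.Agent.P032.H437
  Vale.Agent.P032.H605 Vale.Agent.P032.H617 Vale.Agent.P032.H429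

/-! ### Separation by exact letters, all contact directions at once -/

section sep

variable {k : ℕ} {U : Fin k → Set ℂ} {T : ℂ → Set (Fin k)} {z : ℂ} {c : Fin 5 → Fin k}

/-- the contact directions of `j + 4`, `j` and of `j + 1`, `j + 2` are separated by a point with the
palette `{c j, c (j + 2)}` -/
theorem sep_cd (P : P5 T z c) (h : Irr U T)
    (hmin : ∀ z, 4 ≤ (T z).ncard → ∀ s, s ⊆ T z → s ≠ T z →
      ¬ ∀ᶠ w in 𝓝 z, ∃ i ∈ s, w ∈ U i ∨ (w ∈ XX U ∧ i ∈ Pal U w)) {q : ℂ} {j : Fin 5}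
    (hq : dist q z = 1) (hT : T q = {c j, c (j + 2)}) : ∃ s : ℝ, (s = 1 ∨ s = -1) ∧
      (∀ x, x ∈ CD T z c (j + 4) ∨ x ∈ CD T z c j → 0 < s * ip (cis (x * (Real.pi / 3))) (q - z)) ∧
      ∀ x, x ∈ CD T z c (j + 1) ∨ x ∈ CD T z c (j + 2) →
        s * ip (cis (x * (Real.pi / 3))) (q - z) < 0 := by
  obtain ⟨s, hs, ε, hε, hw⟩ := P.strict h hmin hq hT
  have key1 : ∀ i x, x ∈ CD T z c i → (∀ w, c i ∈ T w ∧ c (i + 1) ∈ T w → c j ∈ T w) →
      0 < s * ip (cis (x * (Real.pi / 3))) (q - z) := by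
    intro i x hx hi
    refine lt_of_lt_of_le hε (cd_acc hx _ s ε ?_)
    filter_upwards [hw] with w h1 h2
    exact h1.1 (hi w h2)
  have key2 : ∀ i x, x ∈ CD T z c i → (∀ w, c i ∈ T w ∧ c (i + 1) ∈ T w → c (j + 2) ∈ T w) →
      s * ip (cis (x * (Real.pi / 3))) (q - z) < 0 := by
    intro i x hx hi
    have h1 : ε ≤ (-s) * ip (cis (x * (Real.pi / 3))) (q - z) := by
      refine cd_acc hx _ (-s) ε ?_
      filter_upwards [hw] with w h1 h2
      have := h1.2 (hi w h2)
      linarith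
    linarith
  refine ⟨s, hs, fun x hx => ?_, fun x hx => ?_⟩
  · rcases hx with hx | hx
    · refine key1 _ x hx fun w hw' => ?_
      have := hw'.2
      rwa [f41_326] at this
    · exact key1 _ x hx fun w hw' => hw'.1
  · rcases hx with hx | hx
    · refine key2 _ x hx fun w hw' => ?_
      have := hw'.2
      rwa [f11_326] at this
    · exact key2 _ x hx fun w hw' => hw'.1

/-- the same for an exact arc `{c j, c (j + 1), c (j + 3)}` -/
theorem trip_cd (P : P5 T z c) (h : Irr U T)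
    (hmin : ∀ z, 4 ≤ (T z).ncard → ∀ s, s ⊆ T z → s ≠ T z →
      ¬ ∀ᶠ w in 𝓝 z, ∃ i ∈ s, w ∈ U i ∨ (w ∈ XX U ∧ i ∈ Pal U w)) (j : Fin 5) {q : ℂ}
    (hg : Arc T z q {c j, c (j + 1), c (j + 3)}) : ∃ s : ℝ, (s = 1 ∨ s = -1) ∧
      (∀ x, x ∈ CD T z c (j + 2) ∨ x ∈ CD T z c (j + 3) →
        0 < s * ip (cis (x * (Real.pi / 3))) (q - z)) ∧
      ∀ x, x ∈ CD T z c j → s * ip (cis (x * (Real.pi / 3))) (q - z) < 0 := by
  obtain ⟨θ, hθ⟩ := exists_cis (u := q - z) (by rw [← dist_eq_norm]; exact hg.1)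
  have e : q = z + cis θ := by rw [← hθ]; ring
  rw [e] at hg
  rw [hθ]
  have key : ∀ s : ℝ, (∃ ε > 0, ∀ᶠ w in 𝓝 z, c (j + 3) ∈ Pal U w →
      ε * ‖w - z‖ ≤ s * ip (w - z) (cis θ)) →
      (∃ ε > 0, ∀ᶠ w in 𝓝 z, c j ∈ T w ∧ c (j + 1) ∈ T w →
        ε * ‖w - z‖ ≤ -s * ip (w - z) (cis θ)) →
      (∀ x, x ∈ CD T z c (j + 2) ∨ x ∈ CD T z c (j + 3) →
        0 < s * ip (cis (x * (Real.pi / 3))) (cis θ)) ∧
      ∀ x, x ∈ CD T z c j → s * ip (cis (x * (Real.pi / 3))) (cis θ) < 0 := by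
    rintro s ⟨ε, hε, hw⟩ ⟨ε', hε', hw'⟩
    refine ⟨fun x hx => ?_, fun x hx => ?_⟩
    · rcases hx with hx | hx
      · refine lt_of_lt_of_le hε (cd_acc hx (cis θ) s ε ?_)
        filter_upwards [hw] with w h1 h2
        rw [dist_eq_norm]
        refine h1 (h.sub w ?_)
        have := h2.2
        rwa [f21_326] at this
      · refine lt_of_lt_of_le hε (cd_acc hx (cis θ) s ε ?_)
        filter_upwards [hw] with w h1 h2
        rw [dist_eq_norm]
        exact h1 (h.sub w h2.1)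
    · have h1 := cd_acc hx (cis θ) (-s) ε' (by
        filter_upwards [hw'] with w h1 h2
        rw [dist_eq_norm]; exact h1 h2)
      linarith
  rcases P.trip_sides h hmin j hg with ⟨h1, h2⟩ | ⟨h1, h2⟩
  · obtain ⟨ε, hε, hw⟩ := h.innC_side h1
    obtain ⟨ε', hε', hw'⟩ := P.contact_out h hmin j h2
    refine ⟨1, Or.inl rfl, key 1 ⟨ε, hε, ?_⟩ ⟨ε', hε', hw'⟩⟩
    filter_upwards [hw] with w h3 h4
    rw [one_mul]; exact h3 h4
  · obtain ⟨ε, hε, hw⟩ := h.outC_side h1
    obtain ⟨ε', hε', hw'⟩ := P.contact_inn h hmin j h2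
    refine ⟨-1, Or.inr rfl, key (-1) ⟨ε, hε, ?_⟩ ⟨ε', hε', ?_⟩⟩
    · filter_upwards [hw] with w h3 h4
      have := h3 h4
      rw [ip_neg_right326] at this
      linarith
    · filter_upwards [hw'] with w h3 h4
      have := h3 h4
      linarith

end sep

/-! ### Positions in front and behind -/

/-- the direction with the position `x` is in front of the slot `(c, k)` before (after) the time -/
def frK (K c k : ℕ) (σ : Bool) (x : ℕ) : Bool :=
  bif σ then decide (0 < offK K c k x ∧ offK K c k x ≤ 6 * K) else decide (offK K c k x < 6 * K)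

section pos

variable {U : Fin 6 → Set ℂ} {T : ℂ → Set (Fin 6)} {K : ℕ} {uu : Fin K → ℝ}
  {FF : Fin K → Bool → Ultrafilter ℝ} {z : ℂ} {x : ℝ} {c : Fin K} {k : Fin 6} {σ : Bool}

theorem fr_front (h : FrK U T uu FF) (hx : ∀ᶠ v in (FF c σ : Filter ℝ),
    0 ≤ Real.cos ((x - (v + (k.val : ℝ))) * (Real.pi / 3))) :
    frK K c.val k.val σ (posN uu x) = true := by
  cases σ
  · obtain ⟨n, h1, h2⟩ := half_left (a := (k.val : ℝ) - 3 / 2) (x := x) (h.fr c).left (by
      filter_upwards [hx] with v hv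
      obtain ⟨n, h1, h2⟩ := front_of_cos hv
      exact ⟨n, by linarith, by linarith⟩)
    exact decide_eq_true (at_front_left (X := fun _ => x) (i := 0) h.mono h.lt1
      ⟨n, by linarith, by linarith⟩)
  · obtain ⟨n, h1, h2⟩ := half_right (a := (k.val : ℝ) - 3 / 2) (x := x) (h.fr c).right (by
      filter_upwards [hx] with v hv
      obtain ⟨n, h1, h2⟩ := front_of_cos hv
      exact ⟨n, by linarith, by linarith⟩)
    exact decide_eq_true (at_front_right (X := fun _ => x) (i := 0) h.mono h.lt1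
      ⟨n, by linarith, by linarith⟩)

theorem fr_back (h : FrK U T uu FF) (hx : ∀ᶠ v in (FF c σ : Filter ℝ),
    Real.cos ((x - (v + (k.val : ℝ))) * (Real.pi / 3)) ≤ 0) :
    frK K c.val k.val σ (posN uu x) = false := by
  cases σ
  · obtain ⟨n, h1, h2⟩ := half_left (a := (k.val : ℝ) + 3 / 2) (x := x) (h.fr c).left (by
      filter_upwards [hx] with v hv
      obtain ⟨n, h1, h2⟩ := back_of_cos hv
      exact ⟨n, by linarith, by linarith⟩)
    have h3 : 6 * K ≤ offK K c.val k.val (posN uu x) :=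
      at_back_left (X := fun _ => x) (i := 0) h.mono h.lt1 ⟨n, by linarith, by linarith⟩
    exact decide_eq_false (by omega)
  · obtain ⟨n, h1, h2⟩ := half_right (a := (k.val : ℝ) + 3 / 2) (x := x) (h.fr c).right (by
      filter_upwards [hx] with v hv
      obtain ⟨n, h1, h2⟩ := back_of_cos hv
      exact ⟨n, by linarith, by linarith⟩)
    have h3 : offK K c.val k.val (posN uu x) = 0 ∨ 6 * K < offK K c.val k.val (posN uu x) :=
      at_back_right (X := fun _ => x) (i := 0) h.mono h.lt1 ⟨n, by linarith, by linarith⟩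
    exact decide_eq_false (by omega)

theorem ip_pt908 (z : ℂ) (x w : ℝ) :
    ip (cis (x * (Real.pi / 3))) (pt z w - z) = Real.cos ((x - w) * (Real.pi / 3)) := by
  have : pt z w - z = cis (w * (Real.pi / 3)) := by unfold pt; ring
  rw [this, ip_cis429]
  congr 1; ring

/-- the signs of finitely many directions at the times of the ultrafilter -/
theorem fr_sign (h : FrK U T uu FF) {A B : Set ℝ} (hv : ∀ᶠ v in (FF c σ : Filter ℝ),
    ∃ s : ℝ, (s = 1 ∨ s = -1) ∧
      (∀ x ∈ A, 0 < s * ip (cis (x * (Real.pi / 3))) (pt z (v + (k.val : ℝ)) - z)) ∧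
      ∀ x ∈ B, s * ip (cis (x * (Real.pi / 3))) (pt z (v + (k.val : ℝ)) - z) < 0) :
    ∃ s : Bool, (∀ x ∈ A, frK K c.val k.val σ (posN uu x) = s) ∧
      ∀ x ∈ B, frK K c.val k.val σ (posN uu x) = !s := by
  have h1 : ∀ᶠ v in (FF c σ : Filter ℝ),
      ((∀ x ∈ A, 0 < Real.cos ((x - (v + (k.val : ℝ))) * (Real.pi / 3))) ∧
        ∀ x ∈ B, Real.cos ((x - (v + (k.val : ℝ))) * (Real.pi / 3)) < 0) ∨
      ((∀ x ∈ A, Real.cos ((x - (v + (k.val : ℝ))) * (Real.pi / 3)) < 0) ∧
        ∀ x ∈ B, 0 < Real.cos ((x - (v + (k.val : ℝ))) * (Real.pi / 3))) := by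
    filter_upwards [hv] with v hv
    obtain ⟨s, hs, h1, h2⟩ := hv
    simp only [ip_pt908] at h1 h2
    rcases hs with rfl | rfl
    · left
      exact ⟨fun x hx => by have := h1 x hx; linarith, fun x hx => by have := h2 x hx; linarith⟩
    · right
      exact ⟨fun x hx => by have := h1 x hx; linarith, fun x hx => by have := h2 x hx; linarith⟩
  rcases Ultrafilter.eventually_or.1 h1 with h2 | h2
  · exact ⟨true, fun x hx => fr_front h (h2.mono fun v hv => (hv.1 x hx).le),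
      fun x hx => fr_back h (h2.mono fun v hv => (hv.2 x hx).le)⟩
  · exact ⟨false, fun x hx => fr_back h (h2.mono fun v hv => (hv.1 x hx).le),
      fun x hx => fr_front h (h2.mono fun v hv => (hv.2 x hx).le)⟩

end pos

/-! ### The rules -/

/-- the side rules without directions -/
structure SideK {K : ℕ} (TT : QK K → Fin 6 → Prop)
    (LT IN OUT : Fin K → Bool → QK K → Fin 6 → Fin 6 → Prop)
    (IC OC : Fin K → Fin 6 → Fin 6 → Prop) : Prop where
  ty : ∀ {c k i}, TT (stK c (q0 K) k) i → IC c k i ∨ OC c k i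
  inz : ∀ {c σ k i}, IN c σ (q0 K) k i → IC c k i
  outz : ∀ {c σ k i}, OUT c σ (q0 K) k i → OC c k i
  ltO : ∀ {c' c : Fin K} {σ : Bool} {q : QK K} {m k i : Fin 6}, stK c' q m = stK c (q0 K) k →
    (c' = c → k ≠ m ∧ k ≠ m + 3) → sxK c' c (k - m) = σ → LT c' σ q m i → OC c k i
  ltI : ∀ {c' c : Fin K} {σ : Bool} {q : QK K} {m k i : Fin 6}, stK c' q m = stK c (q0 K) k →
    (c' = c → k ≠ m ∧ k ≠ m + 3) → sxK c' c (k - m) ≠ σ → LT c' σ q m i → IC c k i
  opp : ∀ {c : Fin K} {σ : Bool} {q : QK K} {m k i : Fin 6}, stK c q m = stK c (q0 K) k →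
    k = m + 3 → LT c σ q m i → OC c k i

/-- **the rules at a 5-centre** in names; `pa`, `pb` the positions of the ten rays -/
structure P5K {K : ℕ} (TT : QK K → Fin 6 → Prop)
    (LT IN OUT : Fin K → Bool → QK K → Fin 6 → Fin 6 → Prop) (MM : QK K → Fin 6 → Fin 6 → Prop)
    (IC OC : Fin K → Fin 6 → Fin 6 → Prop) (pa pb : Fin 5 → ℕ) : Prop where
  tz : ∀ i : Fin 6, TT (q0 K) i ↔ i ≠ 5
  /-- neighbouring colours are not an exact pair -/
  noadj : ∀ i : Fin 5, ¬ MM (q0 K) i.castSucc (i + 1).castSucc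
  /-- the letters without the colour 5 -/
  lett : ∀ c σ k, LT c σ (q0 K) k 5 ∨ ∃ l : Fin 16, l ≠ 5 ∧ l.val < 11 ∧
    ∀ x, LT c σ (q0 K) k x ↔ x ∈ K5 l
  /-- a colour of the centre is on one side of a slot -/
  io : ∀ c σ k (i : Fin 5), IN c σ (q0 K) k i.castSucc → ¬ OUT c σ (q0 K) k i.castSucc
  lt12 : 0 < K → ∀ m, pa m < 12 * K ∧ pb m < 12 * K
  /-- exact diagonals -/
  pair : ∀ (c : Fin K) (σ : Bool) (k : Fin 6) (i : Fin 5),
    (∀ x, LT c σ (q0 K) k x ↔ x = i.castSucc ∨ x = (i + 2).castSucc) → ∃ s : Bool,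
      (frK K c.val k.val σ (pa (i + 4)) = s ∧ frK K c.val k.val σ (pb (i + 4)) = s ∧
        frK K c.val k.val σ (pa i) = s ∧ frK K c.val k.val σ (pb i) = s) ∧
      frK K c.val k.val σ (pa (i + 1)) = (!s) ∧ frK K c.val k.val σ (pb (i + 1)) = (!s) ∧
        frK K c.val k.val σ (pa (i + 2)) = (!s) ∧ frK K c.val k.val σ (pb (i + 2)) = !s
  /-- exact triples -/
  trip : ∀ (c : Fin K) (σ : Bool) (k : Fin 6) (i : Fin 5),
    (∀ x, LT c σ (q0 K) k x ↔ x = i.castSucc ∨ x = (i + 1).castSucc ∨ x = (i + 3).castSucc) →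
      ∃ s : Bool, (frK K c.val k.val σ (pa (i + 2)) = s ∧ frK K c.val k.val σ (pb (i + 2)) = s ∧
        frK K c.val k.val σ (pa (i + 3)) = s ∧ frK K c.val k.val σ (pb (i + 3)) = s) ∧
      frK K c.val k.val σ (pa i) = (!s) ∧ frK K c.val k.val σ (pb i) = !s
  /-- the window of the colour `i` has the ends `pb (i + 4)`, `pa i` -/
  atIC : ∀ {c : Fin K} {k : Fin 6} {i : Fin 5}, IC c k i.castSucc →
    offK K c.val k.val (pb (i + 4)) ≤ 6 * K ∧ offK K c.val k.val (pa i) ≤ 6 * K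
  atOC : ∀ {c : Fin K} {k : Fin 6} {i : Fin 5}, OC c k i.castSucc →
    (offK K c.val k.val (pb (i + 4)) = 0 ∨ 6 * K ≤ offK K c.val k.val (pb (i + 4))) ∧
      (offK K c.val k.val (pa i) = 0 ∨ 6 * K ≤ offK K c.val k.val (pa i))
  atI : ∀ {c : Fin K} {σ : Bool} {k : Fin 6} {i : Fin 5}, IN c σ (q0 K) k i.castSucc →
    frK K c.val k.val σ (pb (i + 4)) = true ∧ frK K c.val k.val σ (pa i) = true
  atO : ∀ {c : Fin K} {σ : Bool} {k : Fin 6} {i : Fin 5}, OUT c σ (q0 K) k i.castSucc →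
    frK K c.val k.val σ (pb (i + 4)) = false ∧ frK K c.val k.val σ (pa i) = false
  /-- the cyclic order: offsets from `pa 0` -/
  offs : ∃ da db : Fin 5 → ℕ, da 0 = 0 ∧ (∀ m, pa m = (pa 0 + da m) % (12 * K) ∧
    pb m = (pa 0 + db m) % (12 * K)) ∧ (∀ m, da m ≤ db m) ∧
      (db 0 ≤ da 1 ∧ db 1 ≤ da 2 ∧ db 2 ≤ da 3 ∧ db 3 ≤ da 4 ∧ db 4 ≤ 12 * K) ∧
      (db 1 ≤ da 0 + 6 * K ∧ db 2 ≤ da 1 + 6 * K ∧ db 3 ≤ da 2 + 6 * K ∧ db 4 ≤ da 3 + 6 * K ∧
        db 0 + 12 * K ≤ da 4 + 6 * K)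

/-! ### The instance -/

section inst

variable {U : Fin 6 → Set ℂ} {T : ℂ → Set (Fin 6)} {K : ℕ} {uu : Fin K → ℝ}
  {FF : Fin K → Bool → Ultrafilter ℝ} {z : ℂ}

/-- **the side rules** -/
theorem side_of_frK (h : FrK U T uu FF) (z : ℂ) :
    SideK (TK T z uu) (LK T z uu FF) (IK T z uu FF) (OK T z uu FF) (ICK U z uu) (OCK U z uu) where
  ty := by
    intro c k i hi
    unfold TK at hi
    rw [← lK_step, lK_q0] at hi
    rcases out_or_inn h.irr.mx (z := z) (h.irr.sub _ hi) with h1 | h1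
    · exact Or.inr h1
    · exact Or.inl h1
  inz := by
    intro c σ k i hi
    unfold IK at hi
    rw [lK_q0] at hi
    exact innN_lim (h.fr c) hi
  outz := by
    intro c σ k i hi
    unfold OK at hi
    rw [lK_q0] at hi
    exact outN_lim (h.fr c) hi
  ltO := by
    intro c' c σ q m k i he hn hs hl
    have h1 := sin_sx h (c' := c') (c := c) (k := k) (m := m) hn
    rw [hs] at h1
    exact out_of_lt (h.fr c') hl (slot_eq he) h1
  ltI := by
    intro c' c σ q m k i he hn hs hl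
    have h1 := sin_sx h (c' := c') (c := c) (k := k) (m := m) hn
    have h2 : Vale.Agent.P032.H437.sg (sxK c' c (k - m)) = -Vale.Agent.P032.H437.sg σ := by
      revert hs
      cases sxK c' c (k - m) <;> cases σ <;> simp [Vale.Agent.P032.H437.sg]
    rw [h2] at h1
    exact inn_of_lt (h.fr c') hl (slot_eq he) (by linarith)
  opp := by
    intro c σ q m k i he hk hl
    have h1 := slot_eq (z := z) (uu := uu) he
    refine out_of_opp (h.fr c) hl h1 ?_
    have h2 : pt (lK z uu q) (uu c + (m.val : ℝ)) + pt (lK z uu q) (uu c + (m.val : ℝ)) =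
        lK z uu q + z := by
      have e1 : pt (lK z uu q) (uu c + (m.val : ℝ)) =
        lK z uu q + cis ((uu c + (m.val : ℝ)) * (Real.pi / 3)) := rfl
      have e2 : pt (lK z uu q) (uu c + (m.val : ℝ)) =
        z + cis ((uu c + (k.val : ℝ)) * (Real.pi / 3)) := h1
      have e3 : cis ((uu c + (k.val : ℝ)) * (Real.pi / 3)) =
          -cis ((uu c + (m.val : ℝ)) * (Real.pi / 3)) := by
        obtain ⟨n, hn⟩ := fin_sub_cast m k
        have key : ∀ a : Fin 6, a + 3 - a = 3 := by decide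
        have hk' : (k - m : Fin 6) = 3 := by rw [hk]; exact key m
        rw [hk'] at hn
        have e4 : (uu c + (k.val : ℝ)) * (Real.pi / 3) =
            (uu c + (m.val : ℝ)) * (Real.pi / 3) + Real.pi + n * (2 * Real.pi) := by
          have : (k.val : ℝ) = (m.val : ℝ) + 3 + 6 * n := by
            have h3 : (((3 : Fin 6).val : ℕ) : ℝ) = 3 := by norm_num
            linarith
          rw [this]; ring
        apply Complex.ext
        · rw [cis_re, Complex.neg_re, cis_re, e4, Real.cos_add_int_mul_two_pi, Real.cos_add_pi]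
        · rw [cis_im, Complex.neg_im, cis_im, e4, Real.sin_add_int_mul_two_pi, Real.sin_add_pi]
      rw [e3] at e2
      linear_combination e1 + e2
    linear_combination -h2

/-- renaming -/
theorem SideK.prm {TT : QK K → Fin 6 → Prop}
    {LT IN OUT : Fin K → Bool → QK K → Fin 6 → Fin 6 → Prop}
    {IC OC : Fin K → Fin 6 → Fin 6 → Prop} (h : SideK TT LT IN OUT IC OC)
    (g : Equiv.Perm (Fin 6)) :
    SideK (fun q i => TT q (g i)) (fun c s q j i => LT c s q j (g i))
      (fun c s q j i => IN c s q j (g i)) (fun c s q j i => OUT c s q j (g i))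
      (fun c k i => IC c k (g i)) (fun c k i => OC c k (g i)) where
  ty := fun hl => h.ty hl
  inz := fun hl => h.inz hl
  outz := fun hl => h.outz hl
  ltO := fun he hn hs hl => h.ltO he hn hs hl
  ltI := fun he hn hs hl => h.ltI he hn hs hl
  opp := fun he hk hl => h.opp he hk hl

theorem posK_int (x : ℝ) (n : ℤ) : posK uu (x + n) = posK uu x + 2 * K * n := by
  unfold posK
  have h1 : ∀ c, (⌊x + n - uu c - 1 / 2⌋ + ⌈x + n - uu c - 1 / 2⌉) =
      (⌊x - uu c - 1 / 2⌋ + ⌈x - uu c - 1 / 2⌉) + 2 * n := by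
    intro c
    have e : x + n - uu c - 1 / 2 = x - uu c - 1 / 2 + (n : ℝ) := by ring
    rw [e, Int.floor_add_intCast, Int.ceil_add_intCast]
    ring
  simp only [h1, Finset.sum_add_distrib, Finset.sum_const, Finset.card_univ, Fintype.card_fin,
    nsmul_eq_mul]
  ring

theorem toNat_mod {n : ℕ} (hn : 0 < n) {P Q : ℤ} (h : P ≤ Q) :
    (Q % (n : ℤ)).toNat = ((P % (n : ℤ)).toNat + (Q - P).toNat) % n := by
  have hn' : (n : ℤ) ≠ 0 := by omega
  have e1 : ((P % (n : ℤ)).toNat : ℤ) = P % n := Int.toNat_of_nonneg (Int.emod_nonneg _ hn')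
  have e2 : ((Q % (n : ℤ)).toNat : ℤ) = Q % n := Int.toNat_of_nonneg (Int.emod_nonneg _ hn')
  have e3 : ((Q - P).toNat : ℤ) = Q - P := Int.toNat_of_nonneg (by omega)
  apply Int.ofNat.inj
  show ((Q % (n : ℤ)).toNat : ℤ) = (((P % (n : ℤ)).toNat + (Q - P).toNat) % n : ℕ)
  rw [e2]
  push_cast
  rw [e1, e3, Int.emod_add_emod]
  congr 1
  ring

theorem pos_prv (b : Fin 5 → ℝ) (i : Fin 5) : posN uu (prv b i) = posN uu (b (i + 4)) := by
  fin_cases i
  · have h1 := posN_six (uu := uu) (b 4) (-1)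
    show posN uu (b 4 - 6) = posN uu (b 4)
    rw [← h1]
    congr 1
    push_cast; ring
  · rfl
  · rfl
  · rfl
  · rfl

theorem cos_zero908 {x t : ℝ} (h : Real.cos ((x - t) * (Real.pi / 3)) = 0) :
    ∃ n : ℤ, x - t = 3 * (n : ℝ) + 3 / 2 := by
  obtain ⟨k, hk⟩ := Real.cos_eq_zero_iff.1 h
  refine ⟨k, ?_⟩
  have hpi := Real.pi_pos
  have h1 : ((x - t) / 3) * Real.pi = ((2 * (k : ℝ) + 1) / 2) * Real.pi := by linarith
  have h2 := mul_right_cancel₀ hpi.ne' h1
  linarith

/-- **the instance at a 5-centre** -/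
theorem p5k_of (hK : 0 < K) (h : FrK U T uu FF)
    (hmin : ∀ z, 4 ≤ (T z).ncard → ∀ s, s ⊆ T z → s ≠ T z →
      ¬ ∀ᶠ w in 𝓝 z, ∃ i ∈ s, w ∈ U i ∨ (w ∈ XX U ∧ i ∈ Pal U w)) (g : Equiv.Perm (Fin 6))
    (P : P5 T z fun i : Fin 5 => g i.castSucc) {a b : Fin 5 → ℝ}
    (B : Blk5 U T z (fun i : Fin 5 => g i.castSucc) a b) :
    P5K (fun q i => TK T z uu q (g i)) (fun c s q j i => LK T z uu FF c s q j (g i))
      (fun c s q j i => IK T z uu FF c s q j (g i)) (fun c s q j i => OK T z uu FF c s q j (g i))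
      (fun q i j => MK T z uu q (g i) (g j)) (fun c k i => ICK U z uu c k (g i))
      (fun c k i => OCK U z uu c k (g i)) (fun m => posN uu (a m)) (fun m => posN uu (b m)) := by
  have hL : ∀ (c : Fin K) (σ : Bool) (k x : Fin 6), LK T z uu FF c σ (q0 K) k (g x) ↔
      g x ∈ lt (FF c σ) T z (k.val : ℝ) := by
    intro c σ k x
    unfold LK
    rw [lK_q0]
  have hset : ∀ (c : Fin K) (σ : Bool) (k : Fin 6) (S : Set (Fin 6)),
      (∀ x, LK T z uu FF c σ (q0 K) k (g x) ↔ x ∈ S) → lt (FF c σ) T z (k.val : ℝ) = g '' S := by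
    intro c σ k S hS
    ext y
    obtain ⟨x, rfl⟩ := g.surjective y
    rw [← hL, hS]
    constructor
    · exact fun hx => ⟨x, hx, rfl⟩
    · rintro ⟨x', hx', he⟩
      rwa [← g.injective he]
  have hinj := g.injective
  refine ⟨?_, ?_, ?_, ?_, ?_, ?_, ?_, ?_, ?_, ?_, ?_, ?_⟩
  · -- tz
    intro i
    show g i ∈ T (lK z uu (q0 K)) ↔ i ≠ 5
    rw [lK_q0]
    constructor
    · rintro hi rfl
      obtain ⟨j, hj, he⟩ := names_sub P hi
      exact hj (hinj he.symm)
    · exact fun hi => mem_names P hi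
  · -- noadj
    intro i hM
    obtain ⟨-, -, -, q, hq, hT⟩ := hM
    rw [lK_q0] at hq
    exact P.no_adj h.irr hmin hq i hT
  · -- lett
    intro c σ k
    by_cases h5 : LK T z uu FF c σ (q0 K) k (g 5)
    · exact Or.inl h5
    · right
      have h5' : g 5 ∉ lt (FF c σ) T z (k.val : ℝ) := by rwa [← hL]
      obtain ⟨v, h1, h2⟩ := ((lt_spec (FF c σ) T z (k.val : ℝ)).and ((h.fr c).lc σ z _)).exists
      have h2 : v + (k.val : ℝ) ∈ Lc T z := h2
      rw [← h1] at h5'
      obtain ⟨l, hl⟩ := pal5 h.irr hmin hinj P h2 h5'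
      refine ⟨l, ?_, ?_, fun x => ?_⟩
      · rintro rfl
        refine h5' ?_
        rw [hl]
        exact ⟨5, by decide, rfl⟩
      · by_contra hcon
        push Not at hcon
        obtain ⟨j, hj⟩ := K5_cons _ hcon
        refine P.no_consec_lc h.irr hmin h2 j ?_
        rw [hl, hj]
        simp [Set.image_insert_eq]
      · rw [hL, ← h1, hl]
        constructor
        · rintro ⟨y, hy, he⟩
          rw [← hinj he]
          exact hy
        · exact fun hx => ⟨x, hx, rfl⟩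
  · -- io
    intro c σ k i hi ho
    unfold IK at hi
    unfold H437.OK at ho
    rw [lK_q0] at hi ho
    have hi' : ∀ᶠ v in (FF c σ : Filter ℝ), H782.OccIn T (pt z (v + (k.val : ℝ)))
      {x | dist x z < 1} (g i.castSucc) := hi
    have ho' : ∀ᶠ v in (FF c σ : Filter ℝ), H782.OccIn T (pt z (v + (k.val : ℝ)))
      {x | 1 < dist x z} (g i.castSucc) := ho
    obtain ⟨v, h1, h2⟩ := (hi'.and ho').exists
    have h3 := H617.innN_of_occ h.irr h1
    have h4 := H617.outN_of_occ h.irr h2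
    obtain ⟨k1, k2⟩ := B.hd h.irr i
    obtain ⟨n1, e1⟩ := cos_zero908 (le_antisymm ((k1 _).1 h4) ((k1 _).2 h3))
    obtain ⟨n2, e2⟩ := cos_zero908 (le_antisymm ((k2 _).1 h4) ((k2 _).2 h3))
    obtain ⟨p1, p2⟩ := B.prv_lt i
    have q1 : (n1 : ℝ) < n2 := by linarith
    have q2 : (n2 : ℝ) < n1 + 1 := by linarith
    have q3 : n1 < n2 := by exact_mod_cast q1
    have q4 : n2 < n1 + 1 := by exact_mod_cast q2
    omega
  · exact fun _ m => ⟨posN_lt hK _, posN_lt hK _⟩
  · -- pair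
    intro c σ k i hl
    have h1 := hset c σ k {i.castSucc, (i + 2).castSucc} (fun x => by rw [hl x]; rfl)
    rw [Set.image_pair] at h1
    obtain ⟨s, h2, h3⟩ := fr_sign (c := c) (σ := σ) (k := k) (z := z) h
      (A := {x | x ∈ CD T z (fun i : Fin 5 => g i.castSucc) (i + 4) ∨
        x ∈ CD T z (fun i : Fin 5 => g i.castSucc) i})
      (B := {x | x ∈ CD T z (fun i : Fin 5 => g i.castSucc) (i + 1) ∨
        x ∈ CD T z (fun i : Fin 5 => g i.castSucc) (i + 2)}) (by
        filter_upwards [lt_spec (FF c σ) T z (k.val : ℝ)] with v hv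
        rw [h1] at hv
        exact sep_cd P h.irr hmin (dist_pt _ _) hv)
    exact ⟨s, ⟨h2 _ (Or.inl (B.ca _)), h2 _ (Or.inl (B.cb _)), h2 _ (Or.inr (B.ca _)),
      h2 _ (Or.inr (B.cb _))⟩, h3 _ (Or.inl (B.ca _)), h3 _ (Or.inl (B.cb _)),
      h3 _ (Or.inr (B.ca _)), h3 _ (Or.inr (B.cb _))⟩
  · -- trip
    intro c σ k i hl
    have h1 := hset c σ k {i.castSucc, (i + 1).castSucc, (i + 3).castSucc}
      (fun x => by rw [hl x]; rfl)
    rw [Set.image_insert_eq, Set.image_pair] at h1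
    obtain ⟨s, h2, h3⟩ := fr_sign (c := c) (σ := σ) (k := k) (z := z) h
      (A := {x | x ∈ CD T z (fun i : Fin 5 => g i.castSucc) (i + 2) ∨
        x ∈ CD T z (fun i : Fin 5 => g i.castSucc) (i + 3)})
      (B := {x | x ∈ CD T z (fun i : Fin 5 => g i.castSucc) i}) (by
        filter_upwards [lt_spec (FF c σ) T z (k.val : ℝ), (h.fr c).lc σ z (k.val : ℝ)] with v hv hv'
        rw [h1] at hv
        obtain ⟨s, hs, k1, k2⟩ := trip_cd P h.irr hmin i (q := pt z (v + (k.val : ℝ)))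
          ⟨dist_pt _ _, by rw [← hv]; exact Lc_circle hv'⟩
        exact ⟨s, hs, k1, k2⟩)
    exact ⟨s, ⟨h2 _ (Or.inl (B.ca _)), h2 _ (Or.inl (B.cb _)), h2 _ (Or.inr (B.ca _)),
      h2 _ (Or.inr (B.cb _))⟩, h3 _ (B.ca _), h3 _ (B.cb _)⟩
  · -- atIC
    intro c k i hi
    obtain ⟨k1, k2⟩ := B.hd h.irr i
    refine ⟨?_, pos_IC h k2 hi⟩
    rw [← pos_prv]
    exact pos_IC h k1 hi
  · -- atOC
    intro c k i hi
    obtain ⟨k1, k2⟩ := B.hd h.irr i
    refine ⟨?_, pos_OC h k2 hi⟩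
    rw [← pos_prv]
    exact pos_OC h k1 hi
  · -- atI
    intro c σ k i hi
    obtain ⟨k1, k2⟩ := B.hd h.irr i
    rw [← pos_prv]
    cases σ
    · exact ⟨decide_eq_true (pos_I0 h k1 hi), decide_eq_true (pos_I0 h k2 hi)⟩
    · exact ⟨decide_eq_true (pos_I1 h k1 hi), decide_eq_true (pos_I1 h k2 hi)⟩
  · -- atO
    intro c σ k i hi
    obtain ⟨k1, k2⟩ := B.hd h.irr i
    rw [← pos_prv]
    cases σ
    · have e1 := pos_O0 h k1 hi
      have e2 := pos_O0 h k2 hi
      exact ⟨decide_eq_false (by omega), decide_eq_false (by omega)⟩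
    · have e1 := pos_O1 h k1 hi
      have e2 := pos_O1 h k2 hi
      exact ⟨decide_eq_false (by omega), decide_eq_false (by omega)⟩
  · -- offs
    have o : Ord10 a b := ⟨B.le, B.lt⟩
    obtain ⟨⟨o1, o2⟩, ⟨o3, o4⟩, ⟨o5, o6⟩, ⟨o7, o8⟩, o9, o10⟩ := o.all
    have hK12 : 0 < 12 * K := by omega
    have mono : ∀ {x y : ℝ}, x ≤ y → posK uu x ≤ posK uu y := fun hxy => posK_mono hxy
    have s0 : posK uu (a 0 + 6) = posK uu (a 0) + 12 * K := by
      have := posK_six (uu := uu) (a 0) 1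
      push_cast at this
      rw [mul_one, mul_one] at this
      exact this
    have thr : ∀ x : ℝ, posK uu (x + 3) = posK uu x + 6 * K := by
      intro x
      have := posK_int (uu := uu) x 3
      push_cast at this
      rw [this]; ring
    have m1 := mono o1
    have m2 := mono o2.le
    have m3 := mono o3
    have m4 := mono o4.le
    have m5 := mono o5
    have m6 := mono o6.le
    have m7 := mono o7
    have m8 := mono o8.le
    have m9 := mono o9
    have m10 := mono o10.le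
    rw [s0] at m10
    have t0 := mono (B.gap 0).le
    have t1 := mono (B.gap 1).le
    have t2 := mono (B.gap 2).le
    have t3 := mono (B.gap 3).le
    have t4 := mono (B.gap 4).le
    have n0 : nxt b 0 = b 1 := rfl
    have n1 : nxt b 1 = b 2 := rfl
    have n2 : nxt b 2 = b 3 := rfl
    have n3 : nxt b 3 = b 4 := rfl
    have n4 : nxt b 4 = b 0 + 6 := rfl
    have s1 : posK uu (b 0 + 6) = posK uu (b 0) + 12 * K := by
      have := posK_six (uu := uu) (b 0) 1
      push_cast at this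
      rw [mul_one, mul_one] at this
      exact this
    rw [n0, thr] at t0
    rw [n1, thr] at t1
    rw [n2, thr] at t2
    rw [n3, thr] at t3
    rw [n4, thr, s1] at t4
    have ge : ∀ m, posK uu (a 0) ≤ posK uu (a m) := fun m => mono (o.bds m).1
    have geb : ∀ m, posK uu (a 0) ≤ posK uu (b m) := fun m => (ge m).trans (mono (B.le m))
    refine ⟨fun m => (posK uu (a m) - posK uu (a 0)).toNat,
      fun m => (posK uu (b m) - posK uu (a 0)).toNat, by simp, fun m => ⟨?_, ?_⟩, fun m => ?_,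
      ⟨?_, ?_, ?_, ?_, ?_⟩, ?_, ?_, ?_, ?_, ?_⟩
    · have := toNat_mod hK12 (ge m)
      push_cast at this
      exact this
    · have := toNat_mod hK12 (geb m)
      push_cast at this
      exact this
    · have := mono (B.le m)
      show (posK uu (a m) - posK uu (a 0)).toNat ≤ (posK uu (b m) - posK uu (a 0)).toNat
      omega
    all_goals
      show _ ≤ _
      simp only
      omega

end inst

end Vale.Agent.P032.H908
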