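import Vale.Agent.P032.H908.Low5

/-!
# P032: the signs of the ten rays in cyclic order

`P5K.alt` : at no slot the signs of four rays in cyclic order alternate.
`P5K.span` : at no slot the signs of five rays, one for each border, are equal.
-/

namespace Vale.Agent.P032.H908

open Vale.Agent.P032.H437 Vale.Agent.P032.H617

theorem rem_step {M a b : ℕ} (hM : 0 < M) (h1 : a ≤ b) (h2 : b ≤ a + M) :
    b % M = a % M + (b - a) ∨ b % M + M = a % M + (b - a) := by
  have ha := Nat.mod_lt a hM
  have e : b = a + (b - a) := by omega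
  by_cases h : a % M + (b - a) < M
  · left
    rw [e, Nat.add_mod]
    by_cases h3 : b - a < M
    · rw [Nat.mod_eq_of_lt h3, Nat.mod_eq_of_lt (by omega)]
      omega
    · omega
  · right
    by_cases h3 : b - a < M
    · rw [e, Nat.add_mod, Nat.mod_eq_of_lt h3, Nat.mod_eq_sub_mod (by omega),
        Nat.mod_eq_of_lt (by omega)]
      omega
    · have h4 : b - a = M := by omega
      rw [e, h4, Nat.add_mod_right]
      omega

/-- the sign of the position `x` for the half circle with the shift `C` -/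
def sgN (N C x : ℕ) : Bool := decide ((x + C) % (2 * N) < N)

theorem sgN_off (N C P d : ℕ) : sgN N C ((P + d) % (2 * N)) = decide ((P + C + d) % (2 * N) < N) := by
  unfold sgN
  rw [Nat.mod_add_mod, show P + d + C = P + C + d by ring]

/-- four positions in cyclic order do not alternate -/
theorem alt4 {N : ℕ} (hN : 0 < N) (C P : ℕ) {d1 d2 d3 d4 : ℕ} (h12 : d1 ≤ d2) (h23 : d2 ≤ d3)
    (h34 : d3 ≤ d4) (h41 : d4 ≤ d1 + 2 * N) (s : Bool)
    (e1 : sgN N C ((P + d1) % (2 * N)) = s) (e2 : sgN N C ((P + d2) % (2 * N)) = !s)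
    (e3 : sgN N C ((P + d3) % (2 * N)) = s) (e4 : sgN N C ((P + d4) % (2 * N)) = !s) : False := by
  rw [sgN_off] at e1 e2 e3 e4
  have hM : 0 < 2 * N := by omega
  have k1 := rem_step hM (a := P + C + d1) (b := P + C + d2) (by omega) (by omega)
  have k2 := rem_step hM (a := P + C + d2) (b := P + C + d3) (by omega) (by omega)
  have k3 := rem_step hM (a := P + C + d3) (b := P + C + d4) (by omega) (by omega)
  have l1 := Nat.mod_lt (P + C + d1) hM
  have l2 := Nat.mod_lt (P + C + d2) hM
  have l3 := Nat.mod_lt (P + C + d3) hM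
  have l4 := Nat.mod_lt (P + C + d4) hM
  revert k1 k2 k3 l1 l2 l3 l4 e1 e2 e3 e4
  generalize (P + C + d1) % (2 * N) = r1
  generalize (P + C + d2) % (2 * N) = r2
  generalize (P + C + d3) % (2 * N) = r3
  generalize (P + C + d4) % (2 * N) = r4
  intro e1 e2 e3 e4 k1 k2 k3 l1 l2 l3 l4
  cases s
  · rw [decide_eq_false_iff_not] at e1 e3
    rw [Bool.not_false, decide_eq_true_iff] at e2 e4
    omega
  · rw [decide_eq_true_iff] at e1 e3
    rw [Bool.not_true, decide_eq_false_iff_not] at e2 e4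
    omega

/-- five positions with steps of at most a half turn have not all the same sign -/
theorem span5 {N : ℕ} (hN : 0 < N) (C P : ℕ) {e0 e1 e2 e3 e4 : ℕ} (h01 : e0 ≤ e1) (h12 : e1 ≤ e2)
    (h23 : e2 ≤ e3) (h34 : e3 ≤ e4) (g01 : e1 ≤ e0 + N) (g12 : e2 ≤ e1 + N) (g23 : e3 ≤ e2 + N)
    (g34 : e4 ≤ e3 + N) (h40 : e4 ≤ e0 + 2 * N) (g40 : e0 + 2 * N ≤ e4 + N) (s : Bool)
    (s0 : sgN N C ((P + e0) % (2 * N)) = s) (s1 : sgN N C ((P + e1) % (2 * N)) = s)
    (s2 : sgN N C ((P + e2) % (2 * N)) = s) (s3 : sgN N C ((P + e3) % (2 * N)) = s)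
    (s4 : sgN N C ((P + e4) % (2 * N)) = s) : False := by
  rw [sgN_off] at s0 s1 s2 s3 s4
  have hM : 0 < 2 * N := by omega
  have k0 := rem_step hM (a := P + C + e0) (b := P + C + e1) (by omega) (by omega)
  have k1 := rem_step hM (a := P + C + e1) (b := P + C + e2) (by omega) (by omega)
  have k2 := rem_step hM (a := P + C + e2) (b := P + C + e3) (by omega) (by omega)
  have k3 := rem_step hM (a := P + C + e3) (b := P + C + e4) (by omega) (by omega)
  have k4 := rem_step hM (a := P + C + e4) (b := P + C + e0 + 2 * N) (by omega) (by omega)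
  rw [Nat.add_mod_right] at k4
  have l0 := Nat.mod_lt (P + C + e0) hM
  have l1 := Nat.mod_lt (P + C + e1) hM
  have l2 := Nat.mod_lt (P + C + e2) hM
  have l3 := Nat.mod_lt (P + C + e3) hM
  have l4 := Nat.mod_lt (P + C + e4) hM
  revert k0 k1 k2 k3 k4 l0 l1 l2 l3 l4 s0 s1 s2 s3 s4
  generalize (P + C + e0) % (2 * N) = r0
  generalize (P + C + e1) % (2 * N) = r1
  generalize (P + C + e2) % (2 * N) = r2
  generalize (P + C + e3) % (2 * N) = r3
  generalize (P + C + e4) % (2 * N) = r4
  intro s0 s1 s2 s3 s4 k0 k1 k2 k3 k4 l0 l1 l2 l3 l4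
  cases s
  · rw [decide_eq_false_iff_not] at s0 s1 s2 s3 s4
    omega
  · rw [decide_eq_true_iff] at s0 s1 s2 s3 s4
    omega

/-- the shift of the half circle of the slot `(c, k)` on the side `σ` -/
def shf (K c k : ℕ) (σ : Bool) : ℕ :=
  16 * K - 2 * K * k - 2 * c + bif σ then 12 * K - 1 else 0

theorem frK_eq {K c k : ℕ} (hc : c < K) (hk : k < 6) (σ : Bool) (x : ℕ) :
    frK K c k σ x = sgN (6 * K) (shf K c k σ) x := by
  have h1 : 2 * K * k ≤ 10 * K := by
    have : 2 * K * k ≤ 2 * K * 5 := Nat.mul_le_mul_left _ (by omega)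
    omega
  have h2 : x + 16 * K - 2 * K * k - 2 * c = x + (16 * K - 2 * K * k - 2 * c) := by omega
  have h3 : 2 * (6 * K) = 12 * K := by ring
  unfold frK sgN shf offK
  rw [h2, h3]
  generalize 16 * K - 2 * K * k - 2 * c = C
  cases σ
  · simp
  · simp only [cond_true]
    rw [decide_eq_decide]
    have hM : 0 < 12 * K := by omega
    have l := Nat.mod_lt (x + C) hM
    rw [← Nat.add_assoc, ← Nat.mod_add_mod (x + C) (12 * K) (12 * K - 1)]
    generalize (x + C) % (12 * K) = r at l
    by_cases h : r = 0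
    · subst h
      rw [Nat.zero_add, Nat.mod_eq_of_lt (by omega)]
      omega
    · have e : r + (12 * K - 1) = (r - 1) + 12 * K := by omega
      rw [e, Nat.add_mod_right, Nat.mod_eq_of_lt (by omega)]
      omega

/-! ### The ten rays -/

/-- the ten rays in cyclic order -/
def ray (pa pb : Fin 5 → ℕ) : Fin 10 → ℕ :=
  ![pa 0, pb 0, pa 1, pb 1, pa 2, pb 2, pa 3, pb 3, pa 4, pb 4]

/-- one ray of each border -/
def chs (pa pb : Fin 5 → ℕ) (t : Fin 5 → Bool) (m : Fin 5) : ℕ := bif t m then pb m else pa m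

section P5K

variable {K : ℕ} {TT : QK K → Fin 6 → Prop} {LT IN OUT : Fin K → Bool → QK K → Fin 6 → Fin 6 → Prop}
  {MM : QK K → Fin 6 → Fin 6 → Prop} {IC OC : Fin K → Fin 6 → Fin 6 → Prop} {pa pb : Fin 5 → ℕ}

/-- the signs of four rays in cyclic order do not alternate -/
theorem P5K.alt (h : P5K TT LT IN OUT MM IC OC pa pb) (c : Fin K) (σ : Bool) (k : Fin 6)
    {n1 n2 n3 n4 : Fin 10} (h12 : n1 ≤ n2) (h23 : n2 ≤ n3) (h34 : n3 ≤ n4) (s : Bool)
    (e1 : frK K c.val k.val σ (ray pa pb n1) = s) (e2 : frK K c.val k.val σ (ray pa pb n2) = !s)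
    (e3 : frK K c.val k.val σ (ray pa pb n3) = s) (e4 : frK K c.val k.val σ (ray pa pb n4) = !s) :
    False := by
  have hK : 0 < K := lt_of_le_of_lt (Nat.zero_le _) c.2
  obtain ⟨da, db, d0, hp, hle, ⟨h1, h2, h3, h4, h5⟩, -⟩ := h.offs
  have hd : ∀ n, ray pa pb n = (pa 0 + ray da db n) % (2 * (6 * K)) := by
    intro n
    rw [show 2 * (6 * K) = 12 * K by ring]
    fin_cases n
    · exact (hp 0).1
    · exact (hp 0).2
    · exact (hp 1).1
    · exact (hp 1).2
    · exact (hp 2).1
    · exact (hp 2).2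
    · exact (hp 3).1
    · exact (hp 3).2
    · exact (hp 4).1
    · exact (hp 4).2
  have hm : Monotone (ray da db) := by
    rw [Fin.monotone_iff_le_succ]
    intro i
    fin_cases i
    · exact hle 0
    · exact h1
    · exact hle 1
    · exact h2
    · exact hle 2
    · exact h3
    · exact hle 3
    · exact h4
    · exact hle 4
  have hb : ∀ n, ray da db n ≤ 12 * K := fun n => (hm (Fin.le_last n)).trans h5
  simp only [frK_eq c.2 k.2, hd] at e1 e2 e3 e4
  exact alt4 (by omega) _ _ (hm h12) (hm h23) (hm h34) (by have := hb n4; omega) s e1 e2 e3 e4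

/-- five rays, one for each border, have not all the same sign -/
theorem P5K.span (h : P5K TT LT IN OUT MM IC OC pa pb) (c : Fin K) (σ : Bool) (k : Fin 6)
    (t : Fin 5 → Bool) (s : Bool) (hs : ∀ m, frK K c.val k.val σ (chs pa pb t m) = s) : False := by
  have hK : 0 < K := lt_of_le_of_lt (Nat.zero_le _) c.2
  obtain ⟨da, db, d0, hp, hle, ⟨h1, h2, h3, h4, h5⟩, g1, g2, g3, g4, g5⟩ := h.offs
  have hd : ∀ m, chs pa pb t m = (pa 0 + chs da db t m) % (2 * (6 * K)) := by
    intro m
    rw [show 2 * (6 * K) = 12 * K by ring]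
    unfold chs
    cases t m
    · exact (hp m).1
    · exact (hp m).2
  have hl : ∀ m, da m ≤ chs da db t m ∧ chs da db t m ≤ db m := by
    intro m
    unfold chs
    cases t m
    · exact ⟨le_refl _, hle m⟩
    · exact ⟨hle m, le_refl _⟩
  simp only [frK_eq c.2 k.2, hd] at hs
  have l0 := hl 0
  have l1 := hl 1
  have l2 := hl 2
  have l3 := hl 3
  have l4 := hl 4
  exact span5 (by omega) _ _ (by omega) (by omega) (by omega) (by omega) (by omega) (by omega)
    (by omega) (by omega) (by omega) (by omega) s (hs 0) (hs 1) (hs 2) (hs 3) (hs 4)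

end P5K

end Vale.Agent.P032.H908
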