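import Vale.Agent.P032.H158.XC
import Vale.Agent.P032.H782.Cel

/-!
# P032: the wedge of two circles, in the form of germ cells

`a₁`, `a₂` are neighbours of `p`, not on a line with `p`.  The circle about `c₁` carries the colours of
`P` at points `x₁` near `a₁`, the circle about `c₂` carries the colours of `Q` at points `x₂` near `a₂`.
The circle about `x₁` meets the half branch `br` of `S(a₂)` at `p` at a point `q`; for `x₂` much nearer to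
`a₂` the circle about `x₂` meets `S(x₁)` near `q`, outside `D(a₂)` if `x₂` came nearer to `q`, inside if it
went away.  This point has none of the colours of `P` and `Q`.

`wedge2` : the general form, over an open set `C` which contains the points near the half branch on
that side.  `wedge2_occ` : some colour off `P` and `Q` occurs in `C` near `p`.
-/

open Set Filter Topology Metric

noncomputable section

namespace Vale.Agent.P032.H908

open Vale.Agent.P032.Six Vale.Agent.P032.H187 Vale.Agent.P032.H782 Vale.Agent.P032.H158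
  Vale.Agent.P032.S5.H767

variable {k : ℕ} {U : Fin k → Set ℂ} {T : ℂ → Set (Fin k)}

/-- intermediate value on a short interval -/
theorem ivt_path {f : ℝ → ℝ} {b : ℝ} (hb : 0 < b) (hf : Continuous f) (h0 : 0 < f 0)
    (h1 : f b < 0) : ∃ s, 0 < s ∧ s < b ∧ f s = 0 := by
  obtain ⟨s, ⟨hs1, hs2⟩, hs3⟩ := intermediate_value_Icc' hb.le hf.continuousOn
    (show (0 : ℝ) ∈ Icc _ _ from ⟨h1.le, h0.le⟩)
  refine ⟨s, lt_of_le_of_ne hs1 ?_, lt_of_le_of_ne hs2 ?_, hs3⟩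
  · rintro rfl
    rw [hs3] at h0
    exact lt_irrefl _ h0
  · rintro rfl
    rw [hs3] at h1
    exact lt_irrefl _ h1

/-- **First step**: the circle about `x` meets the path `br`. -/
theorem step1 {p a : ℂ} {br : ℝ → ℂ} (hbc : Continuous br) (hb0 : br 0 = p) {σ : ℝ}
    {G : ℂ → Prop} (hG : ∃ᶠ x in 𝓝 a, G x ∧ 0 < σ * (dist p x - 1))
    (hbr : ∀ᶠ l in 𝓝[>] (0 : ℝ), σ * (dist (br l) a - 1) < 0) {E : ℝ → Prop}
    (hE : ∀ᶠ l in 𝓝[>] (0 : ℝ), E l) : ∃ l x, 0 < l ∧ E l ∧ G x ∧ dist (br l) x = 1 := by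
  obtain ⟨δ, hδ, h6⟩ := mem_nhdsGT_iff_exists_Ioo_subset.1 (hbr.and hE)
  have hδ0 : (0 : ℝ) < δ := hδ
  have h7 : σ * (dist (br (δ / 2)) a - 1) < 0 := (h6 ⟨by linarith, by linarith⟩).1
  have h8 : ∀ᶠ x in 𝓝 a, σ * (dist (br (δ / 2)) x - 1) < 0 := by
    have hc : Continuous fun x : ℂ => σ * (dist (br (δ / 2)) x - 1) := by fun_prop
    exact hc.continuousAt.eventually (Iio_mem_nhds h7)
  obtain ⟨x, ⟨hx1, hx2⟩, hx3⟩ := (hG.and_eventually h8).exists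
  have hf : Continuous fun l : ℝ => σ * (dist (br l) x - 1) := by fun_prop
  obtain ⟨l, hl0, hl1, hl2⟩ := ivt_path (b := δ / 2) (by linarith) hf
    (by rw [hb0]; exact hx2) hx3
  refine ⟨l, x, hl0, (h6 ⟨hl0, by linarith⟩).2, hx1, ?_⟩
  have hσ : σ ≠ 0 := by
    rintro rfl
    rw [zero_mul] at hx2
    exact lt_irrefl _ hx2
  have := (mul_eq_zero.1 hl2).resolve_left hσ
  linarith

theorem side_sq {d σ : ℝ} (hd : 0 ≤ d) (h : 0 < σ * (d ^ 2 - 1)) : 0 < σ * (d - 1) := by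
  have e : σ * (d ^ 2 - 1) = (σ * (d - 1)) * (d + 1) := by ring
  rw [e] at h
  exact pos_of_mul_pos_left h (by linarith)

/-- **The side of a crossing circle.** -/
theorem cross_side {x a : ℂ} {ψ : ℝ} (h2 : dist (x + cis ψ) a = 1) (hne : x ≠ a)
    (hne' : x + a ≠ 2 * (x + cis ψ)) {σ : ℝ} (hσ : σ = 1 ∨ σ = -1) :
    ∃ κ : ℝ, ∀ᶠ μ in 𝓝[>] (0 : ℝ), 0 < σ * (dist (x + cis (ψ + κ * μ)) a - 1) := by
  set M : ℝ := (x.re - a.re) ^ 2 + (x.im - a.im) ^ 2 with hM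
  set E : ℝ := (x.im - a.im) * Real.cos ψ - (x.re - a.re) * Real.sin ψ with hE
  have h1 := Real.sin_sq_add_cos_sq ψ
  have h0 : (x.re - a.re) * Real.cos ψ + (x.im - a.im) * Real.sin ψ = -M / 2 := by
    have h3 : dist (x + cis ψ) a ^ 2 = 1 := by rw [h2]; norm_num
    rw [sq_dist] at h3
    simp only [Complex.add_re, Complex.add_im, cis_re, cis_im] at h3
    rw [hM]
    nlinarith
  have hf : ∀ s : ℝ, dist (x + cis (ψ + s)) a ^ 2 - 1 =
      M * (1 - Real.cos s) + 2 * (E * Real.sin s) := by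
    intro s
    rw [sq_dist]
    simp only [Complex.add_re, Complex.add_im, cis_re, cis_im]
    rw [Real.cos_add, Real.sin_add]
    have h4 := Real.sin_sq_add_cos_sq s
    have e : (x.re + (Real.cos ψ * Real.cos s - Real.sin ψ * Real.sin s) - a.re) ^ 2 +
        (x.im + (Real.sin ψ * Real.cos s + Real.cos ψ * Real.sin s) - a.im) ^ 2 =
        M + (Real.sin ψ ^ 2 + Real.cos ψ ^ 2) * (Real.sin s ^ 2 + Real.cos s ^ 2) +
          2 * (((x.re - a.re) * Real.cos ψ + (x.im - a.im) * Real.sin ψ) * Real.cos s +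
            E * Real.sin s) := by
      rw [hM, hE]; ring
    rw [e, h1, h4, h0]
    ring
  have hM0 : 0 < M := by
    rcases eq_or_ne x.re a.re with h3 | h3
    · have h4 : x.im ≠ a.im := fun h4 => hne (Complex.ext h3 h4)
      have := sq_pos_of_ne_zero (sub_ne_zero.2 h4)
      rw [hM]; nlinarith [sq_nonneg (x.re - a.re)]
    · have := sq_pos_of_ne_zero (sub_ne_zero.2 h3)
      rw [hM]; nlinarith [sq_nonneg (x.im - a.im)]
  have hEM : E ^ 2 + (M / 2) ^ 2 = M := by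
    have e : E ^ 2 + ((x.re - a.re) * Real.cos ψ + (x.im - a.im) * Real.sin ψ) ^ 2 =
        M * (Real.sin ψ ^ 2 + Real.cos ψ ^ 2) := by rw [hM, hE]; ring
    rw [h0, h1] at e
    linarith [e, show (-M / 2) ^ 2 = (M / 2) ^ 2 by ring]
  have hE0 : E ≠ 0 := by
    intro h3
    rw [h3] at hEM
    have h4 : M = 4 := by nlinarith
    refine hne' ?_
    have h5 : (x.re - a.re + 2 * Real.cos ψ) ^ 2 + (x.im - a.im + 2 * Real.sin ψ) ^ 2 = 0 := by
      have e : (x.re - a.re + 2 * Real.cos ψ) ^ 2 + (x.im - a.im + 2 * Real.sin ψ) ^ 2 =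
          M + 4 * ((x.re - a.re) * Real.cos ψ + (x.im - a.im) * Real.sin ψ) +
            4 * (Real.sin ψ ^ 2 + Real.cos ψ ^ 2) := by rw [hM]; ring
      rw [e, h0, h1, h4]
      norm_num
    have h6 : x.re - a.re + 2 * Real.cos ψ = 0 := by
      have := sq_nonneg (x.im - a.im + 2 * Real.sin ψ)
      have := sq_nonneg (x.re - a.re + 2 * Real.cos ψ)
      exact pow_eq_zero_iff (two_ne_zero) |>.1 (by linarith)
    have h7 : x.im - a.im + 2 * Real.sin ψ = 0 := by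
      have := sq_nonneg (x.im - a.im + 2 * Real.sin ψ)
      have := sq_nonneg (x.re - a.re + 2 * Real.cos ψ)
      exact pow_eq_zero_iff (two_ne_zero) |>.1 (by linarith)
    apply Complex.ext
    · simp only [Complex.add_re, Complex.mul_re, cis_re, Complex.re_ofNat, Complex.im_ofNat,
        zero_mul, sub_zero]
      linarith
    · simp only [Complex.add_im, Complex.mul_im, cis_im, Complex.re_ofNat, Complex.im_ofNat,
        zero_mul, add_zero]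
      linarith
  -- the sign
  obtain ⟨κ, hκ, hκE⟩ : ∃ κ : ℝ, (κ = 1 ∨ κ = -1) ∧ 0 < σ * (κ * E) := by
    rcases lt_or_gt_of_ne hE0 with h3 | h3
    · rcases hσ with rfl | rfl
      · exact ⟨-1, Or.inr rfl, by linarith⟩
      · exact ⟨1, Or.inl rfl, by linarith⟩
    · rcases hσ with rfl | rfl
      · exact ⟨1, Or.inl rfl, by linarith⟩
      · exact ⟨-1, Or.inr rfl, by linarith⟩
  refine ⟨κ, ?_⟩
  have hc : Continuous fun μ : ℝ => σ * (M * Real.sin (μ / 2)) +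
      2 * (σ * (κ * E)) * Real.cos (μ / 2) := by fun_prop
  have h3 : ∀ᶠ μ in 𝓝[>] (0 : ℝ), 0 < σ * (M * Real.sin (μ / 2)) +
      2 * (σ * (κ * E)) * Real.cos (μ / 2) := by
    have h4 := hc.tendsto 0
    simp only [zero_div, Real.sin_zero, mul_zero, Real.cos_zero, mul_one, zero_add] at h4
    exact (h4.eventually (Ioi_mem_nhds (by linarith))).filter_mono nhdsWithin_le_nhds
  have h5 : ∀ᶠ μ in 𝓝[>] (0 : ℝ), μ < 1 := nhdsWithin_le_nhds (Iio_mem_nhds one_pos)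
  filter_upwards [h3, h5, self_mem_nhdsWithin] with μ h6 h7 h8
  have h8 : (0 : ℝ) < μ := h8
  have h9 : 0 < Real.sin (μ / 2) :=
    Real.sin_pos_of_pos_of_lt_pi (by linarith) (by linarith [Real.pi_gt_three])
  refine side_sq dist_nonneg ?_
  rw [hf]
  have e1 : Real.cos (κ * μ) = 1 - 2 * Real.sin (μ / 2) ^ 2 := by
    have e2 : Real.cos (κ * μ) = Real.cos μ := by
      rcases hκ with rfl | rfl
      · rw [one_mul]
      · rw [neg_one_mul, Real.cos_neg]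
    rw [e2]
    have e3 := Real.cos_two_mul (μ / 2)
    rw [mul_div_cancel₀ μ two_ne_zero] at e3
    have e4 := Real.sin_sq_add_cos_sq (μ / 2)
    linarith
  have e5 : Real.sin (κ * μ) = κ * (2 * Real.sin (μ / 2) * Real.cos (μ / 2)) := by
    have e6 := Real.sin_two_mul (μ / 2)
    rw [mul_div_cancel₀ μ two_ne_zero] at e6
    rw [← e6]
    rcases hκ with rfl | rfl
    · rw [one_mul, one_mul]
    · rw [neg_one_mul, Real.sin_neg, neg_one_mul]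
  rw [e1, e5]
  have e7 : σ * (M * (1 - (1 - 2 * Real.sin (μ / 2) ^ 2)) +
      2 * (E * (κ * (2 * Real.sin (μ / 2) * Real.cos (μ / 2))))) =
      2 * Real.sin (μ / 2) * (σ * (M * Real.sin (μ / 2)) +
        2 * (σ * (κ * E)) * Real.cos (μ / 2)) := by ring
  rw [e7]
  positivity

/-- **Second step**: the circle about `y` meets the circle about `x` near `q`, on the side `σ` of the
circle about `a`. -/
theorem step2 {q x a : ℂ} (h1 : dist q x = 1) (h2 : dist q a = 1) (hne : x ≠ a)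
    (hne' : x + a ≠ 2 * q) {σ : ℝ} (hσ : σ = 1 ∨ σ = -1) {R : ℂ → Prop}
    (hR : ∀ᶠ w in 𝓝 q, 0 < σ * (dist w a - 1) → R w) {G : ℂ → Prop}
    (hG : ∃ᶠ y in 𝓝 a, G y ∧ σ * (dist q y - 1) < 0) :
    ∃ w y, R w ∧ G y ∧ dist w x = 1 ∧ dist w y = 1 := by
  obtain ⟨ψ, hψ⟩ := exists_cis (u := q - x) (by rw [← dist_eq_norm]; exact h1)
  have hq : q = x + cis ψ := by rw [← hψ]; ring
  subst hq
  obtain ⟨κ, hκ⟩ := cross_side h2 hne hne' hσ
  have hcw : Continuous fun μ : ℝ => x + cis (ψ + κ * μ) :=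
    continuous_const.add (continuous_cis.comp (by fun_prop))
  have h3 : Tendsto (fun μ : ℝ => x + cis (ψ + κ * μ)) (𝓝[>] (0 : ℝ)) (𝓝 (x + cis ψ)) := by
    have h4 := hcw.tendsto 0
    simp only [mul_zero, add_zero] at h4
    exact h4.mono_left nhdsWithin_le_nhds
  obtain ⟨δ, hδ, h6⟩ := mem_nhdsGT_iff_exists_Ioo_subset.1 (hκ.and (h3.eventually hR))
  have hδ0 : (0 : ℝ) < δ := hδ
  have h7 : 0 < σ * (dist (x + cis (ψ + κ * (δ / 2))) a - 1) :=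
    (h6 ⟨by linarith, by linarith⟩).1
  have h8 : ∀ᶠ y in 𝓝 a, 0 < σ * (dist (x + cis (ψ + κ * (δ / 2))) y - 1) := by
    have hc : Continuous fun y : ℂ => σ * (dist (x + cis (ψ + κ * (δ / 2))) y - 1) := by fun_prop
    exact hc.continuousAt.eventually (Ioi_mem_nhds h7)
  obtain ⟨y, ⟨hy1, hy2⟩, hy3⟩ := (hG.and_eventually h8).exists
  have hf : Continuous fun μ : ℝ => -(σ * (dist (x + cis (ψ + κ * μ)) y - 1)) := by
    have : Continuous fun μ : ℝ => dist (x + cis (ψ + κ * μ)) y := hcw.dist continuous_const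
    fun_prop
  obtain ⟨μ, hμ0, hμ1, hμ2⟩ := ivt_path (b := δ / 2) (by linarith) hf
    (by simp only [mul_zero, add_zero]; linarith) (by linarith)
  have h9 := h6 (show μ ∈ Ioo 0 δ from ⟨hμ0, by linarith⟩)
  refine ⟨x + cis (ψ + κ * μ), y, h9.2 h9.1, hy1, dist_add_cis _ _, ?_⟩
  have hσ0 : σ ≠ 0 := by rcases hσ with rfl | rfl <;> norm_num
  have := (mul_eq_zero.1 (neg_eq_zero.1 hμ2)).resolve_left hσ0
  linarith

/-- **The wedge of two circles.** -/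
theorem wedge2 (h : Mx U) {c1 c2 p a1 a2 : ℂ} {br : ℝ → ℂ} (hbc : Continuous br) (hb0 : br 0 = p)
    (hb2 : ∀ l, dist (br l) a2 = 1) {P Q : Set (Fin k)} {σ1 σ2 : ℝ} (hσ2 : σ2 = 1 ∨ σ2 = -1)
    (h12 : a1 ≠ a2) (h12' : a1 + a2 ≠ 2 * p) (hc1 : p ≠ c1) (hc1' : p + c1 ≠ 2 * a1)
    (hc2 : ∀ᶠ l in 𝓝[>] (0 : ℝ), br l ≠ c2 ∧ br l + c2 ≠ 2 * a2)
    (hP : ∃ᶠ x in 𝓝 a1, x ∈ Cr U c1 P ∧ 0 < σ1 * (dist p x - 1))
    (hbr : ∀ᶠ l in 𝓝[>] (0 : ℝ), σ1 * (dist (br l) a1 - 1) < 0)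
    (hQ : ∀ᶠ l in 𝓝[>] (0 : ℝ), ∃ᶠ y in 𝓝 a2, y ∈ Cr U c2 Q ∧ σ2 * (dist (br l) y - 1) < 0)
    {C : Set ℂ} (hC : ∀ᶠ l in 𝓝[>] (0 : ℝ), ∀ᶠ w in 𝓝 (br l),
      0 < σ2 * (dist w a2 - 1) → w ∈ C) :
    ∃ᶠ w in 𝓝 p, w ∈ C ∧ ∀ i, i ∈ P ∨ i ∈ Q → i ∉ Pal U w := by
  rw [frequently_iff]
  intro N hN
  obtain ⟨N', hN'N, hN'o, hN'⟩ := _root_.mem_nhds_iff.1 hN
  have hj : ∀ᶠ r in 𝓝 p ×ˢ 𝓝 a1, r.2 ≠ a2 ∧ r.2 + a2 ≠ 2 * r.1 ∧ r.1 ≠ c1 ∧
      r.1 + c1 ≠ 2 * r.2 := by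
    rw [← nhds_prod_eq]
    have c1' : Continuous fun r : ℂ × ℂ => r.2 + a2 := by fun_prop
    have c2' : Continuous fun r : ℂ × ℂ => 2 * r.1 := by fun_prop
    have c3' : Continuous fun r : ℂ × ℂ => r.1 + c1 := by fun_prop
    have c4' : Continuous fun r : ℂ × ℂ => 2 * r.2 := by fun_prop
    filter_upwards [(isOpen_ne_fun continuous_snd continuous_const).mem_nhds
        (show (p, a1) ∈ {r : ℂ × ℂ | r.2 ≠ a2} from h12),
      (isOpen_ne_fun c1' c2').mem_nhds (show (p, a1) ∈ {r : ℂ × ℂ | r.2 + a2 ≠ 2 * r.1} from h12'),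
      (isOpen_ne_fun continuous_fst continuous_const).mem_nhds
        (show (p, a1) ∈ {r : ℂ × ℂ | r.1 ≠ c1} from hc1),
      (isOpen_ne_fun c3' c4').mem_nhds
        (show (p, a1) ∈ {r : ℂ × ℂ | r.1 + c1 ≠ 2 * r.2} from hc1')] with r d1 d2 d3 d4
    exact ⟨d1, d2, d3, d4⟩
  obtain ⟨pa, hpa, pb, hpb, hj⟩ := eventually_prod_iff.1 hj
  obtain ⟨N2, hN2s, hN2o, hN2⟩ := _root_.eventually_nhds_iff.1 hpa
  have hbt : Tendsto br (𝓝[>] (0 : ℝ)) (𝓝 p) := by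
    have h4 := hbc.tendsto 0
    rw [hb0] at h4
    exact h4.mono_left nhdsWithin_le_nhds
  have hbn : ∀ᶠ l in 𝓝[>] (0 : ℝ), br l ∈ N' ∩ N2 :=
    hbt.eventually ((hN'o.inter hN2o).mem_nhds ⟨hN', hN2⟩)
  obtain ⟨l, x, hl0, ⟨⟨hl1, hl2⟩, hl3, hl4, hl5⟩, ⟨hx1, hx2⟩, hx3⟩ := step1 hbc hb0
    (G := fun x => x ∈ Cr U c1 P ∧ pb x) (σ := σ1) (a := a1)
    ((hP.and_eventually hpb).mono fun x hx => ⟨⟨hx.1.1, hx.2⟩, hx.1.2⟩) hbr
    (E := fun l => (br l ∈ N' ∩ N2) ∧ (br l ≠ c2 ∧ br l + c2 ≠ 2 * a2) ∧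
      (∃ᶠ y in 𝓝 a2, y ∈ Cr U c2 Q ∧ σ2 * (dist (br l) y - 1) < 0) ∧
      ∀ᶠ w in 𝓝 (br l), 0 < σ2 * (dist w a2 - 1) → w ∈ C)
    (by filter_upwards [hbn, hc2, hQ, hC] with l e1 e2 e3 e4 using ⟨e1, e2, e3, e4⟩)
  have hj2 : ∀ᶠ r in 𝓝 (br l) ×ˢ 𝓝 a2, r.1 ≠ c2 ∧ r.1 + c2 ≠ 2 * r.2 := by
    rw [← nhds_prod_eq]
    have c3' : Continuous fun r : ℂ × ℂ => r.1 + c2 := by fun_prop
    have c4' : Continuous fun r : ℂ × ℂ => 2 * r.2 := by fun_prop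
    filter_upwards [(isOpen_ne_fun continuous_fst continuous_const).mem_nhds
        (show (br l, a2) ∈ {r : ℂ × ℂ | r.1 ≠ c2} from hl3.1),
      (isOpen_ne_fun c3' c4').mem_nhds
        (show (br l, a2) ∈ {r : ℂ × ℂ | r.1 + c2 ≠ 2 * r.2} from hl3.2)] with r d3 d4
    exact ⟨d3, d4⟩
  obtain ⟨qa, hqa, qb, hqb, hj2⟩ := eventually_prod_iff.1 hj2
  have h6 := hj (hN2s _ hl2) hx2
  obtain ⟨w, y, ⟨hw1, ⟨hw2, hw3⟩, hw4⟩, ⟨hy1, hy2⟩, hd1, hd2⟩ := step2 (q := br l) (x := x) (a := a2)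
    (R := fun w => w ∈ C ∧ w ∈ N' ∩ N2 ∧ qa w) (G := fun y => y ∈ Cr U c2 Q ∧ qb y) hx3 (hb2 l)
    h6.1 h6.2.1 hσ2 (by
      filter_upwards [hl5, (hN'o.inter hN2o).mem_nhds ⟨hl1, hl2⟩, hqa] with w e1 e2 e3 e4
      exact ⟨e1 e4, e2, e3⟩)
    ((hl4.and_eventually hqb).mono fun y hy => ⟨⟨hy.1.1, hy.2⟩, hy.1.2⟩)
  have h7 := hj (hN2s _ hw3) hx2
  have h8 := hj2 hw4 hy2
  refine ⟨w, hN'N hw2, hw1, ?_⟩
  rintro i (hi | hi)
  · exact Cr_line h hx1 hi (by rw [dist_comm]; exact hd1) h7.2.2.1 h7.2.2.2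
  · exact Cr_line h hy1 hi (by rw [dist_comm]; exact hd2) h8.1 h8.2

/-- points without the colours of `P` and `Q` in an open region give another colour there -/
theorem occ_of_free (h : Irr U T) {p : ℂ} {C : Set ℂ} (hC : IsOpen C) {P Q : Set (Fin k)}
    (hf : ∃ᶠ w in 𝓝 p, w ∈ C ∧ ∀ i, i ∈ P ∨ i ∈ Q → i ∉ Pal U w) :
    ∃ c, c ∉ P ∧ c ∉ Q ∧ OccIn T p C c := by
  by_contra hcon
  push Not at hcon
  have h1 : ∀ᶠ w in 𝓝 p, w ∈ C → T w ⊆ P ∪ Q := sub_of_not_occ h hC fun c hc ho =>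
    hcon c (fun h1 => hc (Or.inl h1)) (fun h1 => hc (Or.inr h1)) ho
  obtain ⟨w, ⟨hw1, hw2⟩, hw3⟩ := (hf.and_eventually h1).exists
  obtain ⟨i, hi⟩ := h.ne w
  exact hw2 i (hw3 hw1 hi) (h.sub w hi)

end Vale.Agent.P032.H908
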