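import Vale.Agent.P032.H908.FrW

/-!
# P032: the wedge of two circles with its direction, any two times

`wedge2_nap` : points without the colours of `P` and `Q` in the direction of the half branch.
`wedge2_tau` : a colour off `P` and `Q` in this direction, with its sides at all neighbours of `p`.
`wedge2_lt` : the same for limit letters of two frames (two times `u`, `u'`).
-/

open Set Filter Topology Metric

noncomputable section

namespace Vale.Agent.P032.H908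

open Vale.Agent.P032.Six Vale.Agent.P032.H187 Vale.Agent.P032.H782 Vale.Agent.P032.H158
  Vale.Agent.P032.S5.H767 Vale.Agent.P032.S5.H122 Vale.Agent.P032.H437 Vale.Agent.P032.Sweep

section gen

variable {k : ℕ} {U : Fin k → Set ℂ} {T : ℂ → Set (Fin k)}

theorem cis_quarter {κ : ℝ} (hκ : κ = 1 ∨ κ = -1) (φ : ℝ) :
    cis ((φ + κ * (3 / 2)) * (Real.pi / 3)) = κ * (Complex.I * cis (φ * (Real.pi / 3))) := by
  apply Complex.ext
  · rw [cis_re]
    simp only [Complex.mul_re, Complex.mul_im, Complex.ofReal_re, Complex.ofReal_im, Complex.I_re,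
      Complex.I_im, cis_re, cis_im, zero_mul, one_mul, zero_sub, sub_zero]
    rcases hκ with rfl | rfl
    · have e : (φ + 1 * (3 / 2)) * (Real.pi / 3) = φ * (Real.pi / 3) + Real.pi / 2 := by ring
      rw [e, Real.cos_add_pi_div_two]; ring
    · have e : (φ + -1 * (3 / 2)) * (Real.pi / 3) = φ * (Real.pi / 3) - Real.pi / 2 := by ring
      rw [e, Real.cos_sub_pi_div_two]; ring
  · rw [cis_im]
    simp only [Complex.mul_re, Complex.mul_im, Complex.ofReal_re, Complex.ofReal_im, Complex.I_re,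
      Complex.I_im, cis_re, cis_im, zero_mul, one_mul, zero_add, add_zero]
    rcases hκ with rfl | rfl
    · have e : (φ + 1 * (3 / 2)) * (Real.pi / 3) = φ * (Real.pi / 3) + Real.pi / 2 := by ring
      rw [e, Real.sin_add_pi_div_two]; ring
    · have e : (φ + -1 * (3 / 2)) * (Real.pi / 3) = φ * (Real.pi / 3) - Real.pi / 2 := by ring
      rw [e, Real.sin_sub_pi_div_two]; ring

/-- **The wedge of two circles, direction.** -/
theorem wedge2_nap (h : Mx U) {w1 w2 : ℂ} {t1 t2 j1 j2 ε1 ε2 κ ρ : ℝ} {P Q : Set (Fin k)}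
    (hε1 : ε1 = 1 ∨ ε1 = -1) (hε2 : ε2 = 1 ∨ ε2 = -1) (hκ : κ = 1 ∨ κ = -1)
    (hρ : ρ = 1 ∨ ρ = -1)
    (hp : pt (pt w1 t1) (t1 + j1) = pt (pt w2 t2) (t2 + j2))
    (hP : ∃ᶠ s in 𝓝[>] (0 : ℝ), pt w1 (t1 + ε1 * s) ∈ Cr U w1 P)
    (hQ : ∃ᶠ s in 𝓝[>] (0 : ℝ), pt w2 (t2 + ε2 * s) ∈ Cr U w2 Q)
    (hA : 0 < ε1 * κ * (Real.sin (j1 * (Real.pi / 3)) *
      Real.sin ((t1 + j1 - (t2 + j2)) * (Real.pi / 3))))
    (hS : ∀ᶠ l in 𝓝[>] (0 : ℝ), 0 < ρ * (ε2 * Real.sin ((j2 + κ * l) * (Real.pi / 3)))) :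
    ∃ᶠ w in nap (pt (pt w2 t2) (t2 + j2)) (cis ((t2 + j2 + κ * (3 / 2)) * (Real.pi / 3))),
      0 < ρ * (dist w (pt w2 t2) - 1) ∧
      1 < dist w (pt (pt (pt w2 t2) (t2 + j2)) (t2 + j2)) ∧
      ∀ i, i ∈ P ∨ i ∈ Q → i ∉ Pal U w := by
  intro hcon
  set a2 := pt w2 t2 with ha2
  set φ := t2 + j2 with hφ
  set p := pt a2 φ with hpd
  set d := cis ((φ + κ * (3 / 2)) * (Real.pi / 3)) with hd
  have hm : ‖d‖ = 1 := norm_cis _
  obtain ⟨ε, hε, h3⟩ := nap_near_dir hm hcon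
  -- the half branch follows the direction
  have hder : HasDerivAt (fun s : ℝ => cis (φ * (Real.pi / 3) + κ * s)) d 0 := by
    have h4 : HasDerivAt (fun s : ℝ => φ * (Real.pi / 3) + κ * s) κ 0 := by
      have := ((hasDerivAt_id (0 : ℝ)).const_mul κ).const_add (φ * (Real.pi / 3))
      simpa using this
    have h5 := (hasDerivAt_cis (φ * (Real.pi / 3) + κ * 0)).scomp (0 : ℝ) h4
    simp only [mul_zero, add_zero] at h5
    refine h5.congr_deriv ?_
    rw [Complex.real_smul, hd, cis_quarter hκ]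
  have hpi : 0 < Real.pi / 3 := by positivity
  have hlt : Tendsto (fun l : ℝ => l * (Real.pi / 3)) (𝓝[>] 0) (𝓝[>] 0) := by
    refine tendsto_nhdsWithin_iff.2 ⟨?_, ?_⟩
    · have h2 : Continuous fun l : ℝ => l * (Real.pi / 3) := by fun_prop
      have h3 := h2.tendsto 0
      rw [zero_mul] at h3
      exact h3.mono_left nhdsWithin_le_nhds
    · filter_upwards [self_mem_nhdsWithin] with l hl
      exact mul_pos hl hpi
  have h4 : ∀ᶠ s : ℝ in 𝓝[>] 0,
      ‖cis (φ * (Real.pi / 3) + κ * s) - cis (φ * (Real.pi / 3)) - s * d‖ < ε * s := by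
    have h5 := (hasDerivAt_iff_isLittleO.1 hder).def (show 0 < ε / 2 by positivity)
    filter_upwards [h5.filter_mono nhdsWithin_le_nhds, self_mem_nhdsWithin] with s hs hs0
    have hs0 : (0 : ℝ) < s := hs0
    simp only [mul_zero, add_zero, sub_zero, Complex.real_smul] at hs
    rw [Real.norm_eq_abs, abs_of_pos hs0] at hs
    have : 0 < ε * s := by positivity
    linarith
  have h4' := hlt.eventually h4
  have h5 : ∀ᶠ l in 𝓝[>] (0 : ℝ), l * (Real.pi / 3) < ε := hlt.eventually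
    (nhdsWithin_le_nhds (Iio_mem_nhds hε))
  have h6 : ∀ᶠ s in 𝓝[>] (0 : ℝ), s < 1 := nhdsWithin_le_nhds (Iio_mem_nhds one_pos)
  have key := wedge2_pt_free h hε1 hε2 hκ hρ hp hP hQ hA hS
    (C := {w | 0 < ρ * (dist w a2 - 1) ∧ 1 < dist w (pt p φ) ∧
      ∃ b : ℝ, 0 < b ∧ b < ε ∧ ‖(w - p) - b * d‖ < ε * b}) (by
    filter_upwards [h4', h5, h6, self_mem_nhdsWithin] with l e1 e2 e3 e4
    have e4 : (0 : ℝ) < l := e4
    have hκl : κ * l ≠ 0 := by
      rcases hκ with rfl | rfl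
      · rw [one_mul]; exact e4.ne'
      · rw [neg_one_mul]; exact neg_ne_zero.2 e4.ne'
    have hκa : |κ * l| < 3 := by
      rcases hκ with rfl | rfl
      · rw [one_mul, abs_of_pos e4]; linarith
      · rw [neg_one_mul, abs_neg, abs_of_pos e4]; linarith
    have e5 : 1 < dist (pt a2 (φ + κ * l)) (pt p φ) := by
      rw [dist_comm]
      exact move_tan hκl hκa
    have c1 : Continuous fun w : ℂ => dist w (pt p φ) := by fun_prop
    have c2 : Continuous fun w : ℂ => ‖(w - p) - ((l * (Real.pi / 3) : ℝ) : ℂ) * d‖ := by fun_prop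
    have e6 : ‖(pt a2 (φ + κ * l) - p) - ((l * (Real.pi / 3) : ℝ) : ℂ) * d‖ <
        ε * (l * (Real.pi / 3)) := by
      have e7 : pt a2 (φ + κ * l) - p = cis (φ * (Real.pi / 3) + κ * (l * (Real.pi / 3))) -
          cis (φ * (Real.pi / 3)) := by
        rw [hpd]
        unfold pt
        have e8 : (φ + κ * l) * (Real.pi / 3) = φ * (Real.pi / 3) + κ * (l * (Real.pi / 3)) := by
          ring
        rw [e8]; ring
      rw [e7]
      exact e1
    filter_upwards [(c1.tendsto _).eventually (Ioi_mem_nhds e5),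
      (c2.tendsto _).eventually (Iio_mem_nhds e6)] with w f1 f2 f3
    exact ⟨f3, f1, l * (Real.pi / 3), by positivity, e2, f2⟩)
  obtain ⟨w, ⟨hw1, hw2, b, hb0, hb1, hb2⟩, hw3⟩ := key.exists
  have := h3 b hb0 hb1 (w - p) hb2
  rw [add_sub_cancel] at this
  exact this ⟨hw1, hw2, hw3⟩

/-- **The wedge of two circles, a colour in the direction.** -/
theorem wedge2_tau (h : Irr U T) {w1 w2 : ℂ} {t1 t2 j1 j2 ε1 ε2 κ ρ : ℝ} {P Q : Set (Fin k)}
    (hε1 : ε1 = 1 ∨ ε1 = -1) (hε2 : ε2 = 1 ∨ ε2 = -1) (hκ : κ = 1 ∨ κ = -1)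
    (hρ : ρ = 1 ∨ ρ = -1)
    (hp : pt (pt w1 t1) (t1 + j1) = pt (pt w2 t2) (t2 + j2))
    (hP : ∃ᶠ s in 𝓝[>] (0 : ℝ), pt w1 (t1 + ε1 * s) ∈ Cr U w1 P)
    (hQ : ∃ᶠ s in 𝓝[>] (0 : ℝ), pt w2 (t2 + ε2 * s) ∈ Cr U w2 Q)
    (hA : 0 < ε1 * κ * (Real.sin (j1 * (Real.pi / 3)) *
      Real.sin ((t1 + j1 - (t2 + j2)) * (Real.pi / 3))))
    (hS : ∀ᶠ l in 𝓝[>] (0 : ℝ), 0 < ρ * (ε2 * Real.sin ((j2 + κ * l) * (Real.pi / 3)))) :
    ∃ c, c ∉ P ∧ c ∉ Q ∧
      c ∈ tau T (pt (pt w2 t2) (t2 + j2)) (cis ((t2 + j2 + κ * (3 / 2)) * (Real.pi / 3))) ∧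
      (ρ = 1 → OutN U (pt w2 t2) (pt (pt w2 t2) (t2 + j2)) c) ∧
      (ρ = -1 → InnN U (pt w2 t2) (pt (pt w2 t2) (t2 + j2)) c) ∧
      OutN U (pt (pt (pt w2 t2) (t2 + j2)) (t2 + j2)) (pt (pt w2 t2) (t2 + j2)) c ∧
      ∀ v, dist (pt (pt w2 t2) (t2 + j2)) v = 1 →
        (0 < ip (cis ((t2 + j2 + κ * (3 / 2)) * (Real.pi / 3))) (pt (pt w2 t2) (t2 + j2) - v) →
          OutN U v (pt (pt w2 t2) (t2 + j2)) c) ∧
        (ip (cis ((t2 + j2 + κ * (3 / 2)) * (Real.pi / 3))) (pt (pt w2 t2) (t2 + j2) - v) < 0 →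
          InnN U v (pt (pt w2 t2) (t2 + j2)) c) := by
  have h1 := wedge2_nap h.mx hε1 hε2 hκ hρ hp hP hQ hA hS
  set p := pt (pt w2 t2) (t2 + j2) with hpd
  set d := cis ((t2 + j2 + κ * (3 / 2)) * (Real.pi / 3)) with hd
  have h2 : ∃ c, ∃ᶠ w in nap p d, (c ∉ P ∧ c ∉ Q) ∧ c ∈ T w ∧
      0 < ρ * (dist w (pt w2 t2) - 1) ∧ 1 < dist w (pt p (t2 + j2)) := by
    by_contra hcon
    have h5 : ∀ᶠ w in nap p d, ∀ c, ¬ ((c ∉ P ∧ c ∉ Q) ∧ c ∈ T w ∧
        0 < ρ * (dist w (pt w2 t2) - 1) ∧ 1 < dist w (pt p (t2 + j2))) :=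
      eventually_all.2 fun c => not_frequently.1 (not_exists.1 hcon c)
    obtain ⟨w, ⟨h6, h7, h8⟩, h9⟩ := (h1.and_eventually h5).exists
    obtain ⟨c, hc⟩ := h.ne w
    exact h9 c ⟨⟨fun h10 => h8 c (Or.inl h10) (h.sub w hc), fun h10 => h8 c (Or.inr h10)
      (h.sub w hc)⟩, hc, h6, h7⟩
  obtain ⟨c, hc⟩ := h2
  obtain ⟨w0, hw0⟩ := hc.exists
  have hct : c ∈ tau T p d := hc.mono fun w hw => hw.2.1
  have hcn : ∃ᶠ w in 𝓝 p, c ∈ T w ∧ 0 < ρ * (dist w (pt w2 t2) - 1) ∧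
      1 < dist w (pt p (t2 + j2)) :=
    (hc.filter_mono (nap_le p d)).mono fun w hw => hw.2
  refine ⟨c, hw0.1.1, hw0.1.2, hct, ?_, ?_, ?_, fun v hv => ⟨outN_of_tau h hct hv,
    innN_of_tau h hct hv⟩⟩
  · rintro rfl
    exact outN_of h (hcn.mono fun w hw => ⟨hw.1, by linarith [hw.2.1]⟩)
  · rintro rfl
    exact innN_of h (hcn.mono fun w hw => ⟨hw.1, by linarith [hw.2.1]⟩)
  · exact outN_of h (hcn.mono fun w hw => ⟨hw.1, hw.2.2⟩)

end gen

/-! ### limit letters of two frames -/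

variable {U : Fin 6 → Set ℂ} {T : ℂ → Set (Fin 6)} {u u' : ℝ} {F F' : Bool → Ultrafilter ℝ}

/-- the letter of a frame as available points, any centre, any slot -/
theorem avail (hf : Fr U T u F) (σ : Bool) (w : ℂ) (k : ℝ) :
    ∃ᶠ s in 𝓝[>] (0 : ℝ), pt w (u + k + sg σ * s) ∈ Cr U w (lt (F σ) T w k) := by
  have h1 := freq_of_fr hf σ ((Filter.Eventually.and (hf.lc σ w k) (lt_spec (F σ) T w k)))
  refine h1.mono fun s hs => ?_
  have := cr_of_Lc hf.irr hs.1 hs.2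
  rw [sgZ_cast] at this
  rwa [show u + sg σ * s + k = u + k + sg σ * s by ring] at this

theorem sg_cases (σ : Bool) : sg σ = 1 ∨ sg σ = -1 := by cases σ <;> simp [sg]

/-- **The wedge of two circles for limit letters at two times** `u`, `u'` (they may be equal). -/
theorem wedge2_lt (hf : Fr U T u F) (hf' : Fr U T u' F') {σ1 σ2 : Bool} {w1 w2 : ℂ}
    {k1 k2 j1 j2 κ ρ : ℝ} (hκ : κ = 1 ∨ κ = -1) (hρ : ρ = 1 ∨ ρ = -1)
    (hp : pt (pt w1 (u + k1)) (u + k1 + j1) = pt (pt w2 (u' + k2)) (u' + k2 + j2))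
    (hA : 0 < sg σ1 * κ * (Real.sin (j1 * (Real.pi / 3)) *
      Real.sin ((u + k1 + j1 - (u' + k2 + j2)) * (Real.pi / 3))))
    (hS : ∀ᶠ l in 𝓝[>] (0 : ℝ), 0 < ρ * (sg σ2 * Real.sin ((j2 + κ * l) * (Real.pi / 3)))) :
    ∃ c, c ∉ lt (F σ1) T w1 k1 ∧ c ∉ lt (F' σ2) T w2 k2 ∧
      c ∈ tau T (pt (pt w2 (u' + k2)) (u' + k2 + j2))
        (cis ((u' + k2 + j2 + κ * (3 / 2)) * (Real.pi / 3))) ∧
      (ρ = 1 → OutN U (pt w2 (u' + k2)) (pt (pt w2 (u' + k2)) (u' + k2 + j2)) c) ∧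
      (ρ = -1 → InnN U (pt w2 (u' + k2)) (pt (pt w2 (u' + k2)) (u' + k2 + j2)) c) ∧
      OutN U (pt (pt (pt w2 (u' + k2)) (u' + k2 + j2)) (u' + k2 + j2))
        (pt (pt w2 (u' + k2)) (u' + k2 + j2)) c ∧
      ∀ v, dist (pt (pt w2 (u' + k2)) (u' + k2 + j2)) v = 1 →
        (0 < ip (cis ((u' + k2 + j2 + κ * (3 / 2)) * (Real.pi / 3)))
            (pt (pt w2 (u' + k2)) (u' + k2 + j2) - v) →
          OutN U v (pt (pt w2 (u' + k2)) (u' + k2 + j2)) c) ∧
        (ip (cis ((u' + k2 + j2 + κ * (3 / 2)) * (Real.pi / 3)))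
            (pt (pt w2 (u' + k2)) (u' + k2 + j2) - v) < 0 →
          InnN U v (pt (pt w2 (u' + k2)) (u' + k2 + j2)) c) :=
  wedge2_tau hf.irr (sg_cases σ1) (sg_cases σ2) hκ hρ hp (avail hf σ1 w1 k1) (avail hf' σ2 w2 k2)
    hA hS

/-- **One circle, germ rule for limit letters**: the letter of `S(w)` at the slot `k` moves away from
(`σ sin (j π/3) < 0`) or towards the neighbour `p`: a colour off the letter in every cell on the swept
side. -/
theorem germ_lt (hf : Fr U T u F) {σ : Bool} {w : ℂ} {k j δ : ℝ}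
    (hj : 0 < -(sg σ * Real.sin (j * (Real.pi / 3))) *
      Real.cos ((δ - (u + k + j + 3)) * (Real.pi / 3)))
    {V : Finset ℂ} (hV : ∀ v ∈ V, dist (pt (pt w (u + k)) (u + k + j)) v = 1) :
    ∃ c, c ∉ lt (F σ) T w k ∧ OccIn T (pt (pt w (u + k)) (u + k + j))
      (Cel V (pt (pt w (u + k)) (u + k + j)) (cis (δ * (Real.pi / 3)))) c := by
  have h3 : (lt (F σ) T w k).ncard ≤ 3 := lt_card hf.irr (hf.lc σ w k)
  have hfr : ∃ᶠ s in 𝓝[>] (0 : ℝ), T (pt w (u + k + sg σ * s)) = lt (F σ) T w k := by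
    have h1 := freq_of_fr hf σ (lt_spec (F σ) T w k)
    refine h1.mono fun s hs => ?_
    rw [sgZ_cast] at hs
    rwa [show u + sg σ * s + k = u + k + sg σ * s by ring] at hs
  have hm : cis (δ * (Real.pi / 3)) ≠ 0 := by
    intro h0
    have := norm_cis (δ * (Real.pi / 3))
    rw [h0, norm_zero] at this
    exact zero_ne_one this
  have hip : ip (cis (δ * (Real.pi / 3))) (pt w (u + k) - pt (pt w (u + k)) (u + k + j)) =
      Real.cos ((δ - (u + k + j + 3)) * (Real.pi / 3)) := by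
    have e1 : pt w (u + k) = pt (pt (pt w (u + k)) (u + k + j)) (u + k + j + 3) :=
      (pt_back _ _).symm
    conv_lhs => rw [show pt w (u + k) - pt (pt w (u + k)) (u + k + j) =
      pt (pt (pt w (u + k)) (u + k + j)) (u + k + j + 3) - pt (pt w (u + k)) (u + k + j) by
        rw [← e1]]
    rw [ip_cis]
  refine sweep_cel hf.irr hV hm (dist_pt _ _) h3 ?_
  rw [hip]
  rcases lt_or_gt_of_ne (left_ne_zero_of_mul hj.ne') with h5 | h5
  · right
    have h6 : Real.cos ((δ - (u + k + j + 3)) * (Real.pi / 3)) < 0 := by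
      by_contra hn
      push Not at hn
      exact absurd hj (not_lt.2 (mul_nonpos_of_nonpos_of_nonneg h5.le hn))
    refine ⟨h6.le, freq_pt hfr (move_germ w (u + k) (j := j) (ε := sg σ) (c := 1) (sg_cases σ)
      (by linarith)) fun s hs => ?_⟩
    linarith
  · left
    have h6 : 0 < Real.cos ((δ - (u + k + j + 3)) * (Real.pi / 3)) := pos_of_mul_pos_right hj h5.le
    refine ⟨h6, freq_pt hfr (move_germ w (u + k) (j := j) (ε := sg σ) (c := -1) (sg_cases σ)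
      (by linarith)) fun s hs => ?_⟩
    linarith

end Vale.Agent.P032.H908
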